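import Crest.Agent.R72.Defs

/-!
Row 72: from the discrete theorem on `ℤ × ℤ` to the continuous count bound.
-/

set_option autoImplicit false
set_option linter.unusedVariables false

namespace Crest.Agent.R72

open MeasureTheory Filter Set Crest.AnalysisR
open scoped ENNReal

namespace CountAux

/-- one cell, rescaled to the unit interval -/
lemma cell (h : ℝ → ℂ) {δ : ℝ} (hδ : 0 < δ) (j : ℝ)
    (hi : IntervalIntegrable h volume (δ * j) (δ * (j + 1))) :
    IntervalIntegrable (fun s => (δ : ℂ) * h (δ * (j + s))) volume 0 1 ∧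
      ∫ t in (δ * j)..(δ * (j + 1)), h t = ∫ s in (0 : ℝ)..1, (δ : ℂ) * h (δ * (j + s)) := by
  constructor
  · have h1 := (hi.comp_mul_left (c := δ)).comp_add_left j
    rw [mul_div_cancel_left₀ _ hδ.ne', mul_div_cancel_left₀ _ hδ.ne', sub_self,
      add_sub_cancel_left] at h1
    exact h1.const_mul _
  · have := intervalIntegral.smul_integral_comp_mul_add (a := 0) (b := 1) h δ (δ * j)
    rw [intervalIntegral.integral_const_mul]
    simp only [mul_zero, zero_add, mul_one] at this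
    rw [show δ * (j + 1) = δ + δ * j by ring, ← this, Complex.real_smul]
    congr 2
    ext s
    congr 1
    ring

lemma annulus_le (h : ℝ → ℂ) {δ : ℝ} (hδ : 0 < δ) {a b : ℕ} (hab : a ≤ b) :
    ‖∫ t in {t : ℝ | δ * a < |t| ∧ |t| < δ * b}, h t‖ₑ ≤
      ∫⁻ s in Ioc (0 : ℝ) 1, ‖∑ i ∈ Finset.Ico a b,
        ((δ : ℂ) * h (δ * (i + s)) + (δ : ℂ) * h (δ * (-1 - i + s)))‖ₑ := by
  by_cases hi : IntegrableOn h {t : ℝ | δ * a < |t| ∧ |t| < δ * b}
  swap
  · rw [integral_undef hi]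
    simp
  have ha : 0 ≤ δ * a := by positivity
  have hab' : δ * a ≤ δ * b := mul_le_mul_of_nonneg_left (Nat.cast_le.mpr hab) hδ.le
  have hU : {t : ℝ | δ * a < |t| ∧ |t| < δ * b} =
      Ioo (δ * a) (δ * b) ∪ Ioo (-(δ * b)) (-(δ * a)) := by
    ext t
    simp only [mem_ofPred_eq, mem_union, mem_Ioo]
    rcases le_total 0 t with ht | ht
    · rw [abs_of_nonneg ht]
      exact ⟨Or.inl, fun h => h.elim id fun h => by exfalso; linarith [h.2]⟩
    · rw [abs_of_nonpos ht]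
      exact ⟨fun h => Or.inr ⟨by linarith [h.2], by linarith [h.1]⟩,
        fun h => h.elim (fun h => by exfalso; linarith [h.1])
          fun h => ⟨by linarith [h.2], by linarith [h.1]⟩⟩
  rw [hU] at hi ⊢
  have i1 : IntervalIntegrable h volume (δ * a) (δ * b) :=
    (intervalIntegrable_iff_integrableOn_Ioo_of_le hab').mpr (hi.mono_set subset_union_left)
  have i2 : IntervalIntegrable h volume (-(δ * b)) (-(δ * a)) :=
    (intervalIntegrable_iff_integrableOn_Ioo_of_le (neg_le_neg hab')).mpr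
      (hi.mono_set subset_union_right)
  have j1 : ∀ k ∈ Ico a b, IntervalIntegrable h volume (δ * k) (δ * (k + 1)) := fun k hk =>
    i1.mono_set (by
      have h1 : (a : ℝ) ≤ k := Nat.cast_le.mpr hk.1
      have h2 : (k : ℝ) + 1 ≤ b := by exact_mod_cast hk.2
      rw [uIcc_of_le hab', uIcc_of_le (by nlinarith)]
      exact Icc_subset_Icc (by nlinarith) (by nlinarith))
  have j2 : ∀ k ∈ Ico a b, IntervalIntegrable h volume (δ * (-1 - k)) (δ * (-1 - k + 1)) :=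
    fun k hk => i2.mono_set (by
      have h1 : (a : ℝ) ≤ k := Nat.cast_le.mpr hk.1
      have h2 : (k : ℝ) + 1 ≤ b := by exact_mod_cast hk.2
      rw [uIcc_of_le (neg_le_neg hab'), uIcc_of_le (by nlinarith)]
      exact Icc_subset_Icc (by nlinarith) (by nlinarith))
  have s1 := intervalIntegral.sum_integral_adjacent_intervals_Ico (f := h) (μ := volume)
    (a := fun k : ℕ => δ * k) hab fun k hk => by simpa using j1 k hk
  have s2 := intervalIntegral.sum_integral_adjacent_intervals_Ico (f := h) (μ := volume)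
    (a := fun k : ℕ => -(δ * k)) hab fun k hk => by
      have := (j2 k hk).symm
      convert this using 1 <;> push_cast <;> ring
  rw [setIntegral_union (by
      rw [Set.disjoint_left]
      intro t h1 h2
      linarith [h1.1, h2.2]) measurableSet_Ioo (hi.mono_set subset_union_left)
      (hi.mono_set subset_union_right), ← integral_Ioc_eq_integral_Ioo,
    ← integral_Ioc_eq_integral_Ioo, ← intervalIntegral.integral_of_le hab',
    ← intervalIntegral.integral_of_le (neg_le_neg hab'), intervalIntegral.integral_symm (-(δ * a)),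
    ← s1, ← s2, ← Finset.sum_neg_distrib, ← Finset.sum_add_distrib]
  refine le_trans (le_of_eq ?_) (enorm_integral_le_lintegral_enorm _)
  congr 1
  have c1 := fun (i : ℕ) (hi : i ∈ Finset.Ico a b) => cell h hδ i (j1 i (by simpa using hi))
  have c2 := fun (i : ℕ) (hi : i ∈ Finset.Ico a b) =>
    cell h hδ (-1 - i) (j2 i (by simpa using hi))
  rw [← intervalIntegral.integral_of_le zero_le_one, intervalIntegral.integral_finsetSum
    fun i hi => (c1 i hi).1.add (c2 i hi).1]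
  refine Finset.sum_congr rfl fun i hi => ?_
  rw [intervalIntegral.integral_add (c1 i hi).1 (c2 i hi).1, ← (c1 i hi).2, ← (c2 i hi).2,
    ← intervalIntegral.integral_symm]
  congr 2 <;> push_cast <;> ring

/-- the sampled integrand -/
noncomputable def ph (F G : ℝ × ℝ → ℂ) (δ : ℝ) (z : ℝ × ℝ) (s : ℝ) (j : ℤ) : ℂ :=
  F (z.1 + δ * (j + s), z.2) * G (z.1, z.2 + δ * (j + s))

lemma HT_le (F G : ℝ × ℝ → ℂ) {δ : ℝ} (hδ : 0 < δ) {a b : ℕ} (hab : a ≤ b) (z : ℝ × ℝ) :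
    ‖annularTriangularHT F G (δ * a) (δ * b) z‖ₑ ≤
      ∫⁻ s in Ioc (0 : ℝ) 1, ‖∑ i ∈ Finset.Ico a b,
        (ph F G δ z s i / ((i : ℂ) + s) + ph F G δ z s (-1 - i) / (-1 - (i : ℂ) + s))‖ₑ := by
  refine (annulus_le _ hδ hab).trans (le_of_eq ?_)
  have hδ' : (δ : ℂ) ≠ 0 := by exact_mod_cast hδ.ne'
  have e : ∀ x y : ℂ, δ * (x / (δ * y)) = x / y := fun x y => by
    rw [← mul_div_assoc, mul_div_mul_left _ _ hδ']
  congr 1
  ext s
  congr 1
  refine Finset.sum_congr rfl fun i _ => ?_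
  simp only [ph]
  push_cast
  rw [e, e]

lemma le_lintegral_sum {α β : Type*} [MeasurableSpace α] (μ : Measure α) (s : Finset β)
    (f : β → α → ℝ≥0∞) : ∑ b ∈ s, ∫⁻ a, f b a ∂μ ≤ ∫⁻ a, ∑ b ∈ s, f b a ∂μ := by
  classical
  induction s using Finset.induction_on with
  | empty => simp
  | insert b s hb ih =>
    simp only [Finset.sum_insert hb]
    exact (add_le_add le_rfl ih).trans (le_lintegral_add _ _)

lemma exists_nat (q : ℚ) (hq : 0 < q) :
    ∀ᶠ D : ℕ in atTop, ∃ a : ℕ, (q : ℝ) = 1 / (D.factorial : ℝ) * a ∧ a ≤ D * D.factorial := by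
  filter_upwards [eventually_ge_atTop q.den, eventually_ge_atTop ⌈q⌉₊] with D h1 h2
  obtain ⟨c, hc⟩ := Nat.dvd_factorial q.den_pos h1
  have hD : (0 : ℝ) < D.factorial := by exact_mod_cast D.factorial_pos
  have hq' : (q : ℝ) * q.den = q.num.toNat := by
    have h3 : ((q.num.toNat : ℤ) : ℚ) = q.num := by
      rw [Int.toNat_of_nonneg (Rat.num_pos.mpr hq).le]
    have h4 : q * q.den = q.num.toNat := by
      rw [Rat.mul_den_eq_num]
      exact_mod_cast h3.symm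
    exact_mod_cast h4
  have e : (q : ℝ) * D.factorial = (q.num.toNat * c : ℕ) := by
    rw [hc]
    push_cast
    rw [← mul_assoc, hq']
  refine ⟨q.num.toNat * c, by rw [← e]; field_simp, ?_⟩
  have h3 : (q : ℝ) ≤ D := by
    have := (Nat.le_ceil q).trans (Nat.cast_le.mpr h2)
    exact_mod_cast this
  have : ((q.num.toNat * c : ℕ) : ℝ) ≤ (D * D.factorial : ℕ) := by
    rw [← e]
    push_cast
    exact mul_le_mul_of_nonneg_right h3 hD.le
  exact_mod_cast this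

lemma family_le (n : ℕ) (F G : ℝ × ℝ → ℂ) (z : ℝ × ℝ) (m : ℕ) (hm : m ≤ n) (ε R : Fin m → ℚ)
    (h1 : ∀ j, 0 < ε j ∧ ε j < R j) (h2 : ∀ i j, i ≠ j → R i ≤ ε j ∨ R j ≤ ε i) :
    ∀ᶠ D : ℕ in atTop, ∑ j, ‖annularTriangularHT F G (ε j : ℝ) (R j : ℝ) z‖ₑ ≤
      ∫⁻ s in Ioc (0 : ℝ) 1, cnt n (D * D.factorial) s (ph F G (1 / D.factorial) z s) := by
  filter_upwards [eventually_all.mpr fun j => exists_nat (ε j) (h1 j).1,
    eventually_all.mpr fun j => exists_nat (R j) ((h1 j).1.trans (h1 j).2)] with D ha hb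
  choose a ha ha' using ha
  choose b hb hb' using hb
  have hδ : (0 : ℝ) < 1 / D.factorial := by
    have := D.factorial_pos
    positivity
  have hlt : ∀ j, a j < b j := fun j => by
    have : (ε j : ℝ) < R j := by exact_mod_cast (h1 j).2
    rw [ha, hb] at this
    exact_mod_cast lt_of_mul_lt_mul_left this hδ.le
  have hle : ∀ i j, R i ≤ ε j → b i ≤ a j := fun i j h => by
    have : (R i : ℝ) ≤ ε j := by exact_mod_cast h
    rw [ha, hb] at this
    exact_mod_cast le_of_mul_le_mul_left this hδ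
  have h0 : ∀ j, 1 ≤ a j := fun j => by
    have : (0 : ℝ) < ε j := by exact_mod_cast (h1 j).1
    rw [ha] at this
    exact_mod_cast (mul_pos_iff_of_pos_left hδ).mp this
  simp only [ha, hb]
  refine (Finset.sum_le_sum fun j _ => HT_le F G hδ (hlt j).le z).trans
    ((le_lintegral_sum _ _ _).trans (lintegral_mono fun s => ?_))
  exact le_iSup₂_of_le m hm (le_iSup₂_of_le a b (le_iSup₂_of_le
    (fun j => ⟨h0 j, hlt j, hb' j⟩) (fun i j h => (h2 i j h).imp (hle i j) (hle j i)) le_rfl))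

lemma measurable_cnt {F G : ℝ × ℝ → ℂ} (hF : Measurable F) (hG : Measurable G) (n J : ℕ) (δ : ℝ) :
    Measurable fun w : (ℝ × ℝ) × ℝ => cnt n J w.2 (ph F G δ w.1 w.2) := by
  unfold cnt ph
  refine Measurable.iSup fun m => Measurable.iSup fun _ => Measurable.iSup fun a =>
    Measurable.iSup fun b => Measurable.iSup fun _ => Measurable.iSup fun _ => ?_
  fun_prop

lemma jensen {c : ℝ → ℝ≥0∞} (hc : Measurable c) :
    (∫⁻ s in Ioc (0 : ℝ) 1, c s) ^ (3 / 2 : ℝ) ≤ ∫⁻ s in Ioc (0 : ℝ) 1, c s ^ (3 / 2 : ℝ) := by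
  have h := ENNReal.lintegral_mul_le_Lp_mul_Lq (volume.restrict (Ioc (0 : ℝ) 1))
    (p := 3 / 2) (q := 3) ⟨by norm_num, by norm_num, by norm_num⟩ hc.aemeasurable
    (aemeasurable_const (b := 1))
  simp only [Pi.mul_apply, mul_one, ENNReal.one_rpow, lintegral_const, MeasurableSet.univ,
    Measure.restrict_apply, univ_inter, Real.volume_Ioc, sub_zero, ENNReal.ofReal_one] at h
  refine (ENNReal.rpow_le_rpow h (by norm_num)).trans (le_of_eq ?_)
  rw [← ENNReal.rpow_mul]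
  norm_num

/-- the basic cell -/
def Q (δ : ℝ) : Set (ℝ × ℝ) := {w | (⌊w.1 / δ⌋, ⌊w.2 / δ⌋) = ((0 : ℤ), (0 : ℤ))}

lemma tile {δ : ℝ} (hδ : 0 < δ) {h : ℝ × ℝ → ℝ≥0∞} (hh : Measurable h) :
    ∫⁻ z, h z = ∫⁻ w in Q δ, ∑' p : ℤ × ℤ, h (δ * p.1 + w.1, δ * p.2 + w.2) := by
  have hm : Measurable fun w : ℝ × ℝ => (⌊w.1 / δ⌋, ⌊w.2 / δ⌋) := by fun_prop
  have hu : (univ : Set (ℝ × ℝ)) =
      ⋃ p : ℤ × ℤ, (fun w : ℝ × ℝ => (⌊w.1 / δ⌋, ⌊w.2 / δ⌋)) ⁻¹' {p} := by
    ext w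
    simp
  rw [lintegral_tsum fun p => (by fun_prop : Measurable _).aemeasurable,
    ← setLIntegral_univ, hu, lintegral_iUnion (fun p => hm (measurableSet_singleton p))
      (fun p q hpq => (disjoint_singleton.mpr hpq).preimage _)]
  refine tsum_congr fun p => ?_
  rw [← (measurePreserving_add_left volume ((δ * p.1, δ * p.2) : ℝ × ℝ)
    ).setLIntegral_comp_preimage_emb (measurableEmbedding_addLeft _)]
  congr 2
  ext w
  have e : ∀ (k : ℤ) (x : ℝ), ⌊(δ * k + x) / δ⌋ = k + ⌊x / δ⌋ := fun k x => by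
    rw [add_div, mul_div_cancel_left₀ _ hδ.ne', Int.floor_intCast_add]
  simp [Q, e, Prod.ext_iff]

lemma slice {C : ℝ} (hZ : ∀ (n J : ℕ) (s : ℝ) (f g : ℤ × ℤ → ℂ), 1 ≤ n → 0 ≤ s → s ≤ 1 →
    ∑' p : ℤ × ℤ, cnt n J s (fun j => f (p.1 + j, p.2) * g (p.1, p.2 + j)) ^ (3 / 2 : ℝ) ≤
      ENNReal.ofReal (C * √n) ^ (3 / 2 : ℝ) * (∑' p, ‖f p‖ₑ ^ (3 : ℝ)) ^ (1 / 2 : ℝ) *
        (∑' p, ‖g p‖ₑ ^ (3 : ℝ)) ^ (1 / 2 : ℝ))
    {F G : ℝ × ℝ → ℂ} (hF : Measurable F) (hG : Measurable G) {n : ℕ} (hn : 1 ≤ n) (J : ℕ)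
    {δ : ℝ} (hδ : 0 < δ) {s : ℝ} (h0 : 0 ≤ s) (h1 : s ≤ 1) :
    ∫⁻ z, cnt n J s (ph F G δ z s) ^ (3 / 2 : ℝ) ≤
      ENNReal.ofReal (C * √n) ^ (3 / 2 : ℝ) * (∫⁻ z, ‖F z‖ₑ ^ (3 : ℝ)) ^ (1 / 2 : ℝ) *
        (∫⁻ z, ‖G z‖ₑ ^ (3 : ℝ)) ^ (1 / 2 : ℝ) := by
  have m1 : Measurable fun z : ℝ × ℝ => cnt n J s (ph F G δ z s) ^ (3 / 2 : ℝ) :=
    ((measurable_cnt hF hG n J δ).comp (f := fun z : ℝ × ℝ => (z, s)) (by fun_prop)).pow_const _
  let u : ℝ × ℝ → ℝ≥0∞ := fun w =>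
    ∑' p : ℤ × ℤ, ‖F ((δ * p.1 + w.1, δ * p.2 + w.2) + (δ * s, 0))‖ₑ ^ (3 : ℝ)
  let v : ℝ × ℝ → ℝ≥0∞ := fun w =>
    ∑' p : ℤ × ℤ, ‖G ((δ * p.1 + w.1, δ * p.2 + w.2) + (0, δ * s))‖ₑ ^ (3 : ℝ)
  have mu : Measurable u := Measurable.tsum fun p => by fun_prop
  have mv : Measurable v := Measurable.tsum fun p => by fun_prop
  have iu : ∫⁻ w in Q δ, u w = ∫⁻ z, ‖F z‖ₑ ^ (3 : ℝ) := by
    rw [← lintegral_add_right_eq_self (fun z => ‖F z‖ₑ ^ (3 : ℝ)) ((δ * s, 0) : ℝ × ℝ),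
      tile hδ (by fun_prop)]
  have iv : ∫⁻ w in Q δ, v w = ∫⁻ z, ‖G z‖ₑ ^ (3 : ℝ) := by
    rw [← lintegral_add_right_eq_self (fun z => ‖G z‖ₑ ^ (3 : ℝ)) ((0, δ * s) : ℝ × ℝ),
      tile hδ (by fun_prop)]
  have cs := ENNReal.lintegral_mul_le_Lp_mul_Lq (volume.restrict (Q δ)) Real.HolderConjugate.two_two
    (mu.pow_const (1 / 2 : ℝ)).aemeasurable (mv.pow_const (1 / 2 : ℝ)).aemeasurable
  simp only [← ENNReal.rpow_mul, Pi.mul_apply, show (1 / 2 : ℝ) * 2 = 1 by norm_num,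
    ENNReal.rpow_one, iu, iv] at cs
  rw [tile hδ m1, mul_assoc]
  refine le_trans (lintegral_mono fun w => ?_) ((lintegral_const_mul _
    ((mu.pow_const (1 / 2 : ℝ)).mul (mv.pow_const (1 / 2 : ℝ)))).le.trans (mul_le_mul_right cs _))
  rw [Pi.mul_apply, ← mul_assoc]
  refine le_trans (le_of_eq (tsum_congr fun p => ?_))
    (hZ n J s (fun p => F ((δ * p.1 + w.1, δ * p.2 + w.2) + (δ * s, 0)))
      (fun p => G ((δ * p.1 + w.1, δ * p.2 + w.2) + (0, δ * s))) hn h0 h1)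
  congr 2
  ext j
  simp only [ph, Prod.mk_add_mk, add_zero]
  push_cast
  congr 3 <;> ring

lemma measurable_count {F G : ℝ × ℝ → ℂ} (hF : Measurable F) (hG : Measurable G) (n : ℕ) :
    Measurable (annulusCount n F G) := by
  unfold annulusCount
  refine Measurable.iSup fun m => Measurable.iSup fun _ => Measurable.iSup fun ε =>
    Measurable.iSup fun R => Measurable.iSup fun _ => Measurable.iSup fun _ =>
    Finset.measurable_sum _ fun j _ => Measurable.enorm ?_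
  have : Measurable fun w : (ℝ × ℝ) × ℝ =>
      F (w.1.1 + w.2, w.1.2) * G (w.1.1, w.1.2 + w.2) / (w.2 : ℂ) := by fun_prop
  exact this.stronglyMeasurable.integral_prod_right'.measurable

lemma ae_slice {F F' : ℝ × ℝ → ℂ} (h : F =ᵐ[volume] F') (e : ℝ → ℝ × ℝ) (he : Measurable e) :
    ∀ᵐ z : ℝ × ℝ, ∀ᵐ t : ℝ, F (z + e t) = F' (z + e t) := by
  obtain ⟨N, hN, mN, h0⟩ := exists_measurable_superset_of_null (ae_iff.mp h)
  have : ∀ᵐ z : ℝ × ℝ, ∀ᵐ t : ℝ, z + e t ∉ N := by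
    rw [Measure.ae_ae_comm (p := fun (z : ℝ × ℝ) (t : ℝ) => z + e t ∉ N)
      ((by fun_prop : Measurable fun w : (ℝ × ℝ) × ℝ => w.1 + e w.2) mN.compl)]
    exact Eventually.of_forall fun t =>
      (measurePreserving_add_right volume (e t)).quasiMeasurePreserving.ae (compl_mem_ae_iff.mpr h0)
  filter_upwards [this] with z hz
  filter_upwards [hz] with t ht
  by_contra hne
  exact ht (hN hne)

lemma count_congr {F F' G G' : ℝ × ℝ → ℂ} (hF : F =ᵐ[volume] F') (hG : G =ᵐ[volume] G') (n : ℕ) :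
    annulusCount n F G =ᵐ[volume] annulusCount n F' G' := by
  filter_upwards [ae_slice hF (fun t => (t, 0)) (by fun_prop),
    ae_slice hG (fun t => (0, t)) (by fun_prop)] with z h1 h2
  have : ∀ ε R : ℝ, annularTriangularHT F G ε R z = annularTriangularHT F' G' ε R z :=
    fun ε R => integral_congr_ae (ae_restrict_of_ae (by
      filter_upwards [h1, h2] with t h1 h2
      have e1 : z + (t, 0) = (z.1 + t, z.2) := by ext <;> simp
      have e2 : z + (0, t) = (z.1, z.2 + t) := by ext <;> simp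
      rw [e1] at h1
      rw [e2] at h2
      rw [h1, h2]))
  simp only [annulusCount, this]

lemma main {C : ℝ} (hZ : ∀ (n J : ℕ) (s : ℝ) (f g : ℤ × ℤ → ℂ), 1 ≤ n → 0 ≤ s → s ≤ 1 →
    ∑' p : ℤ × ℤ, cnt n J s (fun j => f (p.1 + j, p.2) * g (p.1, p.2 + j)) ^ (3 / 2 : ℝ) ≤
      ENNReal.ofReal (C * √n) ^ (3 / 2 : ℝ) * (∑' p, ‖f p‖ₑ ^ (3 : ℝ)) ^ (1 / 2 : ℝ) *
        (∑' p, ‖g p‖ₑ ^ (3 : ℝ)) ^ (1 / 2 : ℝ))
    {F G : ℝ × ℝ → ℂ} (hF : Measurable F) (hG : Measurable G) {n : ℕ} (hn : 1 ≤ n) :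
    ∫⁻ z, annulusCount n F G z ^ (3 / 2 : ℝ) ≤
      ENNReal.ofReal (C * √n) ^ (3 / 2 : ℝ) * (∫⁻ z, ‖F z‖ₑ ^ (3 : ℝ)) ^ (1 / 2 : ℝ) *
        (∫⁻ z, ‖G z‖ₑ ^ (3 : ℝ)) ^ (1 / 2 : ℝ) := by
  let c : ℕ → ℝ × ℝ → ℝ≥0∞ := fun D z => ∫⁻ s in Ioc (0 : ℝ) 1,
    cnt n (D * D.factorial) s (ph F G (1 / D.factorial) z s) ^ (3 / 2 : ℝ)
  have mc : ∀ D, Measurable (c D) := fun D =>
    ((measurable_cnt hF hG n _ _).pow_const _).lintegral_prod_right'
  have h1 : ∀ z, annulusCount n F G z ^ (3 / 2 : ℝ) ≤ liminf (fun D => c D z) atTop := fun z => by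
    rw [← ENNReal.le_rpow_inv_iff (by norm_num)]
    refine iSup₂_le fun m hm => iSup₂_le fun ε R => iSup₂_le fun h1 h2 => ?_
    rw [ENNReal.le_rpow_inv_iff (by norm_num)]
    refine le_liminf_of_le (by isBoundedDefault) ?_
    filter_upwards [family_le n F G z m hm ε R h1 h2] with D hD
    exact (ENNReal.rpow_le_rpow hD (by norm_num)).trans (jensen
      ((measurable_cnt hF hG n _ _).comp (f := fun s : ℝ => (z, s)) (by fun_prop)))
  refine (lintegral_mono h1).trans ((lintegral_liminf_le mc).trans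
    (liminf_le_of_frequently_le' (Frequently.of_forall fun D => ?_)))
  have hδ : (0 : ℝ) < 1 / D.factorial := by
    have := D.factorial_pos
    positivity
  rw [lintegral_lintegral_swap ((measurable_cnt hF hG n _ _).pow_const _).aemeasurable]
  refine (setLIntegral_mono' measurableSet_Ioc fun s hs =>
    slice hZ hF hG hn _ hδ hs.1.le hs.2).trans (le_of_eq ?_)
  simp

end CountAux

open CountAux in
theorem countStmt_of (hZ : ZStmt) : CountStmt := by
  obtain ⟨C, hC, hZ⟩ := hZ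
  refine ⟨C, hC, fun n hn F G hF hG => ?_⟩
  obtain ⟨F', mF, eF⟩ := hF.1.aemeasurable
  obtain ⟨G', mG, eG⟩ := hG.1.aemeasurable
  have e := count_congr eF eG n
  refine ⟨(measurable_count mF mG n).aemeasurable.congr e.symm, ?_⟩
  rw [lintegral_congr_ae (e.mono fun z hz => congrArg (· ^ (3 / 2 : ℝ)) hz),
    eLpNorm_congr_ae eF, eLpNorm_congr_ae eG]
  refine (main hZ mF mG hn).trans (le_of_eq ?_)
  rw [ENNReal.mul_rpow_of_nonneg _ _ (by norm_num), ENNReal.mul_rpow_of_nonneg _ _ (by norm_num),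
    eLpNorm_eq_lintegral_rpow_enorm_toReal (by norm_num) (by norm_num),
    eLpNorm_eq_lintegral_rpow_enorm_toReal (by norm_num) (by norm_num), ← ENNReal.rpow_mul,
    ← ENNReal.rpow_mul]
  norm_num

end Crest.Agent.R72
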