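import Crest.Agent.R72.DecA

/-!
Row 72: discrete Littlewood–Paley decompositions into Haar atoms.
-/

set_option autoImplicit false
set_option maxHeartbeats 400000

namespace Crest.Agent.R72

open Finset LaurentPolynomial

namespace Dec

lemma pr_atom (Φ : ℤ → ℂ) {g : K} {a b : ℤ} (h : Sp g a b) (i : ℕ) (φ₀ φ₁ φ₂ : ℤ → ℝ) :
    pr Φ (g * (P i φ₀ * P i φ₁ * P i φ₂)) =
      ∑ u ∈ Icc a b, g.coeff u * tri i φ₀ φ₁ φ₂ fun j => Φ (u + j) := by
  rw [pr_mul, pr_Icc _ h]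
  simp only [tri_eq]

lemma diff_B' (i : ℕ) : (1 - T 1) * B i = ((2 : ℂ) ^ i)⁻¹ • (1 - T (2 ^ i) : K) := by
  rw [diff_B, smul_smul, inv_mul_cancel₀ (pow_ne_zero _ two_ne_zero), one_smul]

lemma T_succ (i : ℕ) : (T (-2 ^ (i + 1)) : K) = T (-2 ^ i) ^ 2 := by
  rw [T_pow]; congr 1; push_cast; ring

lemma T_succ' (i : ℕ) : (T (2 ^ (i + 1)) : K) = T (2 ^ i) ^ 2 := by
  rw [T_pow]; congr 1; push_cast; ring

lemma two_pow_le {i k : ℕ} (h : i ≤ k) : (2 : ℤ) ^ i ≤ 2 ^ k := pow_le_pow_right₀ one_le_two h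

/-- the approximate identities for the square function form -/
noncomputable def bs (i : ℕ) : K := T 2 * T (-2 ^ i) ^ 2 * B i ^ 4

lemma bs_zero : bs 0 = 1 := by
  rw [bs, B_zero, T_pow, ← T_add]; simp

lemma bs_sub (i : ℕ) (f : K) : f * (bs i - bs (i + 1)) =
    (-4⁻¹ : ℂ) • (T 2 * T (-2 ^ i) ^ 4 * pol [1, 6, 1] (2 ^ i) * (H i * f)) *
      (B i * H i * B i) := by
  rw [bs, T_inv (2 ^ i) 2 2, bs, T_succ, B_succ, H, pol]
  simp only [List.length_cons, List.length_nil, Finset.sum_range_succ, Finset.sum_range_zero,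
    List.getD_cons_zero, List.getD_cons_succ, Nat.reduceAdd, Nat.cast_ofNat, Nat.cast_one]
  generalize (T (-2 ^ i) : K) = y
  generalize (T (2 ^ i) : K) = x
  generalize (T 2 : K) = t
  generalize B i = b
  algebra

lemma bs_top (k : ℕ) (E : K) : (1 - T 1) * E * bs k =
    (2 * ((2 : ℂ) ^ k)⁻¹) • (T 2 * T (-2 ^ k) ^ 2 * E) * (B k * H k * B k) := by
  have : (1 - T 1) * E * bs k = T 2 * T (-2 ^ k) ^ 2 * E * B k ^ 3 * ((1 - T 1) * B k) := by
    rw [bs]; ring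
  rw [this, diff_B', H]
  generalize (T (-2 ^ k) : K) = y
  generalize (T (2 ^ k) : K) = x
  generalize (T 2 : K) = t
  generalize B k = b
  generalize ((2 : ℂ) ^ k)⁻¹ = c
  algebra

lemma H_mul (i : ℕ) (f : K) :
    H i * f = (2⁻¹ * (2 : ℂ) ^ i) • (B i * B i * ((1 - T 1) * f)) := by
  rw [H, diff_B]
  generalize (T 1 : K) = t
  generalize B i = b
  generalize ((2 : ℂ) ^ i) = c
  algebra

/-- the approximate identities for the triple Haar form -/
noncomputable def bt (i : ℕ) : K :=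
  (4⁻¹ : ℂ) • (T 3 * B i ^ 6 * (T (-2 ^ i) ^ 3 * (6 - T (2 ^ i) - T (-2 ^ i))))

lemma bt_zero (f : K) : f * (1 - bt 0) = (4⁻¹ : ℂ) • (T (-1) * (1 - T 1) * ((1 - T 1) * f)) := by
  have h1 : (T 3 : K) * T (-1) ^ 3 = 1 := by rw [T_pow, ← T_add]; simp
  have h2 : (T 1 : K) * T (-1) = 1 := by rw [← T_add]; simp
  have h3 : (T (-1) : K) * (1 - T 1) * ((1 - T 1) * f) = (T (-1) + T 1 - 2) * f := by
    linear_combination (T 1 - 2) * f * h2
  rw [bt, B_zero, pow_zero, one_pow, mul_one, ← mul_assoc, h1, h3]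
  generalize (T (-1) : K) = y
  generalize (T 1 : K) = x
  algebra

lemma bt_sub (i : ℕ) (f : K) : f * (bt i - bt (i + 1)) =
    (32⁻¹ : ℂ) • (T 3 * T (-2 ^ i) ^ 8 * pol [1, 10, 43, 100, 43, 10, 1] (2 ^ i) * B i ^ 3 *
      ((1 - T (2 ^ i)) * f)) * (H i * H i * H i) := by
  have h1 : (T (-2 ^ i) : K) ^ 3 * (6 - T (2 ^ i) - T (-2 ^ i)) =
      T (-2 ^ i) ^ 8 * (T (2 ^ i) ^ 4 * (6 * T (2 ^ i) - T (2 ^ i) ^ 2 - 1)) := by
    linear_combination (6 - T (2 ^ i)) * T_inv (2 ^ i) 3 5 - T_inv (2 ^ i) 4 4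
  have h2 : ((T (-2 ^ i) : K) ^ 2) ^ 3 * (6 - T (2 ^ i) ^ 2 - T (-2 ^ i) ^ 2) =
      T (-2 ^ i) ^ 8 * (6 * T (2 ^ i) ^ 2 - T (2 ^ i) ^ 4 - 1) := by
    linear_combination (6 - T (2 ^ i) ^ 2) * T_inv (2 ^ i) 6 2
  rw [bt, bt, T_succ, T_succ', B_succ, h1, h2, H, pol]
  simp only [List.length_cons, List.length_nil, Finset.sum_range_succ, Finset.sum_range_zero,
    List.getD_cons_zero, List.getD_cons_succ, Nat.reduceAdd, Nat.cast_ofNat, Nat.cast_one]
  generalize (T (-2 ^ i) : K) = y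
  generalize (T (2 ^ i) : K) = x
  generalize (T 3 : K) = t
  generalize B i = b
  algebra

lemma bt_top (k : ℕ) (E : K) : (1 - T 1) * ((1 - T 1) * ((1 - T 1) * E)) * bt k =
    (2 * ((2 : ℂ) ^ k)⁻¹ ^ 3) • (T 3 * (T (-2 ^ k) ^ 3 * ((6 : ℂ) • 1 - T (2 ^ k) - T (-2 ^ k))) * E) *
      (H k * H k * H k) := by
  have : (1 - T 1) * ((1 - T 1) * ((1 - T 1) * E)) * bt k = (4⁻¹ : ℂ) •
      (T 3 * (T (-2 ^ k) ^ 3 * (6 - T (2 ^ k) - T (-2 ^ k))) * E * B k ^ 3 *
        ((1 - T 1) * B k) ^ 3) := by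
    rw [bt, mul_smul_comm]
    exact congrArg _ (by ring)
  rw [this, diff_B', H]
  generalize (T (-2 ^ k) : K) = y
  generalize (T (2 ^ k) : K) = x
  generalize (T 3 : K) = t
  generalize B k = b
  generalize ((2 : ℂ) ^ k)⁻¹ = c
  algebra

end Dec

open Dec

/-- mean zero kernels of bounded variation are superpositions of one-Haar atoms -/
theorem decSqStmt : DecSqStmt := by
  refine ⟨2178, by norm_num, fun k e s v h1 h2 h3 h4 => ?_⟩
  have hD : (1 : ℤ) ≤ 2 ^ k := one_le_pow₀ one_le_two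
  have hD' : (1 : ℝ) ≤ 2 ^ k := one_le_pow₀ one_le_two
  set f := mk (-(16 * 2 ^ k)) (16 * 2 ^ k) e with hf
  have hc : ∀ j, f.coeff j = e j := coeff_mk' h1
  have hsp : Sp f (-(16 * 2 ^ k)) (16 * 2 ^ k) := sp_mk _ _ _
  have hs : Sup f s := fun j => by rw [hc]; exact h3 j
  have hs0 := hs.nonneg
  have hv : L1 ((1 - T 1) * f) v := by
    have h5 : L1 (T (-1) * ((1 - T 1) * f)) v := by
      refine L1.of_Icc (((Sp.T (-1)).mul ((sp_one_sub zero_le_one).mul hsp)).mono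
        (a' := -(17 * 2 ^ k)) (b' := 17 * 2 ^ k) (by omega) (by omega)) (le_trans (le_of_eq ?_) h4)
      refine Finset.sum_congr rfl fun j _ => ?_
      rw [coeff_T_mul, coeff_diff, hc, hc, norm_sub_rev]
      rw [norm_sub_rev]
      congr 3 <;> ring
    have := (L1.T 1).mul h5
    rwa [← mul_assoc, ← T_add, add_neg_cancel, T_zero, one_mul, one_mul] at this
  have hv0 := hv.nonneg
  have hm : Sup f (min s v) := fun j => le_min (hs j) (sup_of_diff hsp hv j)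
  have hcard : ((16 * 2 ^ k + 1 - -(16 * 2 ^ k) : ℤ) : ℝ) ≤ 33 * 2 ^ k := by push_cast; linarith
  obtain ⟨E, hE, hE1, hE2⟩ := exists_div hsp (by rw [pr_Icc _ hsp]; simpa [hc] using h2)
    (hm.l1 hsp (by omega) hcard)
  set g : ℕ → K := fun i => if i < k then
    (-4⁻¹ : ℂ) • (T 2 * T (-2 ^ i) ^ 4 * pol [1, 6, 1] (2 ^ i) * (H i * f)) else
    (2 * ((2 : ℂ) ^ k)⁻¹) • (T 2 * T (-2 ^ k) ^ 2 * E) with hg
  have hpol : ∀ i : ℕ, L1 (T 2 * T (-2 ^ i) ^ 4 * pol [1, 6, 1] (2 ^ i)) 8 := fun i =>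
    (((L1.T 2).mul ((L1.T _).pow 4)).mul (l1_pol [1, 6, 1] (2 ^ i))).mono (by
      simp [Finset.sum_range_succ]; norm_num)
  have htop : L1 (T 2 * T (-2 ^ k) ^ 2) 1 := ((L1.T 2).mul ((L1.T _).pow 2)).mono (by norm_num)
  have hn : ‖(2 * ((2 : ℂ) ^ k)⁻¹)‖ = 2 * (2 ^ k)⁻¹ := by simp
  have hgsp : ∀ i, i ≤ k → Sp (g i) (-(32 * 2 ^ k)) (32 * 2 ^ k) := fun i hi => by
    have := two_pow_le hi
    have : (1 : ℤ) ≤ 2 ^ i := one_le_pow₀ one_le_two
    simp only [hg]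
    split_ifs
    · refine (((((Sp.T 2).mul ((Sp.T _).pow 4)).mul (sp_pol [1, 6, 1] (d := 2 ^ i)
        (by positivity))).mul ((sp_H i).mul hsp)).mono ?_ ?_).smul _ <;> simp <;> omega
    · refine ((((Sp.T 2).mul ((Sp.T _).pow 2)).mul hE1).mono ?_ ?_).smul _ <;> simp <;> omega
  refine ⟨fun i u => (g i).coeff u, fun i => ?_, fun i hi => ?_, fun Φ => ?_⟩
  · change Sup (g i) _
    simp only [hg]
    split_ifs
    · refine (((hpol i).mul_sup ((l1_H i).mul_sup hs)).smul _).mono ?_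
      simp; linarith
    · refine ((htop.mul_sup hE2).smul _).mono ?_
      rw [hn]
      have := min_le_left s v
      field_simp
      linarith
  · refine (?_ : L1 (g i) _) _
    simp only [hg]
    split_ifs with h
    · rw [H_mul]
      refine (((hpol i).mul ((((l1_B i).mul (l1_B i)).mul hv).smul _)).smul _).mono ?_
      have : 0 ≤ 2 ^ i * v := by positivity
      simp; nlinarith
    · obtain rfl : i = k := by omega
      refine ((htop.mul (hE2.l1 hE1 (by omega) hcard)).smul _).mono ?_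
      rw [hn]
      have := min_le_right s v
      field_simp
      nlinarith
  · have h5 : ev (16 * 2 ^ k) e Φ = pr Φ f := by simp only [ev, pr_Icc _ hsp, hc]
    rw [h5, ← mul_one f, ← bs_zero, tele f bs k, Finset.sum_range_succ, map_add, map_sum]
    congr 1
    · refine Finset.sum_congr rfl fun i hi => ?_
      rw [← pr_atom Φ (hgsp i (mem_range.1 hi).le), P_bx, P_hr, bs_sub]
      simp only [hg, if_pos (mem_range.1 hi)]
    · rw [← pr_atom Φ (hgsp k le_rfl), P_bx, P_hr]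
      simp only [hg, if_neg (lt_irrefl k)]
      rw [← bs_top, ← hE]

/-- Lipschitz kernels with three vanishing moments are superpositions of triple-Haar atoms -/
theorem decTriStmt : DecTriStmt := by
  refine ⟨16 * 33 ^ 3, by norm_num, fun k τ s ⟨h1, h2, h3, h4⟩ => ?_⟩
  have hD : (1 : ℤ) ≤ 2 ^ k := one_le_pow₀ one_le_two
  have hD' : (1 : ℝ) ≤ 2 ^ k := one_le_pow₀ one_le_two
  set f := mk (-(16 * 2 ^ k)) (16 * 2 ^ k) τ with hf
  have hc : ∀ j, f.coeff j = τ j := coeff_mk' h1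
  have hsp : Sp f (-(16 * 2 ^ k)) (16 * 2 ^ k) := sp_mk _ _ _
  have hs : Sup f s := fun j => by rw [hc]; exact h3 j
  have hs0 := hs.nonneg
  have hv : Sup ((1 - T 1) * f) (s / 2 ^ k) := fun j => by
    rw [coeff_diff, hc, hc]
    simpa using h4 (j - 1)
  have hmom : ∀ m, m ≤ 2 → pr (fun j => (j : ℂ) ^ m) f = 0 := fun m hm => by
    rw [pr_Icc _ hsp, ← h2 m hm]
    exact Finset.sum_congr rfl fun j _ => by rw [hc, mul_comm]
  have hcard : ((16 * 2 ^ k + 1 - -(16 * 2 ^ k) : ℤ) : ℝ) ≤ 33 * 2 ^ k := by push_cast; linarith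
  obtain ⟨E₁, hE₁, sp₁, su₁⟩ := exists_div hsp (by simpa using hmom 0 (by norm_num))
    (hs.l1 hsp (by omega) hcard)
  have m10 : pr (fun _ => 1) E₁ = 0 := by
    have := hmom 1 (by norm_num)
    rw [hE₁, pr_diff] at this
    have h5 := pr_const_mul (-1) (fun _ => 1) E₁
    rw [show (fun j : ℤ => (j : ℂ) ^ 1 - ((j + 1 : ℤ) : ℂ) ^ 1) = fun _ => -1 * 1 by
      funext j; push_cast; ring, h5] at this
    simpa using this
  have m11 : pr (fun j => (j : ℂ)) E₁ = 0 := by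
    have := hmom 2 le_rfl
    rw [hE₁, pr_diff, show (fun j : ℤ => (j : ℂ) ^ 2 - ((j + 1 : ℤ) : ℂ) ^ 2) =
      fun j : ℤ => -2 * (j : ℂ) - 1 by funext j; push_cast; ring,
      pr_sub (fun j : ℤ => -2 * (j : ℂ)) (fun _ => 1), pr_const_mul, m10] at this
    simpa using this
  obtain ⟨E₂, hE₂, sp₂, su₂⟩ := exists_div sp₁ m10 (su₁.l1 sp₁ (by omega) hcard)
  have m20 : pr (fun _ => 1) E₂ = 0 := by
    rw [hE₂, pr_diff] at m11
    have h5 := pr_const_mul (-1) (fun _ => 1) E₂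
    rw [show (fun j : ℤ => (j : ℂ) - ((j + 1 : ℤ) : ℂ)) = fun _ => -1 * 1 by
      funext j; push_cast; ring, h5] at m11
    simpa using m11
  obtain ⟨E₃, hE₃, sp₃, su₃⟩ := exists_div sp₂ m20 (su₂.l1 sp₂ (by omega) hcard)
  set ρ : K := (4⁻¹ : ℂ) • (T (-1) * (1 - T 1) * ((1 - T 1) * f)) with hρ
  have hρsp : Sp ρ (-(32 * 2 ^ k)) (32 * 2 ^ k) := by
    refine ((((Sp.T (-1)).mul (sp_one_sub zero_le_one)).mul
      ((sp_one_sub zero_le_one).mul hsp)).mono ?_ ?_).smul _ <;> omega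
  set g : ℕ → K := fun i => if i < k then
    (32⁻¹ : ℂ) • (T 3 * T (-2 ^ i) ^ 8 * pol [1, 10, 43, 100, 43, 10, 1] (2 ^ i) * B i ^ 3 *
      ((1 - T (2 ^ i)) * f)) else
    (2 * ((2 : ℂ) ^ k)⁻¹ ^ 3) •
      (T 3 * (T (-2 ^ k) ^ 3 * ((6 : ℂ) • 1 - T (2 ^ k) - T (-2 ^ k))) * E₃) with hg
  have hgsp : ∀ i, i ≤ k → Sp (g i) (-(32 * 2 ^ k)) (32 * 2 ^ k) := fun i hi => by
    have := two_pow_le hi
    have : (1 : ℤ) ≤ 2 ^ i := one_le_pow₀ one_le_two
    simp only [hg]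
    split_ifs
    · refine ((((((Sp.T 3).mul ((Sp.T _).pow 8)).mul (sp_pol [1, 10, 43, 100, 43, 10, 1]
        (d := 2 ^ i) (by positivity))).mul ((sp_B i).pow 3)).mul
        ((sp_one_sub (by positivity)).mul hsp)).mono ?_ ?_).smul _ <;> simp <;> omega
    · have h5 : Sp ((6 : ℂ) • 1 - T (2 ^ k) - T (-2 ^ k)) (-2 ^ k) (2 ^ k) :=
        (((Sp.one.mono (by omega) (by omega)).smul _).sub ((Sp.T _).mono (by omega) le_rfl)).sub
          ((Sp.T _).mono le_rfl (by omega))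
      refine ((((Sp.T 3).mul (((Sp.T _).pow 3).mul h5)).mul sp₃).mono ?_ ?_).smul _ <;> simp <;>
        omega
  refine ⟨fun u => ρ.coeff u, fun i u => (g i).coeff u, ?_, fun i u hi => ?_, fun Φ => ?_⟩
  · refine (?_ : L1 ρ _) _
    refine ((((L1.T (-1)).mul (l1_one_sub 1)).mul (hv.l1 (n := 34 * 2 ^ k)
      ((sp_one_sub zero_le_one).mul hsp) (by omega) (by push_cast; linarith))).smul _).mono ?_
    simp
    field_simp
    linarith
  · refine (?_ : Sup (g i) _) _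
    simp only [hg]
    split_ifs with h
    · have h5 : (1 - T (2 ^ i)) * f = ((2 : ℂ) ^ i) • (B i * ((1 - T 1) * f)) := by
        rw [diff_B, smul_mul_assoc]
        exact congrArg _ (by ring)
      rw [h5]
      refine ((((((L1.T 3).mul ((L1.T _).pow 8)).mul (l1_pol [1, 10, 43, 100, 43, 10, 1]
        (2 ^ i))).mul ((l1_B i).pow 3)).mul_sup (((l1_B i).mul_sup hv).smul _)).smul _).mono ?_
      simp [Finset.sum_range_succ]
      field_simp
      linarith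
    · obtain rfl : i = k := by omega
      refine ((((L1.T 3).mul (((L1.T _).pow 3).mul
        (((L1.one.smul _).sub (L1.T _)).sub (L1.T _)))).mul_sup su₃).smul _).mono ?_
      simp
      field_simp
      linarith
  · have h5 : ev (16 * 2 ^ k) τ Φ = pr Φ f := by simp only [ev, pr_Icc _ hsp, hc]
    have h6 : ev (32 * 2 ^ k) (fun u => ρ.coeff u) Φ = pr Φ ρ := by simp only [ev, pr_Icc _ hρsp]
    have h7 : f = f * (1 - bt 0) + f * bt 0 := by ring
    rw [h5, h6, h7, map_add, bt_zero, tele f bt k, Finset.sum_range_succ, map_add, map_sum]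
    congr 2
    · refine Finset.sum_congr rfl fun i hi => ?_
      rw [← pr_atom Φ (hgsp i (mem_range.1 hi).le), P_hr, bt_sub]
      simp only [hg, if_pos (mem_range.1 hi)]
    · rw [← pr_atom Φ (hgsp k le_rfl), P_hr]
      simp only [hg, if_neg (lt_irrefl k)]
      rw [← bt_top, ← hE₃, ← hE₂, ← hE₁]

end Crest.Agent.R72
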