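import Crest.Agent.R72.Basic

/-!
Row 72: the discrete linearised theorem from the long and the short variation bounds.
-/

set_option maxHeartbeats 400000

namespace Crest.Agent.R72

open Matrix Finset

namespace Disc

/-- folding of `ℤ` about `-1/2` -/
def fo (j : ℤ) : ℕ := if 0 ≤ j then j.toNat else (-1 - j).toNat

/-- odd extension about `-1/2` -/
def odd (a : ℕ → ℂ) (j : ℤ) : ℂ := if 0 ≤ j then a (fo j) else -a (fo j)

theorem odd_nat (a : ℕ → ℂ) (n : ℕ) : odd a n = a n := by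
  simp [odd, fo]

theorem odd_neg (a : ℕ → ℂ) (n : ℕ) : odd a (-1 - n) = -a n := by
  have h : ¬ (0 : ℤ) ≤ -1 - n := by omega
  simp only [odd, fo, if_neg h]
  congr 2
  omega

theorem int_cases (j : ℤ) : (∃ n : ℕ, j = n) ∨ ∃ n : ℕ, j = -1 - n := by
  by_cases h : 0 ≤ j
  · exact Or.inl ⟨j.toNat, by omega⟩
  · exact Or.inr ⟨(-1 - j).toNat, by omega⟩

theorem sum_fold {M : Type*} [AddCommMonoid M] (f : ℤ → M) (A : ℕ) :
    ∑ j ∈ Icc (-(A : ℤ)) A, f j = ∑ n ∈ range A, (f n + f (-1 - n)) + f A := by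
  induction A with
  | zero => simp
  | succ A ih =>
    have h : Icc (-((A + 1 : ℕ) : ℤ)) ((A + 1 : ℕ) : ℤ) =
        insert (-1 - (A : ℤ)) (insert ((A + 1 : ℕ) : ℤ) (Icc (-(A : ℤ)) A)) := by
      ext j
      simp only [mem_Icc, mem_insert]
      push_cast
      omega
    rw [h, sum_insert, sum_insert, ih, sum_range_succ]
    · ac_rfl
    · simp only [mem_Icc]; push_cast; omega
    · simp only [mem_Icc, mem_insert]; push_cast; omega

theorem sum_range_eq {M : Type*} [AddCommMonoid M] (f : ℕ → M) {m A N : ℕ}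
    (h : ∀ n, m ≤ n → f n = 0) (hA : m ≤ A) (hN : m ≤ N) :
    ∑ n ∈ range A, f n = ∑ n ∈ range N, f n := by
  have key : ∀ B, m ≤ B → ∑ n ∈ range m, f n = ∑ n ∈ range B, f n := fun B hB =>
    Finset.sum_subset (Finset.range_mono hB) fun n _ hn => h n (by simpa using hn)
  rw [← key A hA, key N hN]

theorem ev_odd (a : ℕ → ℂ) (Φ : ℤ → ℂ) {m A N : ℕ} (h : ∀ n, m ≤ n → a n = 0) (hA : m ≤ A)
    (hN : m ≤ N) : ev A (odd a) Φ = ∑ n ∈ range N, a n * (Φ n - Φ (-1 - n)) := by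
  unfold ev
  rw [sum_fold, odd_nat, h A hA, zero_mul, add_zero,
    ← sum_range_eq (fun n => a n * (Φ n - Φ (-1 - n))) (m := m) (fun n hn => by simp [h n hn]) hA hN]
  refine Finset.sum_congr rfl fun n _ => ?_
  rw [odd_nat, odd_neg]
  ring

theorem odd_supp (a : ℕ → ℂ) {A : ℕ} (h : ∀ n, A ≤ n → a n = 0) (j : ℤ) (hj : (A : ℤ) < |j|) :
    odd a j = 0 := by
  rcases int_cases j with ⟨n, rfl⟩ | ⟨n, rfl⟩
  · rw [odd_nat]
    refine h n ?_
    rw [abs_of_nonneg (by positivity)] at hj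
    omega
  · rw [odd_neg, h n, neg_zero]
    rw [abs_of_neg (by omega)] at hj
    omega

theorem odd_norm (a : ℕ → ℂ) {c : ℝ} (h : ∀ n, ‖a n‖ ≤ c) (j : ℤ) : ‖odd a j‖ ≤ c := by
  rcases int_cases j with ⟨n, rfl⟩ | ⟨n, rfl⟩
  · rw [odd_nat]; exact h n
  · rw [odd_neg, norm_neg]; exact h n

theorem odd_diff_nat (a : ℕ → ℂ) (n : ℕ) :
    ‖odd a ((n : ℤ) + 1) - odd a n‖ = ‖a (n + 1) - a n‖ := by
  have : (n : ℤ) + 1 = ((n + 1 : ℕ) : ℤ) := by push_cast; ring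
  rw [this, odd_nat, odd_nat]

theorem odd_diff_zero (a : ℕ → ℂ) (h0 : a 0 = 0) :
    ‖odd a (-1 - ((0 : ℕ) : ℤ) + 1) - odd a (-1 - ((0 : ℕ) : ℤ))‖ = 0 := by
  have : (-1 - ((0 : ℕ) : ℤ) + 1) = ((0 : ℕ) : ℤ) := by simp
  rw [this, odd_nat, odd_neg, h0]
  simp

theorem odd_diff_neg (a : ℕ → ℂ) (n : ℕ) :
    ‖odd a (-1 - ((n + 1 : ℕ) : ℤ) + 1) - odd a (-1 - ((n + 1 : ℕ) : ℤ))‖ =
      ‖a (n + 1) - a n‖ := by
  have : (-1 - ((n + 1 : ℕ) : ℤ) + 1) = -1 - (n : ℤ) := by push_cast; ring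
  rw [this, odd_neg, odd_neg]
  congr 1
  ring

theorem odd_lip (a : ℕ → ℂ) {c : ℝ} (h0 : a 0 = 0) (h : ∀ n, ‖a (n + 1) - a n‖ ≤ c) (j : ℤ) :
    ‖odd a (j + 1) - odd a j‖ ≤ c := by
  rcases int_cases j with ⟨n, rfl⟩ | ⟨n, rfl⟩
  · rw [odd_diff_nat]; exact h n
  · cases n with
    | zero => rw [odd_diff_zero a h0]; exact (norm_nonneg _).trans (h 0)
    | succ n => rw [odd_diff_neg]; exact h n

theorem odd_tv (a : ℕ → ℂ) (h0 : a 0 = 0) (A : ℕ) :
    ∑ j ∈ Icc (-(A : ℤ)) A, ‖odd a (j + 1) - odd a j‖ ≤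
      2 * ∑ n ∈ range (A + 1), ‖a (n + 1) - a n‖ := by
  rw [sum_fold, Finset.sum_add_distrib]
  simp only [odd_diff_nat]
  have h1 : ∑ n ∈ range A, ‖odd a (-1 - (n : ℤ) + 1) - odd a (-1 - (n : ℤ))‖ ≤
      ∑ n ∈ range (A + 1), ‖a (n + 1) - a n‖ := by
    calc _ ≤ ∑ n ∈ range (A + 1 + 1), ‖odd a (-1 - (n : ℤ) + 1) - odd a (-1 - (n : ℤ))‖ :=
          Finset.sum_le_sum_of_subset_of_nonneg (Finset.range_mono (by omega))
            fun _ _ _ => norm_nonneg _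
      _ = _ := by
          rw [Finset.sum_range_succ', odd_diff_zero a h0, add_zero]
          exact Finset.sum_congr rfl fun n _ => odd_diff_neg a n
  rw [Finset.sum_range_succ] at h1 ⊢
  linarith

theorem odd_moment (a : ℕ → ℂ) {A : ℕ} (h : ∀ n, A ≤ n → a n = 0)
    (h1 : ∑ n ∈ range A, a n * ((n : ℂ) + 1 / 2) = 0) (m : ℕ) (hm : m ≤ 2) :
    ∑ j ∈ Icc (-(A : ℤ)) A, (j : ℂ) ^ m * odd a j = 0 := by
  have h2 := ev_odd a (fun j => (j : ℂ) ^ m) h le_rfl le_rfl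
  unfold ev at h2
  simp only [mul_comm (odd a _)] at h2
  rw [h2]
  interval_cases m
  · simp
  · calc _ = 2 * ∑ n ∈ range A, a n * ((n : ℂ) + 1 / 2) := by
          rw [Finset.mul_sum]
          refine Finset.sum_congr rfl fun n _ => ?_
          push_cast; ring
      _ = 0 := by rw [h1, mul_zero]
  · calc _ = -2 * ∑ n ∈ range A, a n * ((n : ℂ) + 1 / 2) := by
          rw [Finset.mul_sum]
          refine Finset.sum_congr rfl fun n _ => ?_
          push_cast; ring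
      _ = 0 := by rw [h1, mul_zero]

theorem odd_mean (a : ℕ → ℂ) {A : ℕ} (h : ∀ n, A ≤ n → a n = 0) :
    ∑ j ∈ Icc (-(A : ℤ)) A, odd a j = 0 := by
  have h2 := ev_odd a (fun _ => (1 : ℂ)) h le_rfl le_rfl
  unfold ev at h2
  simpa using h2

/-- the cut-off profile with vanishing integral -/
noncomputable def X (r : ℝ) : ℝ :=
  1 - max (r - 1) 0 + 3 / 2 * max (r - 3) 0 - 1 / 2 * max (r - 5) 0

theorem X_one {r : ℝ} (h : r ≤ 1) : X r = 1 := by
  unfold X
  rw [max_eq_right (by linarith), max_eq_right (by linarith), max_eq_right (by linarith)]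
  ring

theorem X_zero {r : ℝ} (h : 5 ≤ r) : X r = 0 := by
  unfold X
  rw [max_eq_left (by linarith), max_eq_left (by linarith), max_eq_left (by linarith)]
  ring

theorem X_abs (r : ℝ) : |X r| ≤ 1 := by
  unfold X
  rw [abs_le]
  simp only [max_def]
  split_ifs <;> constructor <;> linarith

theorem X_lip (r r' : ℝ) : |X r - X r'| ≤ 3 * |r - r'| := by
  have h : ∀ c : ℝ, |max (r - c) 0 - max (r' - c) 0| ≤ |r - r'| := fun c => by
    have := abs_max_sub_max_le_abs (r - c) (r' - c) 0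
    rwa [sub_sub_sub_cancel_right] at this
  have h1 := abs_le.1 (h 1)
  have h3 := abs_le.1 (h 3)
  have h5 := abs_le.1 (h 5)
  unfold X
  rw [abs_le]
  constructor <;> linarith [h1.1, h1.2, h3.1, h3.2, h5.1, h5.2]

theorem sum_pos_part (m N : ℕ) :
    ∑ n ∈ range N, max ((n : ℝ) + 1 / 2 - m) 0 = (max ((N : ℝ) - m) 0) ^ 2 / 2 := by
  induction N with
  | zero =>
    rw [max_eq_right (by simp)]
    simp
  | succ N ih =>
    rw [sum_range_succ, ih]
    by_cases h : m ≤ N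
    · have h' : (m : ℝ) ≤ N := by exact_mod_cast h
      rw [max_eq_left (by linarith), max_eq_left (by linarith), max_eq_left (by push_cast; linarith)]
      push_cast; ring
    · have h' : (N : ℝ) + 1 ≤ m := by exact_mod_cast (by omega : N + 1 ≤ m)
      rw [max_eq_right (by linarith), max_eq_right (by linarith),
        max_eq_right (by push_cast; linarith)]
      simp

theorem sum_X (D N : ℕ) (hD : 0 < D) (hN : 5 * D ≤ N) :
    ∑ n ∈ range N, X (((n : ℝ) + 1 / 2) / D) = 0 := by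
  have hD' : (0 : ℝ) < D := by exact_mod_cast hD
  have hN' : 5 * (D : ℝ) ≤ N := by exact_mod_cast hN
  have h : ∀ (c : ℕ) (n : ℕ), max ((((n : ℝ) + 1 / 2) / D) - c) 0 =
      max ((n : ℝ) + 1 / 2 - ((c * D : ℕ) : ℝ)) 0 / D := fun c n => by
    rw [← max_div_div_right hD'.le, zero_div]
    congr 1
    push_cast
    field_simp
  have h1 := h 1
  have h3 := h 3
  have h5 := h 5
  simp only [Nat.cast_one, Nat.cast_ofNat] at h1 h3 h5
  unfold X
  simp only [h1, h3, h5, Finset.sum_add_distrib, Finset.sum_sub_distrib, ← Finset.mul_sum,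
    ← Finset.sum_div, sum_pos_part]
  rw [max_eq_left (by push_cast; linarith), max_eq_left (by push_cast; linarith),
    max_eq_left (by push_cast; linarith)]
  simp only [sum_const, card_range, nsmul_eq_mul]
  push_cast
  field_simp
  ring

/-- difference of two consecutive cut-offs -/
noncomputable def U (k n : ℕ) : ℝ :=
  X (((n : ℝ) + 1 / 2) / 2 ^ (k + 1)) - X (((n : ℝ) + 1 / 2) / 2 ^ k)

/-- the single scale kernel -/
noncomputable def T (k n : ℕ) : ℝ := U k n / ((n : ℝ) + 1 / 2)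

theorem U_small {k n : ℕ} (h : n < 2 ^ k) : U k n = 0 := by
  have h' : (n : ℝ) + 1 ≤ 2 ^ k := by exact_mod_cast (by omega : n + 1 ≤ 2 ^ k)
  have hp : (0 : ℝ) < 2 ^ k := by positivity
  unfold U
  rw [X_one, X_one, sub_self]
  · rw [div_le_one hp]; linarith
  · rw [div_le_one (by positivity), pow_succ]; linarith

theorem U_large {k n : ℕ} (h : 10 * 2 ^ k ≤ n) : U k n = 0 := by
  have h' : 10 * (2 : ℝ) ^ k ≤ n := by exact_mod_cast h
  have hp : (0 : ℝ) < 2 ^ k := by positivity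
  unfold U
  rw [X_zero, X_zero, sub_self]
  · rw [le_div_iff₀ hp]; linarith
  · rw [le_div_iff₀ (by positivity), pow_succ]; linarith

theorem U_abs (k n : ℕ) : |U k n| ≤ 2 := by
  unfold U
  have h1 := X_abs (((n : ℝ) + 1 / 2) / 2 ^ (k + 1))
  have h2 := X_abs (((n : ℝ) + 1 / 2) / 2 ^ k)
  have := abs_sub (X (((n : ℝ) + 1 / 2) / 2 ^ (k + 1))) (X (((n : ℝ) + 1 / 2) / 2 ^ k))
  linarith

theorem U_lip (k n : ℕ) : |U k (n + 1) - U k n| ≤ 6 / 2 ^ k := by
  have h : ∀ i : ℕ, |X ((((n + 1 : ℕ) : ℝ) + 1 / 2) / 2 ^ i) - X (((n : ℝ) + 1 / 2) / 2 ^ i)| ≤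
      3 / 2 ^ i := fun i => by
    refine (X_lip _ _).trans (le_of_eq ?_)
    rw [← sub_div]
    push_cast
    rw [show (n : ℝ) + 1 + 1 / 2 - (n + 1 / 2) = 1 by ring, abs_of_pos (by positivity)]
    ring
  have h1 := abs_le.1 (h (k + 1))
  have h2 := abs_le.1 (h k)
  have h3 : (3 : ℝ) / 2 ^ (k + 1) ≤ 3 / 2 ^ k := by
    gcongr
    · norm_num
    · omega
  have h4 : (6 : ℝ) / 2 ^ k = 3 / 2 ^ k + 3 / 2 ^ k := by ring
  unfold U
  rw [abs_le]
  constructor <;> linarith [h1.1, h1.2, h2.1, h2.2]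

theorem T_small {k n : ℕ} (h : n < 2 ^ k) : T k n = 0 := by
  unfold T; rw [U_small h, zero_div]

theorem T_large {k n : ℕ} (h : 10 * 2 ^ k ≤ n) : T k n = 0 := by
  unfold T; rw [U_large h, zero_div]

theorem T_abs (k n : ℕ) : |T k n| ≤ 2 / 2 ^ k := by
  by_cases h : n < 2 ^ k
  · rw [T_small h, abs_zero]; positivity
  · have h' : (2 : ℝ) ^ k ≤ n := by exact_mod_cast not_lt.1 h
    unfold T
    rw [abs_div, abs_of_pos (show (0 : ℝ) < n + 1 / 2 by positivity)]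
    exact div_le_div₀ (by norm_num) (U_abs k n) (by positivity) (by linarith)

theorem T_lip (k n : ℕ) : |T k (n + 1) - T k n| ≤ 8 / 2 ^ k / 2 ^ k := by
  by_cases h : n + 1 < 2 ^ k
  · rw [T_small h, T_small (by omega), sub_zero, abs_zero]; positivity
  · have h' : (2 : ℝ) ^ k ≤ n + 1 := by exact_mod_cast not_lt.1 h
    have hp : (0 : ℝ) < 2 ^ k := by positivity
    have e : T k (n + 1) - T k n = ((U k (n + 1) - U k n) - T k n) / ((n : ℝ) + 3 / 2) := by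
      unfold T
      push_cast
      field_simp
      ring
    rw [e, abs_div, abs_of_pos (show (0 : ℝ) < n + 3 / 2 by positivity)]
    refine div_le_div₀ (by positivity) ?_ hp (by linarith)
    have h1 := U_lip k n
    have h2 := T_abs k n
    have h3 := abs_sub (U k (n + 1) - U k n) (T k n)
    have h4 : (8 : ℝ) / 2 ^ k = 6 / 2 ^ k + 2 / 2 ^ k := by ring
    linarith

theorem T_moment (k : ℕ) : ∑ n ∈ range (16 * 2 ^ k), T k n * ((n : ℝ) + 1 / 2) = 0 := by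
  have e : ∀ n : ℕ, T k n * ((n : ℝ) + 1 / 2) = U k n := fun n => by
    unfold T
    exact div_mul_cancel₀ _ (by positivity)
  simp only [e]
  unfold U
  rw [Finset.sum_sub_distrib]
  have h1 := sum_X (2 ^ (k + 1)) (16 * 2 ^ k) (by positivity) (by rw [pow_succ]; omega)
  have h2 := sum_X (2 ^ k) (16 * 2 ^ k) (by positivity) (by omega)
  push_cast at h1 h2
  rw [h1, h2, sub_self]

theorem T_sum {K n : ℕ} (h : n < 2 ^ K) :
    1 / ((n : ℝ) + 1 / 2) = X ((n : ℝ) + 1 / 2) / ((n : ℝ) + 1 / 2) + ∑ k ∈ range K, T k n := by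
  have h' : (n : ℝ) + 1 ≤ 2 ^ K := by exact_mod_cast (by omega : n + 1 ≤ 2 ^ K)
  unfold T U
  rw [← Finset.sum_div, Finset.sum_range_sub (fun k => X (((n : ℝ) + 1 / 2) / 2 ^ k)), ← add_div,
    X_one (r := ((n : ℝ) + 1 / 2) / 2 ^ K)]
  · simp
  · rw [div_le_one (by positivity)]; linarith

theorem cast16 (c k : ℕ) : ((c * 2 ^ k : ℕ) : ℤ) = (c : ℤ) * 2 ^ k := by push_cast; rfl

theorem isTau (k : ℕ) : IsTau k (8 / 2 ^ k) (odd fun n => (T k n : ℂ)) := by
  have hs : ∀ n, 16 * 2 ^ k ≤ n → ((T k n : ℝ) : ℂ) = 0 := fun n hn => by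
    rw [T_large (by omega)]; simp
  refine ⟨fun j hj => odd_supp _ hs j (by rw [cast16]; exact_mod_cast hj), fun m hm => ?_,
    odd_norm _ fun n => ?_, odd_lip _ ?_ fun n => ?_⟩
  · have h1 := congrArg (fun r : ℝ => (r : ℂ)) (T_moment k)
    push_cast at h1
    have := odd_moment (fun n => (T k n : ℂ)) hs h1 m hm
    rw [cast16] at this
    exact_mod_cast this
  · rw [Complex.norm_real, Real.norm_eq_abs]
    refine (T_abs k n).trans ?_
    gcongr; norm_num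
  · rw [T_small (by positivity)]; simp
  · rw [← Complex.ofReal_sub, Complex.norm_real, Real.norm_eq_abs]
    exact T_lip k n

section Var

variable (θ : ℕ → ℂ)

/-- variation up to `N` -/
noncomputable def P (N : ℕ) : ℝ := ∑ n ∈ range N, ‖θ (n + 1) - θ n‖

theorem P_nonneg (N : ℕ) : 0 ≤ P θ N := Finset.sum_nonneg fun _ _ => norm_nonneg _

theorem P_mono {M N : ℕ} (h : M ≤ N) : P θ M ≤ P θ N :=
  Finset.sum_le_sum_of_subset_of_nonneg (Finset.range_mono h) fun _ _ _ => norm_nonneg _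

theorem norm_sub_le_P {M N : ℕ} (h : M ≤ N) : ‖θ N - θ M‖ ≤ P θ N - P θ M := by
  induction N, h using Nat.le_induction with
  | base => simp
  | succ N _ ih =>
    have e : P θ (N + 1) = P θ N + ‖θ (N + 1) - θ N‖ := Finset.sum_range_succ _ _
    have := norm_sub_le_norm_sub_add_norm_sub (θ (N + 1)) (θ N) (θ M)
    linarith

theorem P_le {J : ℕ} {B : ℝ} (h0 : ∀ j, J ≤ j → θ j = 0) (hB : P θ J ≤ B) (N : ℕ) :
    P θ N ≤ B := by
  refine (P_mono θ (le_max_left N J)).trans (le_trans (le_of_eq ?_) hB)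
  exact sum_range_eq _ (m := J) (fun n hn => by simp [h0 n hn, h0 (n + 1) (by omega)])
    (le_max_right _ _) le_rfl

theorem eta_var {B : ℝ} (hB : ∀ N, P θ N ≤ B) (K : ℕ) :
    ∑ k ∈ range K, ‖θ (2 ^ (k + 1)) - θ (2 ^ k)‖ ≤ B := by
  calc _ ≤ ∑ k ∈ range K, (P θ (2 ^ (k + 1)) - P θ (2 ^ k)) :=
        Finset.sum_le_sum fun k _ => norm_sub_le_P θ (by rw [pow_succ]; omega)
    _ = P θ (2 ^ K) - P θ (2 ^ 0) := Finset.sum_range_sub (fun k => P θ (2 ^ k)) K
    _ ≤ B := by linarith [hB (2 ^ K), P_nonneg θ (2 ^ 0)]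

/-- variation on a fat shell -/
noncomputable def V (k : ℕ) : ℝ := P θ (2 ^ (k + 4)) - P θ (2 ^ k)

theorem V_sum {B : ℝ} (hB : ∀ N, P θ N ≤ B) (K : ℕ) : ∑ k ∈ range K, V θ k ≤ 4 * B := by
  have e : ∑ k ∈ range K, V θ k =
      P θ (2 ^ K) + P θ (2 ^ (K + 1)) + P θ (2 ^ (K + 2)) + P θ (2 ^ (K + 3)) -
        (P θ (2 ^ 0) + P θ (2 ^ 1) + P θ (2 ^ 2) + P θ (2 ^ 3)) := by
    induction K with
    | zero => simp
    | succ K ih =>
      rw [sum_range_succ, ih]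
      unfold V
      ring_nf
  rw [e]
  linarith [hB (2 ^ K), hB (2 ^ (K + 1)), hB (2 ^ (K + 2)), hB (2 ^ (K + 3)), P_nonneg θ (2 ^ 0),
    P_nonneg θ (2 ^ 1), P_nonneg θ (2 ^ 2), P_nonneg θ (2 ^ 3)]

theorem V_nonneg (k : ℕ) : 0 ≤ V θ k :=
  sub_nonneg.2 (P_mono θ (Nat.pow_le_pow_right (by norm_num) (by omega)))

/-- the short variation kernel -/
noncomputable def E (k n : ℕ) : ℂ := (θ n - θ (2 ^ k)) * (T k n : ℂ)

theorem E_large {k n : ℕ} (h : 10 * 2 ^ k ≤ n) : E θ k n = 0 := by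
  unfold E; rw [T_large h]; simp

theorem E_zero (k : ℕ) : E θ k 0 = 0 := by
  unfold E; rw [T_small (by positivity)]; simp

theorem E_norm (h1 : ∀ j, ‖θ j‖ ≤ 1) (k n : ℕ) : ‖E θ k n‖ ≤ 16 / 2 ^ k := by
  unfold E
  rw [norm_mul, Complex.norm_real, Real.norm_eq_abs]
  have h2 : ‖θ n - θ (2 ^ k)‖ ≤ 2 := by
    linarith [norm_sub_le (θ n) (θ (2 ^ k)), h1 n, h1 (2 ^ k)]
  calc _ ≤ 2 * (2 / 2 ^ k) := mul_le_mul h2 (T_abs k n) (abs_nonneg _) (by norm_num)
    _ = 4 / 2 ^ k := by ring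
    _ ≤ _ := by gcongr; norm_num

theorem E_diff (k n : ℕ) : ‖E θ k (n + 1) - E θ k n‖ ≤ V θ k * (8 / 2 ^ k / 2 ^ k) +
    (if n ∈ Ico (2 ^ k) (2 ^ (k + 4)) then ‖θ (n + 1) - θ n‖ else 0) * (2 / 2 ^ k) := by
  have e : E θ k (n + 1) - E θ k n = (θ (n + 1) - θ (2 ^ k)) * ((T k (n + 1) - T k n : ℝ) : ℂ) +
      (θ (n + 1) - θ n) * (T k n : ℂ) := by
    unfold E; push_cast; ring
  have hV := V_nonneg θ k
  have h16 : 2 ^ (k + 4) = 16 * 2 ^ k := by ring
  rw [e]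
  refine (norm_add_le _ _).trans (add_le_add ?_ ?_)
  · rw [norm_mul, Complex.norm_real, Real.norm_eq_abs]
    by_cases h1 : n + 1 < 2 ^ k
    · rw [T_small h1, T_small (by omega), sub_zero, abs_zero, mul_zero]; positivity
    by_cases h2 : 10 * 2 ^ k ≤ n
    · rw [T_large h2, T_large (by omega), sub_zero, abs_zero, mul_zero]; positivity
    refine mul_le_mul ?_ (T_lip k n) (abs_nonneg _) hV
    refine (norm_sub_le_P θ (not_lt.1 h1)).trans ?_
    unfold V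
    have := P_mono θ (show n + 1 ≤ 2 ^ (k + 4) by omega)
    linarith
  · rw [norm_mul, Complex.norm_real, Real.norm_eq_abs]
    split_ifs with h
    · exact mul_le_mul_of_nonneg_left (T_abs k n) (norm_nonneg _)
    · have : T k n = 0 := by
        rw [mem_Ico] at h
        by_cases h1 : n < 2 ^ k
        · exact T_small h1
        · exact T_large (by omega)
      rw [this]; simp

theorem E_tv (k : ℕ) :
    ∑ n ∈ range (17 * 2 ^ k + 1), ‖E θ k (n + 1) - E θ k n‖ ≤ 146 * V θ k / 2 ^ k := by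
  have hV := V_nonneg θ k
  have hp : (1 : ℝ) ≤ 2 ^ k := one_le_pow₀ (by norm_num)
  refine (Finset.sum_le_sum fun n _ => E_diff θ k n).trans ?_
  rw [Finset.sum_add_distrib, ← Finset.sum_mul, ← Finset.sum_mul, Finset.sum_ite_mem]
  have h1 : ∑ n ∈ range (17 * 2 ^ k + 1) ∩ Ico (2 ^ k) (2 ^ (k + 4)), ‖θ (n + 1) - θ n‖ ≤
      V θ k := by
    refine (Finset.sum_le_sum_of_subset_of_nonneg Finset.inter_subset_right
      fun _ _ _ => norm_nonneg _).trans (le_of_eq ?_)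
    unfold V P
    exact Finset.sum_Ico_eq_sub _ (Nat.pow_le_pow_right (by norm_num) (by omega))
  have h2 : ∑ _n ∈ range (17 * 2 ^ k + 1), V θ k ≤ 18 * 2 ^ k * V θ k := by
    rw [sum_const, card_range, nsmul_eq_mul]
    push_cast
    gcongr
    linarith
  calc _ ≤ 18 * 2 ^ k * V θ k * (8 / 2 ^ k / 2 ^ k) + V θ k * (2 / 2 ^ k) := by gcongr
    _ = _ := by field_simp; ring

/-- the bottom kernel -/
noncomputable def Bt (n : ℕ) : ℂ := θ n * ((X ((n : ℝ) + 1 / 2) / ((n : ℝ) + 1 / 2) : ℝ) : ℂ)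

theorem Bt_large {n : ℕ} (h : 5 ≤ n) : Bt θ n = 0 := by
  have h' : (5 : ℝ) ≤ n := by exact_mod_cast h
  unfold Bt; rw [X_zero (by linarith)]; simp

theorem Bt_norm (h1 : ∀ j, ‖θ j‖ ≤ 1) (n : ℕ) : ‖Bt θ n‖ ≤ 2 := by
  unfold Bt
  rw [norm_mul, Complex.norm_real, Real.norm_eq_abs, abs_div,
    abs_of_pos (show (0 : ℝ) < n + 1 / 2 by positivity)]
  have h2 : |X ((n : ℝ) + 1 / 2)| / ((n : ℝ) + 1 / 2) ≤ 2 := by
    rw [div_le_iff₀ (by positivity)]
    have := X_abs ((n : ℝ) + 1 / 2)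
    have : (0 : ℝ) ≤ n := by positivity
    linarith
  calc _ ≤ 1 * 2 := mul_le_mul (h1 n) h2 (by positivity) (by norm_num)
    _ = _ := by ring

theorem decomp {J : ℕ} (h0 : ∀ j, J ≤ j → θ j = 0) (Φ : ℤ → ℂ) :
    ∑ j ∈ range J, θ j / ((j : ℂ) + 1 / 2) * (Φ j - Φ (-1 - j)) =
      ev 5 (odd (Bt θ)) Φ + ∑ k ∈ range J, θ (2 ^ k) * ev (16 * 2 ^ k) (odd fun n => (T k n : ℂ)) Φ +
        ∑ k ∈ range J, ev (16 * 2 ^ k) (odd (E θ k)) Φ := by
  have hJ : J < 2 ^ J := Nat.lt_two_pow_self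
  have hpos : 0 < 2 ^ J := by positivity
  have e1 : ev 5 (odd (Bt θ)) Φ = ∑ n ∈ range (16 * 2 ^ J), Bt θ n * (Φ n - Φ (-1 - n)) :=
    ev_odd (Bt θ) Φ (m := 5) (A := 5) (fun n hn => Bt_large θ hn) le_rfl (by omega)
  have e2 : ∀ k ∈ range J, θ (2 ^ k) * ev (16 * 2 ^ k) (odd fun n => (T k n : ℂ)) Φ =
      ∑ n ∈ range (16 * 2 ^ J), θ (2 ^ k) * (T k n : ℂ) * (Φ n - Φ (-1 - n)) := fun k hk => by
    have hk' : 2 ^ k ≤ 2 ^ J := Nat.pow_le_pow_right (by norm_num) (mem_range.1 hk).le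
    have := ev_odd (fun n => (T k n : ℂ)) Φ (m := 10 * 2 ^ k) (A := 16 * 2 ^ k) (N := 16 * 2 ^ J)
      (fun n hn => by rw [T_large hn]; simp) (by omega) (by omega)
    rw [cast16] at this
    erw [this]
    rw [Finset.mul_sum]
    exact Finset.sum_congr rfl fun n _ => by ring
  have e3 : ∀ k ∈ range J, ev (16 * 2 ^ k) (odd (E θ k)) Φ =
      ∑ n ∈ range (16 * 2 ^ J), E θ k n * (Φ n - Φ (-1 - n)) := fun k hk => by
    have hk' : 2 ^ k ≤ 2 ^ J := Nat.pow_le_pow_right (by norm_num) (mem_range.1 hk).le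
    have := ev_odd (E θ k) Φ (m := 10 * 2 ^ k) (A := 16 * 2 ^ k) (N := 16 * 2 ^ J)
      (fun n hn => E_large θ hn) (by omega) (by omega)
    rw [cast16] at this
    exact this
  rw [e1, Finset.sum_congr rfl e2, Finset.sum_congr rfl e3, Finset.sum_comm,
    Finset.sum_comm (s := range J), ← Finset.sum_add_distrib, ← Finset.sum_add_distrib,
    sum_range_eq (fun j => θ j / ((j : ℂ) + 1 / 2) * (Φ j - Φ (-1 - j))) (m := J)
      (N := 16 * 2 ^ J) (fun n hn => by simp [h0 n hn]) le_rfl (by omega)]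
  refine Finset.sum_congr rfl fun n _ => ?_
  rw [← Finset.sum_mul, ← Finset.sum_mul, ← add_mul, ← add_mul, add_assoc,
    ← Finset.sum_add_distrib]
  congr 1
  have e4 : ∑ k ∈ range J, (θ (2 ^ k) * (T k n : ℂ) + E θ k n) =
      θ n * ((∑ k ∈ range J, T k n : ℝ) : ℂ) := by
    push_cast
    rw [Finset.mul_sum]
    refine Finset.sum_congr rfl fun k _ => ?_
    unfold E; ring
  rw [e4]
  unfold Bt
  by_cases hn : J ≤ n
  · simp [h0 n hn]
  · rw [← mul_add, ← Complex.ofReal_add, ← T_sum (K := J) (by omega)]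
    push_cast
    ring

end Var

end Disc

open Disc in
theorem discStmt_of (hL : LongStmt) (hS : ShortStmt) : DiscStmt := by
  obtain ⟨C₁, hC₁, hL⟩ := hL
  obtain ⟨C₂, hC₂, hS⟩ := hS
  refine ⟨22 + C₁ + C₂ * 35 ^ 3, by positivity, fun L _ J t F₀ F₁ H θ ht h1 h0 hv => ?_⟩
  have hP : ∀ z x N, P (θ z x) N ≤ t ^ 2 := fun z x => P_le (θ z x) (h0 z x) (hv z x)
  have b1 := triv_bound 5 F₀ F₁ H (fun z x => odd (Bt (θ z x))) (fun _ => 2)
    fun z x j _ => odd_norm _ (Bt_norm _ (h1 z x)) j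
  have b2 := hL L J t F₀ F₁ H (fun k z x => θ z x (2 ^ k)) (fun k => odd fun n => (T k n : ℂ)) ht
    (fun k z x => h1 z x _) (fun z x => eta_var (θ z x) (hP z x) J) isTau
  have hs : ∀ k z x n, 16 * 2 ^ k ≤ n → E (θ z x) k n = 0 := fun k z x n hn =>
    E_large _ (by omega)
  have b3 := hS L J (35 * t) F₀ F₁ H (fun k z x => odd (E (θ z x) k))
    (fun k z x => 292 * V (θ z x) k) (by linarith)
    (fun k z x j hj => odd_supp _ (hs k z x) j (by rw [cast16]; exact_mod_cast hj))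
    (fun k z x => by
      have := odd_mean _ (hs k z x)
      rw [cast16] at this
      exact this)
    (fun k z x => odd_norm _ (E_norm _ (h1 z x) k))
    (fun k z x => by
      have := odd_tv _ (E_zero (θ z x) k) (17 * 2 ^ k)
      rw [cast16] at this
      refine le_trans this ?_
      have h2 := E_tv (θ z x) k
      calc _ ≤ 2 * (146 * V (θ z x) k / 2 ^ k) := by gcongr
        _ = _ := by ring)
    (fun z x => by
      rw [← Finset.mul_sum]
      have := V_sum (θ z x) (hP z x) J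
      nlinarith [sq_nonneg t])
  have e : ∑ z, ∑ x, H z x * ∑ j ∈ range J,
      θ z x j / ((j : ℂ) + 1 / 2) * (Fz F₀ F₁ z x j - Fz F₀ F₁ z x (-1 - j)) =
      ∑ z, ∑ x, H z x * ev 5 (odd (Bt (θ z x))) (Fz F₀ F₁ z x) +
      ∑ k ∈ range J, ∑ z, ∑ x, H z x * θ z x (2 ^ k) *
        ev (16 * 2 ^ k) (odd fun n => (T k n : ℂ)) (Fz F₀ F₁ z x) +
      ∑ k ∈ range J, ∑ z, ∑ x, H z x * ev (16 * 2 ^ k) (odd (E (θ z x) k)) (Fz F₀ F₁ z x) := by
    rw [Finset.sum_comm (s := range J), Finset.sum_comm (s := range J), ← Finset.sum_add_distrib,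
      ← Finset.sum_add_distrib]
    refine Finset.sum_congr rfl fun z _ => ?_
    rw [Finset.sum_comm (s := range J), Finset.sum_comm (s := range J), ← Finset.sum_add_distrib,
      ← Finset.sum_add_distrib]
    refine Finset.sum_congr rfl fun x _ => ?_
    rw [decomp (θ z x) (h0 z x), mul_add, mul_add, Finset.mul_sum, Finset.mul_sum]
    simp only [mul_assoc]
  rw [e]
  have n0 := N3_nonneg F₀
  have n1 := N3_nonneg F₁
  have n2 := N3_nonneg H
  have ht3 : 1 ≤ t ^ 3 := one_le_pow₀ ht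
  have hH : N3 H ≤ t ^ 3 * N3 H := le_mul_of_one_le_left n2 ht3
  have c1 : (∑ _j ∈ Icc (-5 : ℤ) 5, (2 : ℝ)) = 22 := by
    rw [sum_const, Int.card_Icc, show ((5 : ℤ) + 1 - -5).toNat = 11 from rfl]; norm_num
  rw [c1] at b1
  have b3' : C₂ * (N3 F₀ + N3 F₁ + (35 * t) ^ 3 * N3 H) ≤
      C₂ * 35 ^ 3 * (N3 F₀ + N3 F₁ + t ^ 3 * N3 H) := by
    rw [mul_assoc C₂]
    refine mul_le_mul_of_nonneg_left ?_ hC₂
    nlinarith
  refine (norm_add₃_le).trans ?_
  nlinarith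

end Crest.Agent.R72
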