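import Crest.Agent.R72.GainA

/-!
Row 72: total gains on fat planes.
-/

set_option maxHeartbeats 400000

namespace Crest.Agent.R72.Gain

open Matrix Finset
open scoped MatrixOrder ComplexOrder ENNReal

/-- smoothed window average -/
noncomputable def Pot (φ : ℤ → ℝ) (c d : ℤ) (M : ℕ) : ℝ :=
  (∑ i ∈ range M, (φ (c + i) + φ (c + i + d))) / (2 * M)

theorem pot_step (φ ψ γ : ℤ → ℝ) (c d : ℤ) (n : ℕ) (hn : 0 < n) (E₁ E₂ : ℝ)
    (h : ∀ u, ψ u + γ u ≤ (φ u + 3 * φ (u + d) + 3 * φ (u + 2 * d) + φ (u + 3 * d)) / 8)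
    (h₁ : ∀ u, φ (u + d) + φ (u - d) ≤ 2 * φ u + E₁)
    (h₂ : ∀ u, φ (u + n) + φ (u - n) ≤ 2 * φ u + E₂) (hγ : ∀ u, 0 ≤ γ u) :
    Pot ψ (c - n - 2 * d) (2 * d) (4 * n) + (∑ i ∈ range (4 * n), γ (c - n + i)) / (8 * n) ≤
      Pot φ c d (2 * n) + 3 / 4 * E₁ + 1 / 2 * E₂ := by
  have hp : ∀ v, ψ (v - 2 * d) + ψ v + γ v ≤ φ v + φ (v + d) + 3 / 2 * E₁ := by
    intro v
    have a1 := h (v - 2 * d)
    have a2 := h v
    have b1 := h₁ (v - d)
    have b2 := h₁ v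
    have b3 := h₁ (v + d)
    have b4 := h₁ (v + 2 * d)
    have g := hγ (v - 2 * d)
    rw [show v - 2 * d + d = v - d by ring, show v - 2 * d + 2 * d = v by ring,
      show v - 2 * d + 3 * d = v + d by ring] at a1
    rw [show v - d + d = v by ring, show v - d - d = v - 2 * d by ring] at b1
    rw [show v + d + d = v + 2 * d by ring, show v + d - d = v by ring] at b3
    rw [show v + 2 * d + d = v + 3 * d by ring, show v + 2 * d - d = v + d by ring] at b4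
    linarith
  have hq : ∀ i : ℕ, (φ (c - n + i) + φ (c - n + i + d)) +
      (φ (c - n + (2 * n + i : ℕ)) + φ (c - n + (2 * n + i : ℕ) + d)) ≤
      2 * (φ (c + i) + φ (c + i + d)) + 2 * E₂ := by
    intro i
    have b1 := h₂ (c + i)
    have b2 := h₂ (c + i + d)
    rw [show c - n + i = c + i - n by ring, show c + i - n + d = c + i + d - n by ring,
      show c - n + (2 * n + i : ℕ) = c + i + n by push_cast; ring,
      show c + i + n + d = c + i + d + n by ring]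
    linarith
  have s1 := Finset.sum_le_sum fun i (_ : i ∈ range (4 * n)) => hp (c - n + i)
  have s2 := Finset.sum_le_sum fun i (_ : i ∈ range (2 * n)) => hq i
  rw [Finset.sum_add_distrib, ← Finset.sum_range_add (fun i : ℕ => φ (c - n + i) + φ (c - n + i + d)),
    show 2 * n + 2 * n = 4 * n by ring, Finset.sum_add_distrib (g := fun _ => 2 * E₂),
    ← Finset.mul_sum] at s2
  rw [Finset.sum_add_distrib (g := fun _ => 3 / 2 * E₁),
    Finset.sum_add_distrib (g := fun i : ℕ => γ (c - n + i))] at s1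
  simp only [Finset.sum_const, Finset.card_range, nsmul_eq_mul] at s1 s2
  unfold Pot
  have e : ∀ i : ℕ, ψ (c - n - 2 * d + i) + ψ (c - n - 2 * d + i + 2 * d) =
      ψ (c - n + i - 2 * d) + ψ (c - n + i) := fun i => by
    congr 2 <;> ring
  simp only [e]
  push_cast at s1 s2 ⊢
  have hn' : (0 : ℝ) < n := by exact_mod_cast hn
  set A := ∑ i ∈ range (4 * n), (ψ (c - n + i - 2 * d) + ψ (c - n + i))
  set G := ∑ i ∈ range (4 * n), γ (c - n + i)
  set B := ∑ i ∈ range (2 * n), (φ (c + i) + φ (c + i + d))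
  have : A + G ≤ 2 * B + 6 * n * E₁ + 4 * n * E₂ := by linarith
  calc A / (2 * (4 * n)) + G / (8 * n) = (A + G) / (8 * n) := by field_simp; ring
    _ ≤ (2 * B + 6 * n * E₁ + 4 * n * E₂) / (8 * n) := by gcongr
    _ = _ := by field_simp; ring

theorem pot_le {φ ψ : ℤ → ℝ} {c d : ℤ} {M : ℕ} (hM : 0 < M) {E : ℝ}
    (h : ∀ i : ℕ, i < M → φ (c + i) ≤ ψ (c + i) + E ∧ φ (c + i + d) ≤ ψ (c + i + d) + E) :
    Pot φ c d M ≤ Pot ψ c d M + E := by
  unfold Pot
  have hM' : (0 : ℝ) < M := by exact_mod_cast hM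
  have s := Finset.sum_le_sum fun i (hi : i ∈ range M) =>
    show φ (c + i) + φ (c + i + d) ≤ (ψ (c + i) + ψ (c + i + d)) + 2 * E by
      have := h i (Finset.mem_range.1 hi); linarith [this.1, this.2]
  rw [Finset.sum_add_distrib (g := fun _ => 2 * E)] at s
  simp only [Finset.sum_const, Finset.card_range, nsmul_eq_mul] at s
  rw [div_add' _ _ _ (by positivity)]
  gcongr
  linarith

theorem pot_nonneg {φ : ℤ → ℝ} (h : ∀ u, 0 ≤ φ u) (c d : ℤ) (M : ℕ) : 0 ≤ Pot φ c d M :=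
  div_nonneg (Finset.sum_nonneg fun _ _ => add_nonneg (h _) (h _)) (by positivity)

theorem telescope (a : ℕ → ℕ → ℝ) (J : ℕ → ℝ) (c K : ℕ) (h0 : ∀ i k, 0 ≤ a i k)
    (hJ : ∀ i, a (i + 1) (i + c + 1) ≤ a i (i + c + 1) + J i) :
    ∑ k ∈ range K, (a k (k + c) - a k (k + c + 1)) ≤ a 0 c + ∑ i ∈ range K, J i := by
  have : ∑ k ∈ range K, (a k (k + c) - a k (k + c + 1)) + a K (K + c) ≤
      a 0 c + ∑ i ∈ range K, J i := by
    induction K with
    | zero => simp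
    | succ K ih =>
      rw [Finset.sum_range_succ, Finset.sum_range_succ, show K + 1 + c = K + c + 1 by ring]
      linarith [hJ K]
  linarith [h0 K (K + c)]

variable {L : ℕ} [NeZero L]

theorem N3_zero : N3 (0 : Mx (ZMod L)) = 0 := by simp [N3]

theorem sum_Js_le (hC : ConvStmt) (hG : GapGStmt) (hT : TrStmt) (F : ℕ → Mx (ZMod L)) (J : ℕ → ℝ)
    (hJ : ∀ i k, Ps (F (i + 1)) k ≤ Ps (F i) k + J i) (β K : ℕ) :
    ∑ k ∈ range K, Js (F k) k (2 ^ (k + β)) ≤ (β + 1) * (2 * N3 (F 0) + ∑ i ∈ range K, J i) := by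
  have h0 : ∀ i k, 0 ≤ Ps (F i) k := fun i k => ph_zero_left (F i) k 0 ▸ ph_nonneg hT _ _ _ _
  have h1 : Ps (F 0) 0 ≤ 2 * N3 (F 0) := by
    have := ph_level_zero hT 0 (F 0) 0
    rw [ph_zero_left, N3_zero, zero_add] at this
    refine this.trans (mul_le_mul_of_nonneg_right ?_ (N3_nonneg _))
    exact Real.sqrt_le_iff.2 ⟨by norm_num, by norm_num⟩
  calc _ ≤ ∑ k ∈ range K, ∑ c ∈ range (β + 1), (Ps (F k) (k + c) - Ps (F k) (k + c + 1)) := by
        refine Finset.sum_le_sum fun k _ => (Js_le hC hG (F k) k β).trans (le_of_eq ?_)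
        have := Finset.sum_range_sub' (fun c => Ps (F k) (k + c)) (β + 1)
        exact this.symm
    _ = ∑ c ∈ range (β + 1), ∑ k ∈ range K, (Ps (F k) (k + c) - Ps (F k) (k + c + 1)) :=
        Finset.sum_comm
    _ ≤ ∑ _c ∈ range (β + 1), (2 * N3 (F 0) + ∑ i ∈ range K, J i) := by
        refine Finset.sum_le_sum fun c _ => ?_
        refine (telescope (fun i k => Ps (F i) k) J c K h0 fun i => hJ i _).trans ?_
        linarith [Ps_le_zero hC hG (F 0) c]
    _ = _ := by simp [mul_add]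

theorem sum_Icc_le (γ : ℤ → ℝ) (hγ : ∀ u, 0 ≤ γ u) (a b c : ℤ) (M : ℕ) (ha : c ≤ a)
    (hb : b < c + M) : ∑ u ∈ Icc a b, γ u ≤ ∑ i ∈ range M, γ (c + i) := by
  rw [← Finset.sum_image (s := range M) (g := fun i : ℕ => c + (i : ℤ)) (f := γ)
    (fun i _ j _ h => by simpa using h)]
  refine Finset.sum_le_sum_of_subset_of_nonneg (fun u hu => ?_) fun u _ _ => hγ u
  rw [Finset.mem_Icc] at hu
  refine Finset.mem_image.2 ⟨(u - c).toNat, Finset.mem_range.2 (by omega), by omega⟩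

end Crest.Agent.R72.Gain

namespace Crest.Agent.R72

open Matrix Finset Gain

theorem gainStmt_of (hC : ConvStmt) (hM : MixStmt) (hT : TrStmt) (hJ : JumpStmt)
    (hG : GapGStmt) : GainStmt := by
  refine ⟨3000, by norm_num, ?_⟩
  intro L _ α K F₀ F₁ B m₀ m₁ m₂ hB h₀ h₁ h₂ hm₀ hm₁ hm₂
  set J : ℕ → ℝ := fun i =>
    3 * ∑ z, ∑ x, ‖F₁ (i + 1) z x - F₁ i z x‖ * ((m₀ z x + m₁ z x) * m₂ z x) with hJdef
  set TV := ∑ z, ∑ x, (∑ i ∈ range K, ‖F₁ (i + 1) z x - F₁ i z x‖) *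
    ((m₀ z x + m₁ z x) * m₂ z x) with hTV
  have hJs : ∑ i ∈ range K, J i = 3 * TV := by
    simp only [hJdef, hTV, ← Finset.mul_sum, Finset.sum_mul]
    congr 1
    rw [Finset.sum_comm]
    exact Finset.sum_congr rfl fun z _ => Finset.sum_comm
  have hTV0 : 0 ≤ TV := Finset.sum_nonneg fun z _ => Finset.sum_nonneg fun x _ =>
    mul_nonneg (Finset.sum_nonneg fun _ _ => norm_nonneg _)
      (mul_nonneg (add_nonneg (h₀ z x) (h₁ z x)) (h₂ z x))
  have hB0 : 0 ≤ B := (N3_nonneg _).trans (hB 0)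
  have hN0 := N3_nonneg F₀
  -- single potentials
  have hPs : ∀ i k, Ps (F₁ (i + 1)) k ≤ Ps (F₁ i) k + J i := fun i k => by
    have := jump hJ 0 (F₁ i) (F₁ (i + 1)) k 0 m₀ m₁ m₂ h₀ h₁ h₂
      (fun z x j j' _ _ => by simp [sq_nonneg]) (hm₁ (i + 1) k) (hm₂ (i + 1) k)
    rwa [ph_zero_left, ph_zero_left] at this
  have hA : ∀ β, ∑ k ∈ range K, Js F₀ᴴ k (2 ^ (k + β)) ≤ (β + 1) * (2 * N3 F₀) := fun β => by
    have := sum_Js_le hC hG hT (fun _ => F₀ᴴ) (fun _ => 0) (fun i k => by simp) β K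
    simpa [N3_conjTranspose] using this
  have hBs : ∀ β, ∑ k ∈ range K, Js (F₁ k) k (2 ^ (k + β)) ≤ (β + 1) * (2 * B + 3 * TV) :=
    fun β => by
    refine (sum_Js_le hC hG hT F₁ J hPs β K).trans ?_
    rw [hJs]
    have := hB 0
    gcongr
  -- plane potentials
  set a : ℕ → ℕ → ℝ := fun i k => Pot (fun u => ph F₀ (F₁ i) k (u : ZMod L))
    (-(2 ^ (k + (α + 2)) + 2 * 2 ^ k)) (2 ^ k) (2 * 2 ^ (k + (α + 2))) with ha
  have ha0 : ∀ i k, 0 ≤ a i k := fun i k => pot_nonneg (fun u => ph_nonneg hT _ _ _ _) _ _ _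
  have haJ : ∀ i k, a (i + 1) k ≤ a i k + J i := fun i k => by
    have key : ∀ u : ℤ, -(2 ^ (k + (α + 2)) + 2 * 2 ^ k) ≤ u → u ≤ 2 ^ (k + (α + 2)) →
        ph F₀ (F₁ (i + 1)) k (u : ZMod L) ≤ ph F₀ (F₁ i) k (u : ZMod L) + J i := by
      intro u hu hu'
      refine jump hJ F₀ (F₁ i) (F₁ (i + 1)) k u m₀ m₁ m₂ h₀ h₁ h₂ (fun z x j j' hj hj' => ?_)
        (hm₁ (i + 1) k) (hm₂ (i + 1) k)
      have := hm₀ k z x (u + j + j') (by
        have e1 : (2 : ℤ) ^ (k + (α + 2)) = 4 * (2 ^ α * 2 ^ k) := by ring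
        have e2 : (2 : ℤ) ^ (α + 3) * 2 ^ k = 8 * (2 ^ α * 2 ^ k) := by ring
        have e3 : (2 : ℤ) ^ k ≤ 2 ^ α * 2 ^ k :=
          le_mul_of_one_le_left (by positivity) (one_le_pow₀ (by norm_num))
        have hj1 : (j : ℤ) < 2 ^ k := by exact_mod_cast hj
        have hj2 : (j' : ℤ) < 2 ^ k := by exact_mod_cast hj'
        rw [e1] at hu hu'
        rw [e2, abs_le]
        constructor <;> omega)
      push_cast at this
      exact this
    refine pot_le (by positivity) fun j hj => ?_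
    have hj1 : (j : ℤ) < 2 * 2 ^ (k + (α + 2)) := by exact_mod_cast hj
    have hp : (0 : ℤ) < 2 ^ k := by positivity
    exact ⟨key _ (by omega) (by omega), key _ (by omega) (by omega)⟩
  have ha00 : a 0 0 ≤ 2 * (N3 F₀ + B) := by
    have := pot_le (φ := fun u => ph F₀ (F₁ 0) 0 (u : ZMod L)) (ψ := fun _ => 0)
      (c := -(2 ^ (0 + (α + 2)) + 2 * 2 ^ 0)) (d := 2 ^ 0) (M := 2 * 2 ^ (0 + (α + 2)))
      (by positivity) (E := 2 * (N3 F₀ + B)) (fun j _ => by
        have : ∀ u, ph F₀ (F₁ 0) 0 u ≤ 0 + 2 * (N3 F₀ + B) := fun u => by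
          refine (ph_level_zero hT _ _ u).trans ?_
          have h2 : √2 ≤ 2 := Real.sqrt_le_iff.2 ⟨by norm_num, by norm_num⟩
          have := hB 0
          have := N3_nonneg (F₁ 0)
          rw [zero_add]
          gcongr
        exact ⟨this _, this _⟩)
    simpa [Pot, ha] using this
  have hstep : ∀ k, (∑ u ∈ Icc (-(2 ^ (α + k) : ℤ)) (2 ^ (α + k)), pgain F₀ (F₁ k) k u) /
      2 ^ (α + k) ≤ 32 * ((a k (k + 0) - a k (k + 0 + 1)) +
        3 / 4 * (11 * (Js F₀ᴴ k (2 ^ (k + 0)) + Js (F₁ k) k (2 ^ (k + 0)))) +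
        1 / 2 * (11 * (Js F₀ᴴ k (2 ^ (k + (α + 2))) + Js (F₁ k) k (2 ^ (k + (α + 2)))))) := by
    intro k
    have hs := pot_step (fun u => ph F₀ (F₁ k) k (u : ZMod L))
      (fun u => ph F₀ (F₁ k) (k + 1) (u : ZMod L)) (pgain F₀ (F₁ k) k)
      (-(2 ^ (k + (α + 2)) + 2 * 2 ^ k)) (2 ^ k) (2 ^ (k + (α + 2))) (by positivity)
      (11 * (Js F₀ᴴ k (2 ^ (k + 0)) + Js (F₁ k) k (2 ^ (k + 0))))
      (11 * (Js F₀ᴴ k (2 ^ (k + (α + 2))) + Js (F₁ k) k (2 ^ (k + (α + 2)))))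
      (fun u => by
        have := step hC F₀ (F₁ k) k (u : ZMod L)
        push_cast
        exact this)
      (fun u => by
        have := second_diff hM F₀ (F₁ k) k (u : ZMod L) (2 ^ k)
        push_cast
        exact this)
      (fun u => by
        have := second_diff hM F₀ (F₁ k) k (u : ZMod L) (2 ^ (k + (α + 2)))
        push_cast
        exact this)
      (pgain_nonneg hG _ _ _)
    have hI := sum_Icc_le (pgain F₀ (F₁ k) k) (pgain_nonneg hG _ _ _) (-(2 ^ (α + k) : ℤ))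
      (2 ^ (α + k)) (-(2 ^ (k + (α + 2)) + 2 * 2 ^ k) - (2 ^ (k + (α + 2)) : ℕ))
      (4 * 2 ^ (k + (α + 2))) (by
        push_cast
        have e1 : (2 : ℤ) ^ (k + (α + 2)) = 4 * (2 ^ (α + k)) := by ring
        have : (0 : ℤ) < 2 ^ k := by positivity
        have : (0 : ℤ) < 2 ^ (α + k) := by positivity
        omega) (by
        push_cast
        have e1 : (2 : ℤ) ^ (k + (α + 2)) = 4 * (2 ^ (α + k)) := by ring
        have e3 : (2 : ℤ) ^ k ≤ 2 ^ (α + k) := pow_le_pow_right₀ (by norm_num) (by omega)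
        have : (0 : ℤ) < 2 ^ k := by positivity
        omega)
    have e1 : a k (k + 0 + 1) = Pot (fun u => ph F₀ (F₁ k) (k + 1) (u : ZMod L))
        (-(2 ^ (k + (α + 2)) + 2 * 2 ^ k) - (2 ^ (k + (α + 2)) : ℕ) - 2 * 2 ^ k) (2 * 2 ^ k)
        (4 * 2 ^ (k + (α + 2))) := by
      simp only [ha, add_zero]
      congr 1
      · push_cast; ring
      · ring
      · ring
    rw [← e1] at hs
    set G := ∑ i ∈ range (4 * 2 ^ (k + (α + 2))), pgain F₀ (F₁ k) k
      (-(2 ^ (k + (α + 2)) + 2 * 2 ^ k) - (2 ^ (k + (α + 2)) : ℕ) + (i : ℤ))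
    have e2 : G / 2 ^ (α + k) = 32 * (G / (8 * ((2 ^ (k + (α + 2)) : ℕ) : ℝ))) := by
      push_cast
      field_simp
      ring
    calc _ ≤ G / 2 ^ (α + k) := by gcongr
      _ ≤ _ := by
        rw [e2]
        refine mul_le_mul_of_nonneg_left ?_ (by norm_num)
        have e3 : a k (k + 0) = Pot (fun u => ph F₀ (F₁ k) k (u : ZMod L))
          (-(2 ^ (k + (α + 2)) + 2 * 2 ^ k)) (2 ^ k) (2 * 2 ^ (k + (α + 2))) := rfl
        rw [e3]
        linarith
  have htel := telescope a J 0 K ha0 fun i => haJ i _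
  refine (Finset.sum_le_sum fun k _ => hstep k).trans ?_
  simp only [← Finset.mul_sum, Finset.sum_add_distrib]
  have b1 := hA 0
  have b2 := hBs 0
  have b3 := hA (α + 2)
  have b4 := hBs (α + 2)
  rw [hJs] at htel
  push_cast at b1 b2 b3 b4
  have hα : (0 : ℝ) ≤ α := by positivity
  have p1 := mul_nonneg hα hN0
  have p2 := mul_nonneg hα hB0
  have p3 := mul_nonneg hα hTV0
  nlinarith

end Crest.Agent.R72
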