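import Crest.Agent.R72.Basic

/-!
Row 72: the long variation bound.
-/

set_option maxHeartbeats 400000

namespace Crest.Agent.R72

open Matrix Finset

namespace Long

theorem amgm3 (a b c : ℝ) (ha : 0 ≤ a) (hb : 0 ≤ b) (hc : 0 ≤ c) :
    a * b * c ≤ a ^ 3 + b ^ 3 + c ^ 3 := by
  have : 0 ≤ (a + b + c) * ((a - b) ^ 2 + (b - c) ^ 2 + (c - a) ^ 2) := by positivity
  have h : 0 ≤ a * b * c := by positivity
  nlinarith

theorem sum_geom (K : ℕ) :
    ∑ l ∈ range K, ((l : ℝ) + 6) * (3 / 4) ^ l = 36 - (4 * K + 36) * (3 / 4) ^ K := by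
  induction K with
  | zero => simp
  | succ K ih => rw [sum_range_succ, ih]; push_cast; ring

theorem sum_half (K : ℕ) : ∑ k ∈ range K, (1 : ℝ) / 2 ^ k = 2 - 2 / 2 ^ K := by
  induction K with
  | zero => simp
  | succ K ih => rw [sum_range_succ, ih]; field_simp; ring

theorem sqrt_le (l : ℕ) : √((2 : ℝ) ^ (l + 5 + 3) + 1) ≤ 23 * (3 / 2) ^ l := by
  refine Real.sqrt_le_iff.2 ⟨by positivity, ?_⟩
  have h1 : (2 : ℝ) ^ l ≤ (9 / 4) ^ l := pow_le_pow_left₀ (by norm_num) (by norm_num) l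
  have h2 : (1 : ℝ) ≤ 2 ^ l := one_le_pow₀ (by norm_num)
  have h3 : ((3 / 2 : ℝ) ^ l) ^ 2 = (9 / 4) ^ l := by
    rw [← pow_mul, mul_comm, pow_mul]; norm_num
  rw [mul_pow, h3, pow_add, pow_add]
  nlinarith

/-- Total gains on a fat plane, with the majorants taken from the maximal inequality. -/
theorem gainB (hG : GainStmt) (hM : MaxStmt) : ∃ C : ℝ, 0 ≤ C ∧
    ∀ (L : ℕ) [NeZero L] (α K : ℕ) (t : ℝ) (F H : Mx (ZMod L)) (Hs : ℕ → Mx (ZMod L)), 1 ≤ t →
      (∀ i z x, ‖Hs i z x‖ ≤ ‖H z x‖) →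
      (∀ z x, ∑ i ∈ range K, ‖Hs (i + 1) z x - Hs i z x‖ ≤ t ^ 2 * ‖H z x‖) →
      ∑ k ∈ range K, (∑ u ∈ Icc (-(2 ^ (α + k) : ℤ)) (2 ^ (α + k)), pgain F (Hs k) k u) /
        2 ^ (α + k) ≤ C * (α + 1) * √(2 ^ (α + 3) + 1) * (N3 F + t ^ 3 * N3 H) := by
  obtain ⟨CG, hCG, hG⟩ := hG
  obtain ⟨CM, hCM, hM⟩ := hM
  refine ⟨CG * (5 + 6 * CM), by positivity, ?_⟩
  intro L _ α K t F H Hs ht hHs hvar
  choose M hM0 hM1 hM2 using fun z : ZMod L => hM L (fun x' => ‖F x' z‖) fun _ => norm_nonneg _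
  choose Mr hr0 hr1 hr2 using fun z : ZMod L => hM L (fun x' => ‖H z x'‖) fun _ => norm_nonneg _
  choose Mc hc0 hc1 hc2 using fun x : ZMod L => hM L (fun z' => ‖H z' x‖) fun _ => norm_nonneg _
  set ρ : ℝ := √(2 ^ (α + 3) + 1) with hρ
  have hρ0 : 0 ≤ ρ := Real.sqrt_nonneg _
  have hρ2 : ρ ^ 2 = 2 ^ (α + 3) + 1 := Real.sq_sqrt (by positivity)
  have hρ1 : 1 ≤ ρ := by
    rw [hρ]
    refine Real.one_le_sqrt.2 ?_
    have : (0 : ℝ) ≤ 2 ^ (α + 3) := by positivity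
    linarith
  have hs2 : (√2 : ℝ) ^ 2 = 2 := Real.sq_sqrt (by norm_num)
  have hs0 : (0 : ℝ) ≤ √2 := Real.sqrt_nonneg _
  have hs1 : (√2 : ℝ) ≤ 2 := by nlinarith
  have key := hG L α K F Hs (N3 H) (fun z x => ρ * M z (-z - x)) (fun z x => √2 * Mr z x)
    (fun z x => √2 * Mc x z) (fun i => N3_mono (hHs i))
    (fun z x => mul_nonneg hρ0 (hM0 _ _)) (fun z x => mul_nonneg hs0 (hr0 _ _))
    (fun z x => mul_nonneg hs0 (hc0 _ _)) (fun k z x s hs => ?_) (fun i k z x s hs => ?_)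
    (fun i k z x s hs => ?_)
  rotate_left
  · have := hM1 z (2 ^ (α + 3)) k (-z - x) s (by push_cast; exact hs)
    rw [mul_pow, hρ2]
    push_cast at this
    exact this
  · have := hr1 z 1 k x s (by simpa using hs)
    rw [mul_pow, hs2]
    refine le_trans (Finset.sum_le_sum fun x' _ => ?_) (this.trans_eq (by norm_num))
    exact mul_le_mul_of_nonneg_right (pow_le_pow_left₀ (norm_nonneg _) (hHs i z x') 2)
      (w_nonneg _ _ _)
  · have := hc1 x 1 k z s (by simpa using hs)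
    rw [mul_pow, hs2]
    refine le_trans (Finset.sum_le_sum fun z' _ => ?_) (this.trans_eq (by norm_num))
    exact mul_le_mul_of_nonneg_right (pow_le_pow_left₀ (norm_nonneg _) (hHs i z' x) 2)
      (w_nonneg _ _ _)
  refine key.trans ?_
  have ht0 : 0 ≤ t := by linarith
  have ht3 : 1 ≤ t ^ 3 := one_le_pow₀ ht
  have hF := N3_nonneg F
  have hH := N3_nonneg H
  have hpt : ∀ z x, (∑ i ∈ range K, ‖Hs (i + 1) z x - Hs i z x‖) *
      ((ρ * M z (-z - x) + √2 * Mr z x) * (√2 * Mc x z)) ≤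
      ρ * (4 * (t ^ 3 * ‖H z x‖ ^ 3) + 2 * M z (-z - x) ^ 3 + 2 * (t ^ 3 * Mr z x ^ 3) +
        4 * (t ^ 3 * Mc x z ^ 3)) := by
    intro z x
    have a0 := norm_nonneg (H z x)
    have b0 := hM0 z (-z - x)
    have c0 := hr0 z x
    have d0 := hc0 x z
    set a := ‖H z x‖
    set b := M z (-z - x)
    set c := Mr z x
    set d := Mc x z
    have h1 := amgm3 (t * a) b (t * d) (by positivity) b0 (by positivity)
    have h2 := amgm3 (t * a) (t * c) (t * d) (by positivity) (by positivity) (by positivity)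
    calc _ ≤ (t ^ 2 * a) * ((ρ * b + √2 * c) * (√2 * d)) :=
          mul_le_mul_of_nonneg_right (hvar z x) (by positivity)
      _ = ρ * √2 * (t * a * b * (t * d)) + (√2) ^ 2 * 1 * 1 * (t ^ 2 * a * c * d) := by ring
      _ ≤ ρ * 2 * (t * a * b * (t * d)) + 2 * ρ * t * (t ^ 2 * a * c * d) := by
          rw [hs2]; gcongr
      _ = ρ * (2 * (t * a * b * (t * d)) + 2 * (t * a * (t * c) * (t * d))) := by ring
      _ ≤ ρ * (2 * ((t * a) ^ 3 + b ^ 3 + (t * d) ^ 3) +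
          2 * ((t * a) ^ 3 + (t * c) ^ 3 + (t * d) ^ 3)) := by gcongr
      _ = _ := by ring
  have e1 : ∑ z, ∑ x, M z (-z - x) ^ 3 ≤ CM * N3 F := by
    unfold N3
    rw [Finset.sum_comm (f := fun x y => ‖F x y‖ ^ 3), Finset.mul_sum]
    refine Finset.sum_le_sum fun z _ => le_trans (le_of_eq ?_) (hM2 z)
    exact Fintype.sum_equiv (Equiv.subLeft (-z)) _ _ fun x => rfl
  have e2 : ∑ z, ∑ x, Mr z x ^ 3 ≤ CM * N3 H := by
    unfold N3
    rw [Finset.mul_sum]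
    exact Finset.sum_le_sum fun z _ => hr2 z
  have e3 : ∑ z, ∑ x, Mc x z ^ 3 ≤ CM * N3 H := by
    unfold N3
    rw [Finset.sum_comm, Finset.sum_comm (f := fun x y => ‖H x y‖ ^ 3), Finset.mul_sum]
    exact Finset.sum_le_sum fun x _ => hc2 x
  have hsum : ∑ z, ∑ x, (∑ i ∈ range K, ‖Hs (i + 1) z x - Hs i z x‖) *
      ((ρ * M z (-z - x) + √2 * Mr z x) * (√2 * Mc x z)) ≤
      ρ * (4 * (t ^ 3 * N3 H) + 2 * (CM * N3 F) + 2 * (t ^ 3 * (CM * N3 H)) +
        4 * (t ^ 3 * (CM * N3 H))) := by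
    refine (Finset.sum_le_sum fun z _ => Finset.sum_le_sum fun x _ => hpt z x).trans ?_
    simp only [← Finset.mul_sum, Finset.sum_add_distrib]
    gcongr
    exact le_rfl
  have hα : (0 : ℝ) ≤ CG * (α + 1) := by positivity
  calc _ ≤ CG * (α + 1) * (ρ * N3 F + ρ * (t ^ 3 * N3 H) +
        ρ * (4 * (t ^ 3 * N3 H) + 2 * (CM * N3 F) + 2 * (t ^ 3 * (CM * N3 H)) +
        4 * (t ^ 3 * (CM * N3 H)))) := by
        refine mul_le_mul_of_nonneg_left (add_le_add (add_le_add ?_ ?_) hsum) hα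
        · exact le_mul_of_one_le_left hF hρ1
        · exact (le_mul_of_one_le_left hH ht3).trans
            (le_mul_of_one_le_left (by positivity) hρ1)
    _ = CG * (α + 1) * ρ * ((1 + 2 * CM) * N3 F + (5 + 6 * CM) * (t ^ 3 * N3 H)) := by ring
    _ ≤ CG * (α + 1) * ρ * ((5 + 6 * CM) * N3 F + (5 + 6 * CM) * (t ^ 3 * N3 H)) := by
        gcongr <;> norm_num
    _ = _ := by ring

variable {L : ℕ} [NeZero L]

/-- one triple-Haar atom on a plane -/
theorem atom_le (hT : TriStmt) (F₀ F₁ H : Mx (ZMod L)) (i : ℕ) (u : ℤ) :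
    ‖∑ z, ∑ x, H z x * tri i (hr i) (hr i) (hr i) (fun j => Fz F₀ F₁ z x (u + j))‖ ≤
      8 / 3 * (pgain F₀ᴴ Hᴴ i u + pgain F₀ F₁ i u + pgain F₁ H i u) := by
  rw [sum_tri, ← pgain_symm]
  unfold pgain
  rw [← sum_plane_rot' (u : ZMod L) (gain H F₀ i), ← sum_plane_rot (u : ZMod L) (gain F₁ H i)]
  simp only [← Finset.sum_add_distrib, Finset.mul_sum]
  refine (norm_sum_le _ _).trans (Finset.sum_le_sum fun p _ => ?_)
  refine (norm_sum_le _ _).trans (Finset.sum_le_sum fun q _ => ?_)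
  simp only [pw_hr]
  refine (hT _ F₀ F₁ H _ _ _ _ _ _ (w_nonneg _ _) (w_nonneg _ _) (w_nonneg _ _) (w_nonneg _ _)
    (w_nonneg _ _) (w_nonneg _ _)).trans_eq ?_
  simp only [← w_succ, gain]

end Long

open Long in
theorem longStmt_of (hT : TriStmt) (hGG : GapGStmt) (hG : GainStmt) (hM : MaxStmt)
    (hD : DecTriStmt) : LongStmt := by
  obtain ⟨CB, hCB, hB⟩ := gainB hG hM
  obtain ⟨CD, hCD, hD⟩ := hD
  refine ⟨16 * CD + CD * 8 * 32 * (8 / 3) * (3 * CB * 23 * 36), by positivity, ?_⟩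
  intro L _ K t F₀ F₁ H η τ ht hη hvar hτ
  choose ρ γ hρ hγ hdec using fun k => hD k (τ k) _ (hτ k)
  set N := N3 F₀ + N3 F₁ + t ^ 3 * N3 H with hN
  have ht3 : 1 ≤ t ^ 3 := one_le_pow₀ ht
  have h0 := N3_nonneg F₀
  have h1 := N3_nonneg F₁
  have h2 := N3_nonneg H
  have h3 : N3 H ≤ t ^ 3 * N3 H := le_mul_of_one_le_left h2 ht3
  have hN0 : 0 ≤ N := by positivity
  let Hk : ℕ → Mx (ZMod L) := fun k => Matrix.of fun z x => H z x * η k z x
  have hHk : ∀ k z x, ‖Hk k z x‖ ≤ ‖H z x‖ := fun k z x => by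
    simp only [Hk, of_apply, norm_mul]
    exact mul_le_of_le_one_right (norm_nonneg _) (hη k z x)
  have hHv : ∀ l, l ≤ K → ∀ z x, ∑ i ∈ range (K - l), ‖Hk (l + (i + 1)) z x - Hk (l + i) z x‖ ≤
      t ^ 2 * ‖H z x‖ := by
    intro l hl z x
    simp only [Hk, of_apply, ← mul_sub, norm_mul, ← Finset.mul_sum]
    rw [mul_comm]
    refine mul_le_mul_of_nonneg_right (le_trans ?_ (hvar z x)) (norm_nonneg _)
    conv_rhs => rw [← Nat.add_sub_cancel' hl, Finset.sum_range_add]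
    exact le_add_of_nonneg_left (Finset.sum_nonneg fun _ _ => norm_nonneg _)
  let G : ℕ → ℕ → ℤ → ℝ := fun k i u =>
    pgain F₀ᴴ (Hk k)ᴴ i u + pgain F₀ F₁ i u + pgain F₁ (Hk k) i u
  have hG0 : ∀ k i u, 0 ≤ G k i u := fun k i u =>
    add_nonneg (add_nonneg (pgain_nonneg hGG _ _ _ _) (pgain_nonneg hGG _ _ _ _))
      (pgain_nonneg hGG _ _ _ _)
  let g : ℕ → ℕ → ℝ := fun k i => CD * 2 ^ i * (8 / 2 ^ k) / 2 ^ k * (8 / 3) *
    ∑ u ∈ Icc (-(32 * 2 ^ k : ℤ)) (32 * 2 ^ k), G k i u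
  have hk : ∀ k, ‖∑ z, ∑ x, H z x * η k z x * ev (16 * 2 ^ k) (τ k) (Fz F₀ F₁ z x)‖ ≤
      8 * CD * N * (1 / 2 ^ k) + ∑ i ∈ range (k + 1), g k i := by
    intro k
    have e : ∑ z, ∑ x, H z x * η k z x * ev (16 * 2 ^ k) (τ k) (Fz F₀ F₁ z x) =
        ∑ z, ∑ x, Hk k z x * ev (32 * 2 ^ k) (ρ k) (Fz F₀ F₁ z x) +
        ∑ i ∈ range (k + 1), ∑ u ∈ Icc (-(32 * 2 ^ k : ℤ)) (32 * 2 ^ k), γ k i u *
          ∑ z, ∑ x, Hk k z x * tri i (hr i) (hr i) (hr i) (fun j => Fz F₀ F₁ z x (u + j)) := by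
      have sw : ∀ {β : Type} (s : Finset β) (f : ZMod L → ZMod L → β → ℂ),
          ∑ z, ∑ x, ∑ a ∈ s, f z x a = ∑ a ∈ s, ∑ z, ∑ x, f z x a := fun s f => by
        rw [Finset.sum_comm (s := s)]
        exact Finset.sum_congr rfl fun z _ => Finset.sum_comm
      simp only [hdec, mul_add, Finset.sum_add_distrib, Finset.mul_sum]
      congr 1
      rw [sw]
      refine Finset.sum_congr rfl fun i _ => ?_
      rw [sw]
      refine Finset.sum_congr rfl fun u _ => Finset.sum_congr rfl fun z _ =>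
        Finset.sum_congr rfl fun x _ => ?_
      exact mul_left_comm _ _ _
    rw [e]
    refine (norm_add_le _ _).trans (add_le_add ?_ ?_)
    · refine (triv_bound _ F₀ F₁ (Hk k) (fun _ _ => ρ k) (fun j => ‖ρ k j‖)
        fun _ _ _ _ => le_rfl).trans ?_
      have h4 : N3 F₀ + N3 F₁ + N3 (Hk k) ≤ N := by
        have := N3_mono (hHk k)
        linarith
      calc _ ≤ CD * (8 / 2 ^ k) * N := by
            refine mul_le_mul (hρ k) h4 ?_ (by positivity)
            have := N3_nonneg (Hk k)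
            positivity
        _ = _ := by ring
    · refine (norm_sum_le _ _).trans (Finset.sum_le_sum fun i hi => ?_)
      refine (norm_sum_le _ _).trans ?_
      simp only [g]
      rw [Finset.mul_sum]
      refine Finset.sum_le_sum fun u _ => ?_
      rw [norm_mul, mul_assoc _ (8 / 3 : ℝ)]
      exact mul_le_mul (hγ k i u (Nat.lt_succ_iff.1 (Finset.mem_range.1 hi)))
        (atom_le hT F₀ F₁ (Hk k) i u) (norm_nonneg _) (by positivity)
  have hl : ∀ l, l < K → ∑ i ∈ range (K - l), g (l + i) i ≤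
      CD * 8 * 32 * (8 / 3) * (3 * CB * 23 * N) * (((l : ℝ) + 6) * (3 / 4) ^ l) := by
    intro l hl
    have e : ∀ i, g (l + i) i = CD * 8 * 32 * (8 / 3) / 2 ^ l *
        ((∑ u ∈ Icc (-(2 ^ (l + 5 + i) : ℤ)) (2 ^ (l + 5 + i)), pgain F₀ᴴ (Hk (l + i))ᴴ i u) /
          2 ^ (l + 5 + i) +
        (∑ u ∈ Icc (-(2 ^ (l + 5 + i) : ℤ)) (2 ^ (l + 5 + i)), pgain F₀ F₁ i u) /
          2 ^ (l + 5 + i) +
        (∑ u ∈ Icc (-(2 ^ (l + 5 + i) : ℤ)) (2 ^ (l + 5 + i)), pgain F₁ (Hk (l + i)) i u) /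
          2 ^ (l + 5 + i)) := by
      intro i
      have : (32 * 2 ^ (l + i) : ℤ) = 2 ^ (l + 5 + i) := by ring
      simp only [g, G, this, Finset.sum_add_distrib]
      rw [pow_add, pow_add, pow_add]
      field_simp
      ring
    simp only [e, ← Finset.mul_sum, Finset.sum_add_distrib]
    have b1 := hB L (l + 5) (K - l) t F₀ᴴ Hᴴ (fun i => (Hk (l + i))ᴴ) ht
      (fun i z x => by simpa [conjTranspose_apply] using hHk (l + i) x z)
      (fun z x => by
        simpa only [conjTranspose_apply, ← star_sub, norm_star] using hHv l hl.le x z)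
    have b2 := hB L (l + 5) (K - l) 1 F₀ F₁ (fun _ => F₁) le_rfl (fun i z x => le_rfl)
      (fun z x => by simp)
    have b3 := hB L (l + 5) (K - l) t F₁ H (fun i => Hk (l + i)) ht (fun i => hHk (l + i))
      (hHv l hl.le)
    rw [N3_conjTranspose, N3_conjTranspose] at b1
    have hs := sqrt_le l
    have hs0 : 0 ≤ √((2 : ℝ) ^ (l + 5 + 3) + 1) := Real.sqrt_nonneg _
    have hb : ∀ X : ℝ, 0 ≤ X → X ≤ N → CB * (((l + 5 : ℕ) : ℝ) + 1) * √(2 ^ (l + 5 + 3) + 1) * X ≤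
        CB * (l + 6) * (23 * (3 / 2) ^ l) * N := by
      intro X hX0 hX
      have : (((l + 5 : ℕ) : ℝ) + 1) = l + 6 := by push_cast; ring
      rw [this]
      gcongr
    have c1 := b1.trans (hb _ (by positivity) (by linarith))
    have c2 := b2.trans (hb _ (by positivity) (by rw [one_pow, one_mul]; linarith))
    have c3 := b3.trans (hb _ (by positivity) (by linarith))
    calc _ ≤ CD * 8 * 32 * (8 / 3) / 2 ^ l * (CB * (l + 6) * (23 * (3 / 2) ^ l) * N +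
          CB * (l + 6) * (23 * (3 / 2) ^ l) * N + CB * (l + 6) * (23 * (3 / 2) ^ l) * N) := by
          gcongr
      _ = _ := by
          have : (3 / 4 : ℝ) ^ l = (3 / 2) ^ l / 2 ^ l := by rw [← div_pow]; norm_num
          rw [this]; ring
  have hflip : ∑ k ∈ range K, ∑ i ∈ range (k + 1), g k i =
      ∑ l ∈ range K, ∑ i ∈ range (K - l), g (l + i) i := by
    rw [← Finset.sum_range_diag_flip K fun l i => g (l + i) i]
    refine Finset.sum_congr rfl fun k _ => ?_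
    rw [← Finset.sum_range_reflect]
    refine Finset.sum_congr rfl fun l hl => ?_
    have := Finset.mem_range.1 hl
    congr 1 <;> omega
  refine (norm_sum_le _ _).trans ((Finset.sum_le_sum fun k _ => hk k).trans ?_)
  rw [Finset.sum_add_distrib, hflip, ← Finset.mul_sum, sum_half, add_mul]
  refine add_le_add ?_ ((Finset.sum_le_sum fun l hl' => hl l (Finset.mem_range.1 hl')).trans ?_)
  · have : (0 : ℝ) ≤ 2 / 2 ^ K := by positivity
    calc _ ≤ 8 * CD * N * 2 := by gcongr; linarith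
      _ = _ := by ring
  · rw [← Finset.mul_sum, sum_geom]
    have : (0 : ℝ) ≤ (4 * K + 36) * (3 / 4) ^ K := by positivity
    calc _ ≤ CD * 8 * 32 * (8 / 3) * (3 * CB * 23 * N) * 36 := by gcongr; linarith
      _ = _ := by ring

end Crest.Agent.R72
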