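import Crest.Agent.R72.Basic

/-!
Row 72: the maximal inequality on `ZMod L`.
-/

set_option linter.unusedSectionVars false

namespace Crest.Agent.R72

open Finset

namespace MaxA

/-- From the weak type inequality to the strong one. -/
theorem doob {X : Type} [Fintype X] (m ψ : X → ℝ) (hm : ∀ x, 0 ≤ m x)
    (h : ∀ s : ℝ, 0 ≤ s → 0 ≤ ∑ x, if s < m x then ψ x - s ^ 2 else 0) :
    0 ≤ ∑ x, (ψ x * m x - m x ^ 3 / 3) := by
  have hd : ∀ (c s : ℝ), HasDerivWithinAt (fun r => min r c) (if s < c then 1 else 0)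
      (Set.Ici s) s := fun c s => by
    split_ifs with hs
    · refine (hasDerivWithinAt_id s _).congr_of_eventuallyEq ?_ (min_eq_left hs.le)
      filter_upwards [nhdsWithin_le_nhds (gt_mem_nhds hs)] with r hr using min_eq_left hr.le
    · exact (hasDerivWithinAt_const s _ c).congr
        (fun r hr => min_eq_right ((not_lt.1 hs).trans hr)) (min_eq_right (not_lt.1 hs))
  have hB : ∀ x, m x ≤ ∑ y, m y := fun x => single_le_sum (fun y _ => hm y) (mem_univ x)
  have key := image_le_of_deriv_right_le_deriv_boundary (f := fun _ => (0 : ℝ))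
    (f' := fun _ => 0) (a := 0) (b := ∑ y, m y) continuousOn_const
    (fun s _ => hasDerivWithinAt_const s _ 0)
    (B := fun r => ∑ x, (ψ x * min r (m x) - min r (m x) ^ 3 / 3))
    (B' := fun s => ∑ x, if s < m x then ψ x - s ^ 2 else 0)
    (by simp [min_eq_left (hm _)]) (by fun_prop)
    (fun s _ => by
      refine HasDerivWithinAt.fun_sum fun x _ => ?_
      refine (((hd (m x) s).const_mul (ψ x)).fun_sub
        (((hd (m x) s).fun_pow 3).div_const 3)).congr_deriv ?_
      split_ifs with hs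
      · rw [min_eq_left hs.le]; norm_num
      · simp)
    (fun s hs => h s hs.1) ⟨sum_nonneg fun y _ => hm y, le_rfl⟩
  simpa only [min_eq_right (hB _)] using key

variable {L : ℕ} [NeZero L]

/-- partial sums along an orbit -/
noncomputable def S (c : ZMod L) (f : ZMod L → ℝ) (n : ℕ) (x : ZMod L) : ℝ :=
  ∑ i ∈ range n, f (x + i * c)

theorem S_succ (c : ZMod L) (f : ZMod L → ℝ) (n : ℕ) (x : ZMod L) :
    S c f (n + 1) x = f x + S c f n (x + c) := by
  unfold S
  rw [sum_range_succ', add_comm]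
  congr 1
  · simp
  · refine sum_congr rfl fun i _ => ?_
    congr 1
    push_cast
    ring

/-- truncated maximal partial sums -/
noncomputable def T (c : ZMod L) (f : ZMod L → ℝ) : ℕ → ZMod L → ℝ
  | 0, _ => 0
  | n + 1, x => max 0 (f x + T c f n (x + c))

theorem T_nonneg (c : ZMod L) (f : ZMod L → ℝ) (n : ℕ) (x : ZMod L) : 0 ≤ T c f n x := by
  cases n with
  | zero => exact le_rfl
  | succ n => exact le_max_left _ _

theorem T_le_succ (c : ZMod L) (f : ZMod L → ℝ) (n : ℕ) (x : ZMod L) :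
    T c f n x ≤ T c f (n + 1) x := by
  induction n generalizing x with
  | zero => exact T_nonneg _ _ _ _
  | succ n ih => exact max_le_max le_rfl (add_le_add le_rfl (ih _))

theorem S_le_T (c : ZMod L) (f : ZMod L → ℝ) (n : ℕ) (x : ZMod L) : S c f n x ≤ T c f n x := by
  induction n generalizing x with
  | zero => simp [S, T]
  | succ n ih =>
    rw [S_succ]
    exact (add_le_add le_rfl (ih _)).trans (le_max_right _ _)

theorem T_eq (c : ZMod L) (f : ZMod L → ℝ) (N : ℕ) (x : ZMod L) : ∃ n, T c f N x = S c f n x := by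
  induction N generalizing x with
  | zero => exact ⟨0, by simp [S, T]⟩
  | succ N ih =>
    rcases le_total 0 (f x + T c f N (x + c)) with h | h
    · obtain ⟨n, hn⟩ := ih (x + c)
      exact ⟨n + 1, by rw [S_succ, ← hn]; exact max_eq_right h⟩
    · exact ⟨0, (max_eq_left h).trans (by simp [S])⟩

open Classical in
/-- Hopf's maximal ergodic lemma. -/
theorem hopf (c : ZMod L) (f : ZMod L → ℝ) :
    0 ≤ ∑ x, if ∃ n, 0 < S c f n x then f x else 0 := by
  have h1 : ∀ x, ∃ n, (∃ n, 0 < S c f n x) → 0 < S c f n x := fun x => by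
    by_cases h : ∃ n, 0 < S c f n x
    · exact ⟨h.choose, fun _ => h.choose_spec⟩
    · exact ⟨0, fun h' => absurd h' h⟩
  choose n hn using h1
  let N := univ.sup n
  have hm : ∀ x, Monotone fun k => T c f k x := fun x =>
    monotone_nat_of_le_succ fun k => T_le_succ c f k x
  have h2 : ∑ x, T c f N (x + c) = ∑ x, T c f N x :=
    Fintype.sum_equiv (Equiv.addRight c) _ _ fun x => rfl
  have h3 : ∑ x, T c f N x ≤ ∑ x, T c f (N + 1) x := sum_le_sum fun x _ => T_le_succ _ _ _ _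
  have h4 : ∑ x, (T c f (N + 1) x - T c f N (x + c)) ≤
      ∑ x, if ∃ n, 0 < S c f n x then f x else 0 := by
    refine sum_le_sum fun x _ => ?_
    split_ifs with h
    · have h5 : 0 < T c f (N + 1) x := ((hn x h).trans_le (S_le_T _ _ _ _)).trans_le
        (hm x ((le_sup (f := n) (mem_univ x)).trans (Nat.le_succ N)))
      have h6 : T c f (N + 1) x = max 0 (f x + T c f N (x + c)) := rfl
      rw [h6] at h5 ⊢
      rw [max_eq_right (by simpa using (lt_max_iff.1 h5).resolve_left (lt_irrefl _) |>.le)]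
      linarith
    · obtain ⟨k, hk⟩ := T_eq c f (N + 1) x
      have := not_lt.1 (not_exists.1 h k)
      linarith [T_nonneg c f N (x + c)]
  rw [sum_sub_distrib, h2] at h4
  linarith

/-- one-sided maximal function -/
noncomputable def M (c : ZMod L) (ψ : ZMod L → ℝ) (x : ZMod L) : ℝ :=
  ⨆ n : ℕ, S c ψ (n + 1) x / (n + 1)

theorem bdd (c : ZMod L) {ψ : ZMod L → ℝ} (hψ : ∀ x, 0 ≤ ψ x) (x : ZMod L) :
    BddAbove (Set.range fun n : ℕ => S c ψ (n + 1) x / (n + 1)) := by
  refine ⟨∑ y, ψ y, ?_⟩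
  rintro _ ⟨n, rfl⟩
  rw [div_le_iff₀ (by positivity)]
  refine (sum_le_card_nsmul _ _ (∑ y, ψ y) fun i _ =>
    single_le_sum (fun y _ => hψ y) (mem_univ _)).trans (le_of_eq ?_)
  simp [mul_comm]

theorem S_le_M (c : ZMod L) {ψ : ZMod L → ℝ} (hψ : ∀ x, 0 ≤ ψ x) (n : ℕ) (x : ZMod L) :
    S c ψ n x ≤ n * M c ψ x := by
  cases n with
  | zero => simp [S]
  | succ n =>
    have := le_ciSup (bdd c hψ x) n
    rw [div_le_iff₀ (by positivity)] at this
    push_cast
    rw [mul_comm]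
    exact this

theorem M_nonneg (c : ZMod L) {ψ : ZMod L → ℝ} (hψ : ∀ x, 0 ≤ ψ x) (x : ZMod L) :
    0 ≤ M c ψ x := by
  have := S_le_M c hψ 1 x
  have h : 0 ≤ S c ψ 1 x := sum_nonneg fun i _ => hψ _
  push_cast at this
  linarith

theorem lt_M (c : ZMod L) {ψ : ZMod L → ℝ} (hψ : ∀ x, 0 ≤ ψ x) (l : ℝ) (x : ZMod L) :
    l < M c ψ x ↔ ∃ n, 0 < S c (fun y => ψ y - l) n x := by
  have e : ∀ n : ℕ, S c (fun y => ψ y - l) n x = S c ψ n x - n * l := fun n => by
    simp [S, sum_sub_distrib]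
  simp only [e]
  constructor
  · intro h
    obtain ⟨n, hn⟩ := exists_lt_of_lt_ciSup h
    rw [lt_div_iff₀ (by positivity)] at hn
    exact ⟨n + 1, by push_cast; linarith⟩
  · rintro ⟨n, hn⟩
    have h1 := S_le_M c hψ n x
    by_contra h
    have := mul_le_mul_of_nonneg_left (not_lt.1 h) (Nat.cast_nonneg (α := ℝ) n)
    linarith

theorem strong (c : ZMod L) {φ : ZMod L → ℝ} (hφ : ∀ x, 0 ≤ φ x) :
    ∑ x, √(M c (fun y => φ y ^ 2) x) ^ 3 ≤ 18 * ∑ x, φ x ^ 3 := by
  have hψ : ∀ x, 0 ≤ φ x ^ 2 := fun x => sq_nonneg _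
  have h := doob (fun x => √(M c (fun y => φ y ^ 2) x)) (fun y => φ y ^ 2)
    (fun x => Real.sqrt_nonneg _) fun s hs => by
      classical
      refine (hopf c fun y => φ y ^ 2 - s ^ 2).trans (le_of_eq (sum_congr rfl fun x _ => ?_))
      refine if_congr ?_ rfl rfl
      rw [← lt_M c hψ, Real.lt_sqrt hs]
  have h2 : ∑ x, (φ x ^ 2 * √(M c (fun y => φ y ^ 2) x) - √(M c (fun y => φ y ^ 2) x) ^ 3 / 3) ≤
      ∑ x, (3 * φ x ^ 3 - √(M c (fun y => φ y ^ 2) x) ^ 3 / 6) := by
    refine sum_le_sum fun x _ => ?_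
    have h0 := Real.sqrt_nonneg (M c (fun y => φ y ^ 2) x)
    have h1 := hφ x
    generalize √(M c (fun y => φ y ^ 2) x) = m at *
    generalize φ x = a at *
    rcases le_total m (3 * a) with h3 | h3
    · nlinarith [mul_le_mul_of_nonneg_left h3 (sq_nonneg a), pow_nonneg h0 3]
    · have h4 : (3 * a) ^ 2 ≤ m ^ 2 := by gcongr
      nlinarith [mul_le_mul_of_nonneg_right h4 h0, pow_nonneg h0 3, pow_nonneg h1 3]
  rw [sum_sub_distrib (f := fun x => 3 * φ x ^ 3), ← mul_sum, ← sum_div] at h2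
  linarith

theorem sum_le_two {g : ℤ → ℝ} (hg : ∀ u, 0 ≤ g u) {n K : ℕ} {t : ℤ} (h1 : -(n : ℤ) < t)
    (h2 : t + K ≤ n) :
    ∑ j ∈ range K, g (t + j) ≤ ∑ i ∈ range n, g i + ∑ i ∈ range n, g (-i) := by
  rw [← sum_image (s := range K) (g := fun j : ℕ => t + j) (f := g)
      (fun a _ b _ h => by simpa using h),
    ← sum_image (s := range n) (g := fun j : ℕ => (j : ℤ)) (f := g)
      (fun a _ b _ h => by simpa using h),
    ← sum_image (s := range n) (g := fun j : ℕ => -(j : ℤ)) (f := g)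
      (fun a _ b _ h => by simpa using h), ← sum_union_inter]
  refine le_add_of_le_of_nonneg (sum_le_sum_of_subset_of_nonneg (fun u hu => ?_) fun u _ _ => hg u)
    (sum_nonneg fun u _ => hg u)
  simp only [mem_image, mem_range, mem_union] at hu ⊢
  obtain ⟨j, hj, rfl⟩ := hu
  rcases le_total 0 (t + j) with h | h
  · exact Or.inl ⟨(t + j).toNat, by omega, by omega⟩
  · exact Or.inr ⟨(-(t + j)).toNat, by omega, by omega⟩

end MaxA

open MaxA

theorem maxStmt : MaxStmt := by
  refine ⟨144, by norm_num, fun L _ φ hφ => ?_⟩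
  have hψ : ∀ x, 0 ≤ φ x ^ 2 := fun x => sq_nonneg _
  refine ⟨fun x => √(M 1 (fun y => φ y ^ 2) x) + √(M (-1) (fun y => φ y ^ 2) x),
    fun x => by positivity, fun R k x t ht => ?_, ?_⟩
  · rw [sum_mul_w k _ fun y => φ y ^ 2, div_le_iff₀ (by positivity)]
    have hK : (0 : ℤ) < 2 ^ k := by positivity
    have h1 := sum_le_two (g := fun u => φ (x + (u : ZMod L)) ^ 2) (fun u => sq_nonneg _)
      (n := (R + 1) * 2 ^ k) (K := 2 ^ k) (t := t)
      (by push_cast; linarith [(abs_le.1 ht).1]) (by push_cast; linarith [(abs_le.1 ht).2])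
    have h2 := S_le_M 1 hψ ((R + 1) * 2 ^ k) x
    have h3 := S_le_M (-1) hψ ((R + 1) * 2 ^ k) x
    unfold S at h2 h3
    simp only [Int.cast_add, Int.cast_natCast, Int.cast_neg, ← add_assoc] at h1
    simp only [mul_one, mul_neg] at h2 h3
    have h4 : M 1 (fun y => φ y ^ 2) x + M (-1) (fun y => φ y ^ 2) x ≤
        (√(M 1 (fun y => φ y ^ 2) x) + √(M (-1) (fun y => φ y ^ 2) x)) ^ 2 := by
      rw [add_sq, Real.sq_sqrt (M_nonneg _ hψ _), Real.sq_sqrt (M_nonneg _ hψ _)]
      have : 0 ≤ 2 * √(M 1 (fun y => φ y ^ 2) x) * √(M (-1) (fun y => φ y ^ 2) x) := by positivity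
      linarith
    have h5 := mul_le_mul_of_nonneg_left h4 (show (0 : ℝ) ≤ (R + 1) * 2 ^ k by positivity)
    push_cast at h2 h3
    linarith
  · have h1 := strong 1 hφ
    have h2 := strong (-1) hφ
    have h3 : ∑ x, (√(M 1 (fun y => φ y ^ 2) x) + √(M (-1) (fun y => φ y ^ 2) x)) ^ 3 ≤
        ∑ x, (4 * √(M 1 (fun y => φ y ^ 2) x) ^ 3 + 4 * √(M (-1) (fun y => φ y ^ 2) x) ^ 3) := by
      refine sum_le_sum fun x _ => ?_
      have h4 := Real.sqrt_nonneg (M 1 (fun y => φ y ^ 2) x)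
      have h5 := Real.sqrt_nonneg (M (-1) (fun y => φ y ^ 2) x)
      generalize √(M 1 (fun y => φ y ^ 2) x) = a at *
      generalize √(M (-1) (fun y => φ y ^ 2) x) = b at *
      nlinarith [mul_nonneg (add_nonneg h4 h5) (sq_nonneg (a - b))]
    rw [sum_add_distrib, ← mul_sum, ← mul_sum] at h3
    linarith

end Crest.Agent.R72
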