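import Crest.Agent.R72.Basic

/-!
Row 72: the short variation estimate.
-/

set_option maxHeartbeats 400000

namespace Crest.Agent.R72

open Matrix Finset
open scoped MatrixOrder ComplexOrder ENNReal

namespace ShortA

/-- The property of the iterated maximal function. -/
def IsMu {L : ℕ} [NeZero L] (F₀ F₁ : Mx (ZMod L)) (μ : ZMod L → ZMod L → ℝ) : Prop :=
  ∀ (i R : ℕ) (p q r z x : ZMod L) (t : ℤ), |t| ≤ R * 2 ^ i → q = -x - z + (t : ZMod L) →
    w i p x ≠ 0 → w i r z ≠ 0 →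
    (∑ x', ∑ y, ‖F₀ x' y‖ ^ 2 * (w i p x' * w i q y)) +
      (∑ y, ∑ z', ‖F₁ y z'‖ ^ 2 * (w i q y * w i r z')) ≤ 2 * (R + 1) * μ z x ^ 2

theorem exists_mu (hM : MaxStmt) : ∃ C : ℝ, 0 ≤ C ∧ ∀ (L : ℕ) [NeZero L] (F₀ F₁ : Mx (ZMod L)),
    ∃ μ : ZMod L → ZMod L → ℝ, (∀ z x, 0 ≤ μ z x) ∧
      ∑ z, ∑ x, μ z x ^ 3 ≤ C * (N3 F₀ + N3 F₁) ∧ IsMu F₀ F₁ μ := by
  obtain ⟨C, hC, hM⟩ := hM
  refine ⟨4 * (C * C), by positivity, fun L _ F₀ F₁ => ?_⟩
  choose a ha0 ha1 ha2 using fun y => hM L (fun x => ‖F₀ x y‖) fun _ => norm_nonneg _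
  choose A hA0 hA1 hA2 using fun x => hM L (fun y => a y x) fun y => ha0 y x
  choose b hb0 hb1 hb2 using fun y => hM L (fun z => ‖F₁ y z‖) fun _ => norm_nonneg _
  choose B hB0 hB1 hB2 using fun z => hM L (fun y => b y z) fun y => hb0 y z
  refine ⟨fun z x => A x (-x - z) + B z (-x - z), fun z x => add_nonneg (hA0 _ _) (hB0 _ _), ?_,
    fun i R p q r z x t ht hq hp hr => ?_⟩
  · have e1 : ∑ z, ∑ x, A x (-x - z) ^ 3 ≤ C * C * N3 F₀ := by
      rw [Finset.sum_comm]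
      calc _ = ∑ x, ∑ y, A x y ^ 3 := Finset.sum_congr rfl fun x _ =>
            Fintype.sum_equiv (Equiv.subLeft (-x)) _ _ fun z => rfl
        _ ≤ ∑ x, C * ∑ y, a y x ^ 3 := Finset.sum_le_sum fun x _ => hA2 x
        _ = C * ∑ y, ∑ x, a y x ^ 3 := by rw [← Finset.mul_sum, Finset.sum_comm]
        _ ≤ C * ∑ y, C * ∑ x, ‖F₀ x y‖ ^ 3 := by gcongr with y; exact ha2 y
        _ = _ := by rw [← Finset.mul_sum, Finset.sum_comm, mul_assoc]; rfl
    have e2 : ∑ z, ∑ x, B z (-x - z) ^ 3 ≤ C * C * N3 F₁ := by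
      calc _ = ∑ z, ∑ y, B z y ^ 3 := Finset.sum_congr rfl fun z _ =>
            Fintype.sum_equiv (Equiv.subLeft (-z)) _ _ fun x => by
              simp only [Equiv.subLeft_apply]
              congr 2
              ring
        _ ≤ ∑ z, C * ∑ y, b y z ^ 3 := Finset.sum_le_sum fun z _ => hB2 z
        _ = C * ∑ y, ∑ z, b y z ^ 3 := by rw [← Finset.mul_sum, Finset.sum_comm]
        _ ≤ C * ∑ y, C * ∑ z, ‖F₁ y z‖ ^ 3 := by gcongr with y; exact hb2 y
        _ = _ := by rw [← Finset.mul_sum, mul_assoc]; rfl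
    calc _ ≤ ∑ z, ∑ x, 4 * (A x (-x - z) ^ 3 + B z (-x - z) ^ 3) := by
          refine Finset.sum_le_sum fun z _ => Finset.sum_le_sum fun x _ => ?_
          have h1 := hA0 x (-x - z)
          have h2 := hB0 z (-x - z)
          nlinarith [mul_nonneg (add_nonneg h1 h2) (sq_nonneg (A x (-x - z) - B z (-x - z)))]
      _ = 4 * (∑ z, ∑ x, A x (-x - z) ^ 3 + ∑ z, ∑ x, B z (-x - z) ^ 3) := by
          simp only [← Finset.mul_sum, Finset.sum_add_distrib]
      _ ≤ _ := by linarith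
  · have loc : ∀ {p x : ZMod L}, w i p x ≠ 0 → ∃ s : ℤ, |s| ≤ (1 : ℕ) * 2 ^ i ∧
        p = x + (s : ZMod L) := fun {p x} h => by
      obtain ⟨j, hj, rfl⟩ := exists_of_w_ne_zero h
      refine ⟨-(j : ℤ), ?_, by push_cast; ring⟩
      rw [abs_neg, abs_of_nonneg (by positivity)]
      simpa using (by exact_mod_cast hj.le : (j : ℤ) ≤ 2 ^ i)
    obtain ⟨s₁, hs₁, rfl⟩ := loc hp
    obtain ⟨s₂, hs₂, rfl⟩ := loc hr
    subst hq
    set q := -x - z + (t : ZMod L)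
    have e1 : ∑ x', ∑ y, ‖F₀ x' y‖ ^ 2 * (w i (x + (s₁ : ZMod L)) x' * w i q y) ≤
        2 * ((R + 1) * A x (-x - z) ^ 2) := by
      rw [Finset.sum_comm]
      calc _ = ∑ y, (∑ x', ‖F₀ x' y‖ ^ 2 * w i (x + (s₁ : ZMod L)) x') * w i q y := by
            simp only [Finset.sum_mul, mul_assoc]
        _ ≤ ∑ y, (2 * a y x ^ 2) * w i q y := Finset.sum_le_sum fun y _ =>
            mul_le_mul_of_nonneg_right (by
              have := ha1 y 1 i x s₁ hs₁
              norm_num at this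
              exact this) (w_nonneg _ _ _)
        _ = 2 * ∑ y, a y x ^ 2 * w i q y := by simp only [Finset.mul_sum, mul_assoc]
        _ ≤ _ := by gcongr; exact hA1 x R i _ t ht
    have e2 : ∑ y, ∑ z', ‖F₁ y z'‖ ^ 2 * (w i q y * w i (z + (s₂ : ZMod L)) z') ≤
        2 * ((R + 1) * B z (-x - z) ^ 2) := by
      calc _ = ∑ y, (∑ z', ‖F₁ y z'‖ ^ 2 * w i (z + (s₂ : ZMod L)) z') * w i q y := by
            simp only [Finset.sum_mul]
            exact Finset.sum_congr rfl fun y _ => Finset.sum_congr rfl fun z' _ => by ring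
        _ ≤ ∑ y, (2 * b y z ^ 2) * w i q y := Finset.sum_le_sum fun y _ =>
            mul_le_mul_of_nonneg_right (by
              have := hb1 y 1 i z s₂ hs₂
              norm_num at this
              exact this) (w_nonneg _ _ _)
        _ = 2 * ∑ y, b y z ^ 2 * w i q y := by simp only [Finset.mul_sum, mul_assoc]
        _ ≤ _ := by gcongr; exact hB1 z R i _ t ht
    have h1 := hA0 x (-x - z)
    have h2 := hB0 z (-x - z)
    have h3 : (0 : ℝ) ≤ (R + 1) * (A x (-x - z) * B z (-x - z)) := by positivity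
    nlinarith

variable {L : ℕ} [NeZero L]

theorem atom (hS : SqStmt) {F₀ F₁ : Mx (ZMod L)} {μ : ZMod L → ZMod L → ℝ}
    (hμ0 : ∀ z x, 0 ≤ μ z x) (hμ : IsMu F₀ F₁ μ) (G : Mx (ZMod L)) (i l : ℕ) (u : ℤ)
    (hu : |u| ≤ 32 * 2 ^ (i + l)) {s : ℝ} (hs : 0 < s) :
    ‖∑ z, ∑ x, G z x * tri i (bx i) (hr i) (bx i) (fun j => Fz F₀ F₁ z x (u + j))‖ ≤
      4 * s * pgain F₀ F₁ i u + 28 * (3 / 2) ^ l / s * ∑ z, ∑ x, ‖G z x‖ ^ 2 * μ z x := by
  rw [sum_tri]
  simp only [pw_bx, pw_hr]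
  have key : ∀ p q r : ZMod L, r = (u : ZMod L) - p - q →
      ‖tl F₀ F₁ G (w i p) (df (w i q) (w i (q + 2 ^ i))) (w i r)‖ ≤
      4 * s * gain F₀ F₁ i p q r + 28 * (3 / 2) ^ l / s *
        ∑ z, ∑ x, ‖G z x‖ ^ 2 * μ z x * (w (i + 1) r z * w (i + 1) p x) := by
    intro p q r hr
    have e : tl F₀ F₁ G (w i p) (df (w i q) (w i (q + 2 ^ i))) (w i r) =
        4 * tl F₀ F₁ G (fun x => w i p x / 2) (df (w i q) (w i (q + 2 ^ i)))
          (fun z => w i r z / 2) := by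
      unfold tl
      simp only [Finset.mul_sum]
      refine Finset.sum_congr rfl fun x _ => Finset.sum_congr rfl fun y _ =>
        Finset.sum_congr rfl fun z _ => ?_
      push_cast
      ring
    have hw : ∀ p x : ZMod L, |w i p x / 2| ≤ w (i + 1) p x := fun p x => by
      rw [abs_of_nonneg (by have := w_nonneg i p x; positivity)]
      linarith [w_le_two_mul i p x]
    set X := (∑ x', ∑ y, ‖F₀ x' y‖ ^ 2 * (w (i + 1) p x' * w (i + 1) q y)) +
      (∑ y, ∑ z', ‖F₁ y z'‖ ^ 2 * (w (i + 1) q y * w (i + 1) r z')) with hX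
    have hX0 : 0 ≤ X := add_nonneg
      (Finset.sum_nonneg fun _ _ => Finset.sum_nonneg fun _ _ =>
        mul_nonneg (sq_nonneg _) (mul_nonneg (w_nonneg _ _ _) (w_nonneg _ _ _)))
      (Finset.sum_nonneg fun _ _ => Finset.sum_nonneg fun _ _ =>
        mul_nonneg (sq_nonneg _) (mul_nonneg (w_nonneg _ _ _) (w_nonneg _ _ _)))
    have h := hS _ F₀ F₁ G (w (i + 1) p) (w i q) (w i (q + 2 ^ i)) (w (i + 1) r) _ _ s (√X)
      (w_nonneg _ _) (w_nonneg _ _) (hw p) (hw r) hs (Real.sqrt_nonneg _)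
      (by rw [← w_succ, Real.sq_sqrt hX0])
    have h2 : √X * ∑ z, ∑ x, ‖G z x‖ ^ 2 * (w (i + 1) r z * w (i + 1) p x) ≤
        7 * (3 / 2) ^ l * ∑ z, ∑ x, ‖G z x‖ ^ 2 * μ z x * (w (i + 1) r z * w (i + 1) p x) := by
      simp only [Finset.mul_sum]
      refine Finset.sum_le_sum fun z _ => Finset.sum_le_sum fun x _ => ?_
      by_cases h1 : w (i + 1) r z = 0
      · simp [h1]
      by_cases h2 : w (i + 1) p x = 0
      · simp [h2]
      obtain ⟨j₁, hj₁, hx⟩ := exists_of_w_ne_zero h2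
      obtain ⟨j₂, hj₂, hz⟩ := exists_of_w_ne_zero h1
      have hb := hμ (i + 1) (16 * 2 ^ l + 2) p q r z x (u + j₁ + j₂) (by
        have a1 : (j₁ : ℤ) < 2 ^ (i + 1) := by exact_mod_cast hj₁
        have a2 : (j₂ : ℤ) < 2 ^ (i + 1) := by exact_mod_cast hj₂
        have a3 : (32 : ℤ) * 2 ^ (i + l) = 16 * 2 ^ l * 2 ^ (i + 1) := by ring
        push_cast
        rw [abs_le] at hu ⊢
        constructor <;> nlinarith [hu.1, hu.2]) (by
        rw [hx, hz, hr]; push_cast; ring) h2 h1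
      have hb' : √X ≤ 7 * (3 / 2) ^ l * μ z x := by
        refine Real.sqrt_le_iff.mpr ⟨by have := hμ0 z x; positivity, hb.trans ?_⟩
        have a1 : (2 : ℝ) ^ l ≤ ((3 / 2) ^ l) ^ 2 := by
          rw [← pow_mul, mul_comm, pow_mul]
          exact pow_le_pow_left₀ (by norm_num) (by norm_num) l
        have a2 : (1 : ℝ) ≤ 2 ^ l := one_le_pow₀ (by norm_num)
        rw [mul_pow, mul_pow]
        push_cast
        exact mul_le_mul_of_nonneg_right (by linarith) (sq_nonneg _)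
      have hw0 : 0 ≤ ‖G z x‖ ^ 2 * (w (i + 1) r z * w (i + 1) p x) :=
        mul_nonneg (sq_nonneg _) (mul_nonneg (w_nonneg _ _ _) (w_nonneg _ _ _))
      calc _ ≤ 7 * (3 / 2) ^ l * μ z x * (‖G z x‖ ^ 2 * (w (i + 1) r z * w (i + 1) p x)) :=
            mul_le_mul_of_nonneg_right hb' hw0
        _ = _ := by ring
    rw [e, norm_mul]
    have h3 := div_le_div_of_nonneg_right h2 hs.le
    simp only [Complex.norm_ofNat]
    unfold gain
    calc _ ≤ 4 * (s * gapG (lft F₀ (w (i + 1) p) + rgt F₁ (w (i + 1) r)) (w i q)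
            (w i (q + 2 ^ i)) + (7 * (3 / 2) ^ l *
            ∑ z, ∑ x, ‖G z x‖ ^ 2 * μ z x * (w (i + 1) r z * w (i + 1) p x)) / s) := by
          gcongr
          refine h.trans ?_
          rw [div_mul_eq_mul_div]
          gcongr
      _ = _ := by ring
  refine (norm_sum_le _ _).trans ((Finset.sum_le_sum fun p _ => (norm_sum_le _ _).trans
    (Finset.sum_le_sum fun q _ => key p q _ rfl)).trans (le_of_eq ?_))
  simp only [Finset.sum_add_distrib, ← Finset.mul_sum]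
  congr 2
  rw [← sum_plane_rot (u : ZMod L) fun p q r =>
    ∑ z, ∑ x, ‖G z x‖ ^ 2 * μ z x * (w (i + 1) r z * w (i + 1) p x)]
  have : ∀ f : ZMod L → ZMod L → ZMod L → ZMod L → ℝ,
      ∑ p, ∑ q, ∑ z, ∑ x, f p q z x = ∑ z, ∑ x, ∑ p, ∑ q, f p q z x := fun f => by
    have sw : ∀ g : ZMod L → ZMod L → ZMod L → ℝ,
        ∑ p, ∑ q, ∑ z, g p q z = ∑ z, ∑ p, ∑ q, g p q z := fun g => by
      rw [Finset.sum_comm (f := fun z p => ∑ q, g p q z)]
      exact Finset.sum_congr rfl fun p _ => Finset.sum_comm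
    rw [sw]
    exact Finset.sum_congr rfl fun z _ => sw _
  rw [this]
  refine Finset.sum_congr rfl fun z _ => Finset.sum_congr rfl fun x _ => ?_
  simp only [← Finset.mul_sum, sum_w_left, mul_one]

theorem sum_tri_le (K : ℕ) (f : ℕ → ℕ → ℝ) (hf : ∀ i l, 0 ≤ f i l) :
    ∑ k ∈ range K, ∑ i ∈ range (k + 1), f i (k - i) ≤ ∑ l ∈ range K, ∑ i ∈ range K, f i l := by
  rw [Finset.sum_comm (s := range K) (t := range K)]
  simp only [Finset.range_eq_Ico]
  rw [← Finset.sum_Ico_Ico_comm]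
  refine Finset.sum_le_sum fun i _ => ?_
  rw [Finset.sum_Ico_eq_sum_range]
  simp only [Nat.add_sub_cancel_left, ← Finset.range_eq_Ico]
  exact Finset.sum_le_sum_of_subset_of_nonneg (Finset.range_mono (Nat.sub_le _ _))
    fun _ _ _ => hf _ _

theorem gain_const (hG : GainStmt) : ∃ C : ℝ, 0 ≤ C ∧ ∀ (L : ℕ) [NeZero L] (α K : ℕ)
    (F₀ F₁ : Mx (ZMod L)),
    ∑ k ∈ range K, (∑ u ∈ Icc (-(2 ^ (α + k) : ℤ)) (2 ^ (α + k)), pgain F₀ F₁ k u) /
      2 ^ (α + k) ≤ C * (α + 1) * (N3 F₀ + N3 F₁) := by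
  obtain ⟨C, hC, hG⟩ := hG
  refine ⟨C, hC, fun L _ α K F₀ F₁ => ?_⟩
  have aux : ∀ (φ : ZMod L → ℂ) (k : ℕ) (p : ZMod L),
      ∑ y, ‖φ y‖ ^ 2 * w k p y ≤ √(∑ y, ‖φ y‖ ^ 2) ^ 2 := fun φ k p => by
    rw [Real.sq_sqrt (by positivity)]
    exact Finset.sum_le_sum fun y _ => mul_le_of_le_one_right (sq_nonneg _) (w_le_one _ _ _)
  simpa using hG L α K F₀ (fun _ => F₁) (N3 F₁) (fun z _ => √(∑ y, ‖F₀ y z‖ ^ 2))
    (fun z _ => √(∑ y, ‖F₁ z y‖ ^ 2)) (fun _ x => √(∑ y, ‖F₁ y x‖ ^ 2)) (fun _ => le_rfl)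
    (fun _ _ => Real.sqrt_nonneg _) (fun _ _ => Real.sqrt_nonneg _)
    (fun _ _ => Real.sqrt_nonneg _) (fun k z x t _ => aux (fun y => F₀ y z) k _)
    (fun _ k z x t _ => aux (fun y => F₁ z y) k _) (fun _ k z x t _ => aux (fun y => F₁ y x) k _)

end ShortA

open ShortA in
theorem shortStmt_of (hS : SqStmt) (hGG : GapGStmt) (hG : GainStmt) (hM : MaxStmt)
    (hD : DecSqStmt) : ShortStmt := by
  obtain ⟨C₁, hC₁, hμ⟩ := exists_mu hM
  obtain ⟨C₂, hC₂, hG⟩ := gain_const hG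
  obtain ⟨C₃, hC₃, hD⟩ := hD
  have hsum : Summable fun l : ℕ => (4 / 5 : ℝ) ^ l * (l + 6) := by
    have h1 := summable_pow_mul_geometric_of_norm_lt_one (R := ℝ) 1 (r := 4 / 5) (by
      rw [Real.norm_of_nonneg (by norm_num)]; norm_num)
    have h2 := (summable_geometric_of_lt_one (r := 4 / 5) (by norm_num) (by norm_num)).mul_right 6
    refine (h1.add h2).congr fun l => by ring
  set S := ∑' l : ℕ, (4 / 5 : ℝ) ^ l * (l + 6) with hSdef
  have hS0 : 0 ≤ S := tsum_nonneg fun l => by positivity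
  refine ⟨128 * C₂ * S + 28 * 16 * 16 * C₃ ^ 2 * (C₁ + 1), by positivity,
    fun L _ K t F₀ F₁ H e v ht he1 he2 he3 he4 hv => ?_⟩
  obtain ⟨μ, hμ0, hμ3, hμ⟩ := hμ L F₀ F₁
  choose γ hγ1 hγ2 hγ3 using fun k z x =>
    hD k (e k z x) (16 / 2 ^ k) (v k z x / 2 ^ k) (he1 k z x) (he2 k z x) (he3 k z x) (he4 k z x)
  have hv0 : ∀ k z x, 0 ≤ v k z x := fun k z x => by
    have : 0 ≤ v k z x / 2 ^ k :=
      (Finset.sum_nonneg fun _ _ => norm_nonneg _).trans (he4 k z x)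
    rwa [le_div_iff₀ (by positivity), zero_mul] at this
  let f : ℕ → ℕ → ℝ := fun i l => 128 * (4 / 5) ^ l *
    ((∑ u ∈ Icc (-(2 ^ (l + 5 + i) : ℤ)) (2 ^ (l + 5 + i)), pgain F₀ F₁ i u) / 2 ^ (l + 5 + i))
  have hf0 : ∀ i l, 0 ≤ f i l := fun i l =>
    mul_nonneg (by positivity) (div_nonneg
      (Finset.sum_nonneg fun u _ => pgain_nonneg hGG _ _ _ _) (by positivity))
  let T : ℕ → ℝ := fun k => ∑ z, ∑ x, ‖H z x‖ ^ 2 * μ z x * v k z x
  have hT0 : ∀ k, 0 ≤ T k := fun k => Finset.sum_nonneg fun z _ => Finset.sum_nonneg fun x _ =>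
    mul_nonneg (mul_nonneg (sq_nonneg _) (hμ0 z x)) (hv0 k z x)
  have step : ∀ i l : ℕ,
      ‖∑ u ∈ Icc (-(32 * 2 ^ (i + l) : ℤ)) (32 * 2 ^ (i + l)), ∑ z, ∑ x,
        H z x * γ (i + l) z x i u * tri i (bx i) (hr i) (bx i) fun j => Fz F₀ F₁ z x (u + j)‖ ≤
      f i l + 28 * 16 * C₃ ^ 2 * (15 / 16) ^ l * T (i + l) := by
    intro i l
    have hs : (0 : ℝ) < (4 / 5) ^ l / 2 ^ (i + l) := by positivity
    refine (norm_sum_le _ _).trans ((Finset.sum_le_sum fun u hu => atom hS hμ0 hμ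
      (Matrix.of fun z x => H z x * γ (i + l) z x i u) i l u (abs_le.mpr (Finset.mem_Icc.mp hu))
      hs).trans ?_)
    rw [Finset.sum_add_distrib, ← Finset.mul_sum, ← Finset.mul_sum]
    refine add_le_add (le_of_eq ?_) ?_
    · have e1 : (32 * 2 ^ (i + l) : ℤ) = 2 ^ (l + 5 + i) := by ring
      simp only [f, e1]
      field_simp
      ring
    · have e2 : ∑ u ∈ Icc (-(32 * 2 ^ (i + l) : ℤ)) (32 * 2 ^ (i + l)), ∑ z, ∑ x,
          ‖(Matrix.of fun z x => H z x * γ (i + l) z x i u) z x‖ ^ 2 * μ z x ≤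
          C₃ * (16 / 2 ^ (i + l)) * (C₃ * 2 ^ i / 2 ^ (i + l)) * T (i + l) := by
        simp only [T, Finset.mul_sum]
        rw [Finset.sum_comm]
        refine Finset.sum_le_sum fun z _ => ?_
        rw [Finset.sum_comm]
        refine Finset.sum_le_sum fun x _ => ?_
        have h0 : 0 ≤ ‖H z x‖ ^ 2 * μ z x := mul_nonneg (sq_nonneg _) (hμ0 z x)
        calc _ ≤ ∑ u ∈ Icc (-(32 * 2 ^ (i + l) : ℤ)) (32 * 2 ^ (i + l)),
              ‖H z x‖ ^ 2 * μ z x * (C₃ * (16 / 2 ^ (i + l))) * ‖γ (i + l) z x i u‖ := by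
              refine Finset.sum_le_sum fun u _ => ?_
              rw [Matrix.of_apply, norm_mul]
              calc _ = ‖H z x‖ ^ 2 * μ z x * ‖γ (i + l) z x i u‖ * ‖γ (i + l) z x i u‖ := by ring
                _ ≤ _ := by gcongr; exact hγ1 _ _ _ _ _
          _ ≤ ‖H z x‖ ^ 2 * μ z x * (C₃ * (16 / 2 ^ (i + l))) *
              (C₃ * 2 ^ i * (v (i + l) z x / 2 ^ (i + l))) := by
              rw [← Finset.mul_sum]
              gcongr
              exact hγ2 _ _ _ _ (Nat.le_add_right _ _)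
          _ = _ := by ring
      refine (mul_le_mul_of_nonneg_left e2 (by positivity)).trans (le_of_eq ?_)
      have e3 : (15 / 16 : ℝ) ^ l = (3 / 2) ^ l / ((4 / 5) ^ l * 2 ^ l) := by
        rw [← mul_pow, ← div_pow]; norm_num
      rw [e3, pow_add]
      field_simp
  have hk : ∀ k, ‖∑ z, ∑ x, H z x * ev (16 * 2 ^ k) (e k z x) (Fz F₀ F₁ z x)‖ ≤
      ∑ i ∈ range (k + 1), f i (k - i) + 28 * 16 * 16 * C₃ ^ 2 * T k := by
    intro k
    have e1 : ∑ z, ∑ x, H z x * ev (16 * 2 ^ k) (e k z x) (Fz F₀ F₁ z x) =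
        ∑ i ∈ range (k + 1), ∑ u ∈ Icc (-(32 * 2 ^ k : ℤ)) (32 * 2 ^ k), ∑ z, ∑ x,
          H z x * γ k z x i u * tri i (bx i) (hr i) (bx i) fun j => Fz F₀ F₁ z x (u + j) := by
      simp only [hγ3, Finset.mul_sum, mul_assoc]
      have sw : ∀ {α : Type} (s : Finset α) (g : ZMod L → ZMod L → α → ℂ),
          ∑ z, ∑ x, ∑ a ∈ s, g z x a = ∑ a ∈ s, ∑ z, ∑ x, g z x a := fun s g => by
        rw [Finset.sum_comm (s := s)]
        exact Finset.sum_congr rfl fun z _ => Finset.sum_comm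
      rw [sw]
      exact Finset.sum_congr rfl fun i _ => sw _ _
    rw [e1]
    calc _ ≤ ∑ i ∈ range (k + 1),
          (f i (k - i) + 28 * 16 * C₃ ^ 2 * (15 / 16) ^ (k - i) * T k) := by
          refine (norm_sum_le _ _).trans (Finset.sum_le_sum fun i hi => ?_)
          have := step i (k - i)
          rwa [Nat.add_sub_cancel' (Nat.lt_succ_iff.mp (Finset.mem_range.mp hi))] at this
      _ ≤ _ := by
          rw [Finset.sum_add_distrib, ← Finset.sum_mul, ← Finset.mul_sum]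
          have : ∑ i ∈ range (k + 1), (15 / 16 : ℝ) ^ (k - i) ≤ 16 := by
            have e := Finset.sum_range_reflect (fun l => (15 / 16 : ℝ) ^ l) (k + 1)
            simp only [Nat.add_sub_cancel] at e
            rw [e]
            refine ((summable_geometric_of_lt_one (by norm_num) (by norm_num)).sum_le_tsum _
              fun _ _ => by positivity).trans (le_of_eq ?_)
            rw [tsum_geometric_of_lt_one (by norm_num) (by norm_num)]
            norm_num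
          have h2 := hT0 k
          have : 28 * 16 * C₃ ^ 2 * (∑ i ∈ range (k + 1), (15 / 16 : ℝ) ^ (k - i)) * T k ≤
              28 * 16 * C₃ ^ 2 * 16 * T k := by gcongr
          linarith
  have n0 := N3_nonneg F₀
  have n1 := N3_nonneg F₁
  have n2 : 0 ≤ t ^ 3 * N3 H := mul_nonneg (by positivity) (N3_nonneg H)
  have hA : ∑ k ∈ range K, ∑ i ∈ range (k + 1), f i (k - i) ≤
      128 * C₂ * S * (N3 F₀ + N3 F₁) := by
    refine (sum_tri_le K f hf0).trans ?_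
    calc _ ≤ ∑ l ∈ range K, 128 * C₂ * ((4 / 5) ^ l * (l + 6)) * (N3 F₀ + N3 F₁) := by
          refine Finset.sum_le_sum fun l _ => ?_
          simp only [f]
          rw [← Finset.mul_sum]
          refine (mul_le_mul_of_nonneg_left (hG L (l + 5) K F₀ F₁) (by positivity)).trans
            (le_of_eq ?_)
          push_cast
          ring
      _ ≤ _ := by
          rw [← Finset.sum_mul, ← Finset.mul_sum]
          gcongr
          exact hsum.sum_le_tsum _ fun _ _ => by positivity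
  have hB : ∑ k ∈ range K, T k ≤ C₁ * (N3 F₀ + N3 F₁) + t ^ 3 * N3 H := by
    calc _ = ∑ z, ∑ x, ‖H z x‖ ^ 2 * μ z x * ∑ k ∈ range K, v k z x := by
          simp only [T, Finset.mul_sum]
          rw [Finset.sum_comm]
          exact Finset.sum_congr rfl fun z _ => Finset.sum_comm
      _ ≤ ∑ z, ∑ x, (μ z x ^ 3 + t ^ 3 * ‖H z x‖ ^ 3) := by
          refine Finset.sum_le_sum fun z _ => Finset.sum_le_sum fun x _ => ?_
          have h0 := hμ0 z x
          have h1 : 0 ≤ t * ‖H z x‖ := by positivity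
          calc _ ≤ ‖H z x‖ ^ 2 * μ z x * t ^ 2 := by gcongr; exact hv z x
            _ = (t * ‖H z x‖) ^ 2 * μ z x := by ring
            _ ≤ μ z x ^ 3 + (t * ‖H z x‖) ^ 3 := by
              nlinarith [mul_nonneg (add_nonneg h0 h1) (sq_nonneg (μ z x - t * ‖H z x‖)),
                mul_nonneg h1 (sq_nonneg (μ z x))]
            _ = _ := by ring
      _ ≤ _ := by
          simp only [Finset.sum_add_distrib, ← Finset.mul_sum]
          exact add_le_add hμ3 le_rfl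
  refine (norm_sum_le _ _).trans ((Finset.sum_le_sum fun k _ => hk k).trans ?_)
  rw [Finset.sum_add_distrib, ← Finset.mul_sum]
  have h1 : 28 * 16 * 16 * C₃ ^ 2 * ∑ k ∈ range K, T k ≤
      28 * 16 * 16 * C₃ ^ 2 * ((C₁ + 1) * (N3 F₀ + N3 F₁ + t ^ 3 * N3 H)) := by
    gcongr
    nlinarith [mul_nonneg hC₁ n2]
  have h2 : 128 * C₂ * S * (N3 F₀ + N3 F₁) ≤ 128 * C₂ * S * (N3 F₀ + N3 F₁ + t ^ 3 * N3 H) := by
    exact mul_le_mul_of_nonneg_left (by linarith) (by positivity)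
  linarith

end Crest.Agent.R72
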