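import Crest.Agent.R72.Basic

/-!
Row 72: the trilinear trace estimate `Tri0Stmt`, by the heat flow `exp (-t P) h exp (-t P)`.
-/

set_option maxHeartbeats 400000

namespace Crest.Agent.R72

open Matrix Finset Filter Topology
open scoped MatrixOrder ComplexOrder

namespace Tri0

variable {ι : Type} [Fintype ι] [DecidableEq ι]

/-- squared Frobenius norm -/
noncomputable def fr (M : Mx ι) : ℝ := ∑ i, ∑ j, ‖M i j‖ ^ 2

omit [DecidableEq ι] in
theorem fr_nonneg (M : Mx ι) : 0 ≤ fr M := by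
  unfold fr; positivity

omit [DecidableEq ι] in
theorem fr_ct (M : Mx ι) : fr Mᴴ = fr M := by
  unfold fr
  rw [Finset.sum_comm]
  simp [conjTranspose_apply]

omit [DecidableEq ι] in
theorem fr_eq (M : Mx ι) : fr M = (trace (Mᴴ * M)).re := by
  unfold fr trace
  rw [Finset.sum_comm, Complex.re_sum]
  refine Finset.sum_congr rfl fun j _ => ?_
  rw [diag_apply, mul_apply, Complex.re_sum]
  refine Finset.sum_congr rfl fun i _ => ?_
  rw [conjTranspose_apply, RCLike.star_def, Complex.conj_mul']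
  norm_cast

omit [DecidableEq ι] in
theorem tr_cs (M N : Mx ι) : ‖trace (M * N)‖ ≤ √(fr M) * √(fr N) := by
  have h1 : ‖trace (M * N)‖ ≤ ∑ q : ι × ι, ‖M q.1 q.2‖ * ‖N q.2 q.1‖ := by
    rw [Fintype.sum_prod_type]
    unfold trace
    refine (norm_sum_le _ _).trans (Finset.sum_le_sum fun i _ => ?_)
    rw [diag_apply, mul_apply]
    refine (norm_sum_le _ _).trans (Finset.sum_le_sum fun j _ => ?_)
    rw [norm_mul]
  refine h1.trans ((Real.sum_mul_le_sqrt_mul_sqrt _ _ _).trans (le_of_eq ?_))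
  rw [Fintype.sum_prod_type, Fintype.sum_prod_type_right]
  rfl

omit [DecidableEq ι] in
theorem tr_am (M N : Mx ι) {a b : ℝ} (ha : fr M ≤ a) (hb : fr N ≤ b) :
    ‖trace (M * N)‖ ≤ (a + b) / 2 := by
  have h := tr_cs M N
  have h1 := Real.sq_sqrt (fr_nonneg M)
  have h2 := Real.sq_sqrt (fr_nonneg N)
  nlinarith [sq_nonneg (√(fr M) - √(fr N))]

omit [DecidableEq ι] in
theorem fr_left {P C : Mx ι} (h : (Pᴴ * P - Cᴴ * C).PosSemidef) (M : Mx ι) :
    fr (C * M) ≤ fr (P * M) := by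
  have h1 := (h.conjTranspose_mul_mul_same M).trace_nonneg
  have h2 : Mᴴ * (Pᴴ * P - Cᴴ * C) * M = (P * M)ᴴ * (P * M) - (C * M)ᴴ * (C * M) := by
    simp only [conjTranspose_mul, Matrix.mul_sub, Matrix.sub_mul, Matrix.mul_assoc]
  rw [h2, trace_sub] at h1
  rw [fr_eq, fr_eq]
  have := (Complex.nonneg_iff.mp h1).1
  rw [Complex.sub_re] at this
  linarith

omit [DecidableEq ι] in
theorem fr_right {P C : Mx ι} (h : (P * Pᴴ - C * Cᴴ).PosSemidef) (M : Mx ι) :
    fr (M * C) ≤ fr (M * P) := by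
  rw [← fr_ct (M * C), ← fr_ct (M * P), conjTranspose_mul, conjTranspose_mul]
  refine fr_left ?_ _
  rwa [conjTranspose_conjTranspose, conjTranspose_conjTranspose]

/-- contraction -/
def Ctr (g : Mx ι) : Prop := (∀ M, fr (M * g) ≤ fr M) ∧ ∀ M, fr (g * M) ≤ fr M

omit [DecidableEq ι] in
theorem Ctr.mul {g g' : Mx ι} (h : Ctr g) (h' : Ctr g') : Ctr (g * g') := by
  refine ⟨fun M => ?_, fun M => ?_⟩
  · rw [← Matrix.mul_assoc]
    exact (h'.1 _).trans (h.1 _)
  · rw [Matrix.mul_assoc]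
    exact (h.2 _).trans (h'.2 _)

theorem ctr_of {g : Mx ι} (h1 : (1 - gᴴ * g).PosSemidef) (h2 : (1 - g * gᴴ).PosSemidef) :
    Ctr g := by
  refine ⟨fun M => ?_, fun M => ?_⟩
  · have := fr_right (P := 1) (C := g) (by simpa using h2) M
    simpa using this
  · have := fr_left (P := 1) (C := g) (by simpa using h1) M
    simpa using this

/-- entrywise derivative of a matrix valued function -/
def MD (f : ℝ → Mx ι) (f' : Mx ι) (t : ℝ) : Prop :=
  ∀ i j, HasDerivAt (fun s => f s i j) (f' i j) t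

omit [Fintype ι] [DecidableEq ι] in
theorem MD.const (A : Mx ι) (t : ℝ) : MD (fun _ => A) 0 t := fun i j => by
  simpa using hasDerivAt_const t (A i j)

omit [DecidableEq ι] in
theorem MD.mul {f g : ℝ → Mx ι} {f' g' : Mx ι} {t : ℝ} (hf : MD f f' t) (hg : MD g g' t) :
    MD (fun s => f s * g s) (f' * g t + f t * g') t := fun i j => by
  simp only [mul_apply, Matrix.add_apply, ← Finset.sum_add_distrib]
  exact HasDerivAt.fun_sum fun k _ => (hf i k).mul (hg k j)

omit [DecidableEq ι] in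
theorem MD.trace {f : ℝ → Mx ι} {f' : Mx ι} {t : ℝ} (hf : MD f f' t) :
    HasDerivAt (fun s => trace (f s)) (trace f') t := by
  unfold Matrix.trace
  exact HasDerivAt.fun_sum fun k _ => hf k k

/-- the data of the heat flow -/
structure IsFlow (P h : Mx ι) (ν : ℝ) (g : ℝ → Mx ι) (ψ : ℝ → ℝ) : Prop where
  g0 : g 0 = h
  dg : ∀ t, MD g (-(P * g t + g t * P)) t
  ctr : ∀ t, 0 ≤ t → Ctr (g t)
  dψ : ∀ t, HasDerivAt ψ (-fr (P * g t * P)) t
  ψnn : ∀ t, 0 ≤ ψ t
  ψ0 : 2 * ψ 0 ≤ ν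
  lim : Tendsto (fun t => fr (P * g t * P)) atTop (𝓝 0)

theorem dg_mul_apply (p : ι → ℝ) (M : Mx ι) (k l : ι) : (dg p * M) k l = p k * M k l := by
  unfold dg
  rw [diagonal_mul]

theorem mul_dg_apply (p : ι → ℝ) (M : Mx ι) (k l : ι) : (M * dg p) k l = M k l * p l := by
  unfold dg
  rw [mul_diagonal]

omit [DecidableEq ι] in
theorem qf_of_sylv (P Δ X : Mx ι) (h : P * X + X * P = Δ) :
    qf P Δ X = (trace (X * Δ)).re := by
  unfold qf
  have h1 : trace (X * Δ) = 2 * trace (P * X * X) := by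
    rw [← h, Matrix.mul_add, trace_add, trace_mul_comm X (P * X), ← Matrix.mul_assoc,
      trace_mul_comm (X * X) P, ← Matrix.mul_assoc]
    ring
  have h2 : (trace (X * Δ)).re = 2 * (trace (P * X * X)).re := by
    rw [h1]; simp
  linarith

theorem flow_diag (p : ι → ℝ) (hp : ∀ i, 0 ≤ p i) (h : Mx ι) (hh : h.IsHermitian)
    (hc : Ctr h) (ν : ℝ)
    (hν : ∀ X : Mx ι, X.IsHermitian → qf (dg p) (dg p * h * dg p) X ≤ ν) :
    ∃ g ψ, IsFlow (dg p) h ν g ψ := by
  set g : ℝ → Mx ι := fun t => Matrix.of fun k l =>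
    h k l * ((Real.exp (-(t * (p k + p l))) : ℝ) : ℂ) with hg
  have hgE : ∀ t, g t = dg (fun k => Real.exp (-(t * p k))) * h *
      dg (fun k => Real.exp (-(t * p k))) := by
    intro t
    ext k l
    rw [mul_dg_apply, dg_mul_apply]
    simp only [hg, of_apply]
    rw [mul_add, neg_add, Real.exp_add]
    push_cast
    ring
  set a : ι → ι → ℝ := fun k l => (p k * ‖h k l‖ * p l) ^ 2 with ha
  have ha0 : ∀ k l, p k + p l = 0 → a k l = 0 := by
    intro k l hkl
    have : p k = 0 := by linarith [hp k, hp l]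
    simp [ha, this]
  have hann : ∀ k l, 0 ≤ a k l := fun k l => sq_nonneg _
  have hfr : ∀ t, fr (dg p * g t * dg p) =
      ∑ k, ∑ l, a k l * Real.exp (-(2 * (p k + p l) * t)) := by
    intro t
    unfold fr
    refine Finset.sum_congr rfl fun k _ => Finset.sum_congr rfl fun l _ => ?_
    rw [mul_dg_apply, dg_mul_apply]
    simp only [hg, of_apply, norm_mul, Complex.norm_real, Real.norm_eq_abs, ha]
    rw [abs_of_nonneg (hp k), abs_of_nonneg (hp l), abs_of_pos (Real.exp_pos _)]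
    have : Real.exp (-(2 * (p k + p l) * t)) = Real.exp (-(t * (p k + p l))) ^ 2 := by
      rw [← Real.exp_nat_mul]; congr 1; push_cast; ring
    rw [this]; ring
  refine ⟨g, fun t => ∑ k, ∑ l, a k l / (2 * (p k + p l)) * Real.exp (-(2 * (p k + p l) * t)),
    ?_, ?_, ?_, ?_, ?_, ?_, ?_⟩
  · ext k l
    simp [hg]
  · intro t k l
    simp only [Matrix.neg_apply, Matrix.add_apply, dg_mul_apply, mul_dg_apply, hg, of_apply]
    have h1 : HasDerivAt (fun s : ℝ => Real.exp (-(s * (p k + p l))))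
        (Real.exp (-(t * (p k + p l))) * (-(p k + p l))) t := by
      have : HasDerivAt (fun s : ℝ => -(s * (p k + p l))) (-(p k + p l)) t :=
        (((hasDerivAt_id' t).mul_const (p k + p l)).fun_neg).congr_deriv (by ring)
      exact this.exp
    have h2 := (h1.ofReal_comp).const_mul (h k l)
    refine h2.congr_deriv ?_
    push_cast
    ring
  · intro t ht
    rw [hgE]
    have hE : Ctr (dg (fun k => Real.exp (-(t * p k)))) := by
      have : (1 - dg (fun k => Real.exp (-(t * p k))) *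
          dg (fun k => Real.exp (-(t * p k)))).PosSemidef := by
        rw [dg_mul_dg]
        have e : (1 : Mx ι) - dg (fun i => Real.exp (-(t * p i)) * Real.exp (-(t * p i))) =
            dg (fun i => 1 - Real.exp (-(t * p i)) * Real.exp (-(t * p i))) := by
          unfold dg
          ext i j
          by_cases hij : i = j
          · subst hij; simp
          · simp [hij]
        rw [e]
        refine dg_psd fun i => ?_
        have h1 : Real.exp (-(t * p i)) ≤ 1 := by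
          rw [Real.exp_le_one_iff]
          have := mul_nonneg ht (hp i)
          linarith
        have h0 := (Real.exp_pos (-(t * p i))).le
        nlinarith
      exact ctr_of (by rwa [dg_conjTranspose]) (by rwa [dg_conjTranspose])
    exact (hE.mul hc).mul hE
  · intro t
    rw [hfr, ← Finset.sum_neg_distrib]
    refine HasDerivAt.fun_sum fun k _ => ?_
    rw [← Finset.sum_neg_distrib]
    refine HasDerivAt.fun_sum fun l _ => ?_
    have h1 : HasDerivAt (fun s : ℝ => Real.exp (-(2 * (p k + p l) * s)))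
        (Real.exp (-(2 * (p k + p l) * t)) * (-(2 * (p k + p l)))) t := by
      have : HasDerivAt (fun s : ℝ => -(2 * (p k + p l) * s)) (-(2 * (p k + p l))) t :=
        (((hasDerivAt_id' t).const_mul (2 * (p k + p l))).fun_neg).congr_deriv (by ring)
      exact this.exp
    have h2 := h1.const_mul (a k l / (2 * (p k + p l)))
    refine h2.congr_deriv ?_
    by_cases hkl : p k + p l = 0
    · simp [ha0 k l hkl]
    · field_simp
  · intro t
    refine Finset.sum_nonneg fun k _ => Finset.sum_nonneg fun l _ => ?_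
    have := hp k
    have := hp l
    have := hann k l
    positivity
  · set X : Mx ι := Matrix.of fun k l => (dg p * h * dg p) k l / ((p k + p l : ℝ) : ℂ) with hX
    have hΔ : ∀ k l, (dg p * h * dg p) k l = p k * h k l * p l := by
      intro k l
      rw [mul_dg_apply, dg_mul_apply]
    have hhc : ∀ k l, h l k = (starRingEnd ℂ) (h k l) := by
      intro k l
      have := hh.apply l k
      rw [← this]; rfl
    have hXh : X.IsHermitian := by
      ext k l
      simp only [conjTranspose_apply, hX, of_apply, hΔ, RCLike.star_def, map_div₀, map_mul,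
        Complex.conj_ofReal]
      rw [← hhc l k, add_comm (p l)]
      ring
    have hsyl : dg p * X + X * dg p = dg p * h * dg p := by
      ext k l
      simp only [Matrix.add_apply, dg_mul_apply, mul_dg_apply, hX, of_apply]
      by_cases hkl : p k + p l = 0
      · have : p k = 0 := by linarith [hp k, hp l]
        simp [this]
      · have : ((p k + p l : ℝ) : ℂ) ≠ 0 := by exact_mod_cast hkl
        field_simp
        push_cast
        ring
    refine le_trans (le_of_eq ?_) (hν X hXh)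
    rw [qf_of_sylv _ _ _ hsyl]
    unfold trace
    rw [Complex.re_sum, Finset.mul_sum]
    refine Finset.sum_congr rfl fun k _ => ?_
    rw [diag_apply, mul_apply, Complex.re_sum, Finset.mul_sum]
    refine Finset.sum_congr rfl fun l _ => ?_
    simp only [hX, of_apply, hΔ]
    rw [hhc k l]
    have e : (p k : ℂ) * h k l * p l / ((p k + p l : ℝ) : ℂ) *
        (p l * (starRingEnd ℂ) (h k l) * p k) = ((a k l / (p k + p l) : ℝ) : ℂ) := by
      simp only [ha]
      push_cast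
      rw [mul_pow, mul_pow, ← Complex.mul_conj']
      ring
    rw [e, Complex.ofReal_re]
    simp only [mul_zero, neg_zero, Real.exp_zero, mul_one]
    by_cases hkl : p k + p l = 0
    · simp [hkl]
    · field_simp
  · simp only [hfr]
    have : (0 : ℝ) = ∑ k : ι, ∑ l : ι, 0 := by simp
    rw [this]
    refine tendsto_finsetSum _ fun k _ => tendsto_finsetSum _ fun l _ => ?_
    by_cases hkl : p k + p l = 0
    · simp [ha0 k l hkl]
    · have hpos : 0 < 2 * (p k + p l) := by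
        have : 0 < p k + p l := lt_of_le_of_ne (add_nonneg (hp k) (hp l)) (Ne.symm hkl)
        linarith
      have h1 : Tendsto (fun t : ℝ => -(2 * (p k + p l) * t)) atTop atBot :=
        tendsto_neg_atTop_atBot.comp (tendsto_id.const_mul_atTop hpos)
      have h2 := (Real.tendsto_exp_atBot.comp h1).const_mul (a k l)
      simpa using h2

theorem fr_conj {U : Mx ι} (h1 : Uᴴ * U = 1) (M : Mx ι) : fr (U * M * Uᴴ) = fr M := by
  rw [fr_eq, fr_eq]
  congr 1
  have : (U * M * Uᴴ)ᴴ * (U * M * Uᴴ) = U * (Mᴴ * M) * Uᴴ := by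
    simp only [conjTranspose_mul, conjTranspose_conjTranspose, Matrix.mul_assoc]
    rw [← Matrix.mul_assoc Uᴴ U, h1, Matrix.one_mul]
  rw [this, trace_mul_comm, ← Matrix.mul_assoc, h1, Matrix.one_mul]

theorem flow (P : Mx ι) (hP : P.PosSemidef) (h : Mx ι) (hh : h.IsHermitian)
    (hc : (1 - h * h).PosSemidef) (ν : ℝ)
    (hν : ∀ X : Mx ι, X.IsHermitian → qf P (P * h * P) X ≤ ν) :
    ∃ g ψ, IsFlow P h ν g ψ := by
  obtain ⟨U, p, hp, h1, h2, rfl⟩ : ∃ (U : Mx ι) (p : ι → ℝ), (∀ i, 0 ≤ p i) ∧ Uᴴ * U = 1 ∧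
      U * Uᴴ = 1 ∧ P = U * dg p * Uᴴ := by
    refine ⟨hP.1.eigenvectorUnitary, hP.1.eigenvalues, hP.eigenvalues_nonneg, ?_, ?_, ?_⟩
    · exact Unitary.coe_star_mul_self _
    · exact Unitary.coe_mul_star_self _
    · exact hP.1.spectral_theorem
  have hU : Ctr U := ctr_of (by simp [h1, PosSemidef.zero]) (by simp [h2, PosSemidef.zero])
  have hU' : Ctr Uᴴ := ctr_of (by simp [h2, PosSemidef.zero]) (by simp [h1, PosSemidef.zero])
  have hch : Ctr h := ctr_of (by rwa [hh.eq]) (by rwa [hh.eq])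
  have c1 : ∀ M : Mx ι, Uᴴ * (U * M) = M := fun M => by
    rw [← Matrix.mul_assoc, h1, Matrix.one_mul]
  have c2 : ∀ M : Mx ι, U * (Uᴴ * M) = M := fun M => by
    rw [← Matrix.mul_assoc, h2, Matrix.one_mul]
  have htr : ∀ M : Mx ι, trace (U * M * Uᴴ) = trace M := fun M => by
    rw [trace_mul_comm, c1]
  obtain ⟨g, ψ, hf⟩ := flow_diag p hp (Uᴴ * h * U) (isHermitian_conjTranspose_mul_mul U hh)
    ((hU'.mul hch).mul hU) ν (by
      intro X hX
      refine le_trans (le_of_eq ?_) (hν (U * X * Uᴴ) (isHermitian_mul_mul_conjTranspose U hX))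
      unfold qf
      rw [← htr (X * _), ← htr (dg p * X * X)]
      simp only [Matrix.mul_assoc, c1])
  have e : ∀ t, U * dg p * Uᴴ * (U * g t * Uᴴ) * (U * dg p * Uᴴ) =
      U * (dg p * g t * dg p) * Uᴴ := fun t => by
    simp only [Matrix.mul_assoc, c1]
  refine ⟨fun t => U * g t * Uᴴ, ψ, ?_, ?_, ?_, ?_, hf.ψnn, hf.ψ0, ?_⟩
  · simp only [hf.g0, Matrix.mul_assoc, c2, h2, Matrix.mul_one]
  · intro t
    have := ((MD.const U t).mul (hf.dg t)).mul (MD.const Uᴴ t)
    convert this using 1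
    simp only [Matrix.mul_assoc, c1, Matrix.zero_mul, Matrix.mul_zero, zero_add, add_zero,
      Matrix.mul_neg, Matrix.neg_mul, Matrix.mul_add, Matrix.add_mul]
  · intro t ht
    exact (hU.mul (hf.ctr t ht)).mul hU'
  · intro t
    rw [e, fr_conj h1]
    exact hf.dψ t
  · simp only [e, fr_conj h1]
    exact hf.lim

omit [DecidableEq ι] in
/-- two of the six traces -/
theorem two_traces {A B C P₀ P₁ P₂ g₀ g₁ g₂ : Mx ι}
    (hP₀ : P₀.IsHermitian) (hP₁ : P₁.IsHermitian) (hP₂ : P₂.IsHermitian)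
    (c₀ : Ctr g₀) (c₂ : Ctr g₂)
    (a₀ : (P₀ * P₀ - A * Aᴴ).PosSemidef) (b₀ : (P₀ * P₀ - Cᴴ * C).PosSemidef)
    (a₁ : (P₁ * P₁ - Aᴴ * A).PosSemidef) (b₁ : (P₁ * P₁ - B * Bᴴ).PosSemidef)
    (a₂ : (P₂ * P₂ - Bᴴ * B).PosSemidef) (b₂ : (P₂ * P₂ - C * Cᴴ).PosSemidef) :
    ‖trace (A * (P₁ * g₁ + g₁ * P₁) * B * g₂ * C * g₀)‖ ≤
      fr (P₁ * g₁ * P₁) + (fr (P₀ * g₀ * P₀) + fr (P₂ * g₂ * P₂)) / 2 := by
  have lA : ∀ M, fr (A * M) ≤ fr (P₁ * M) := fr_left (by rwa [hP₁.eq])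
  have rA : ∀ M, fr (M * A) ≤ fr (M * P₀) := fr_right (by rwa [hP₀.eq])
  have lB : ∀ M, fr (B * M) ≤ fr (P₂ * M) := fr_left (by rwa [hP₂.eq])
  have rB : ∀ M, fr (M * B) ≤ fr (M * P₁) := fr_right (by rwa [hP₁.eq])
  have lC : ∀ M, fr (C * M) ≤ fr (P₀ * M) := fr_left (by rwa [hP₀.eq])
  have rC : ∀ M, fr (M * C) ≤ fr (M * P₂) := fr_right (by rwa [hP₂.eq])
  have e : trace (A * (P₁ * g₁ + g₁ * P₁) * B * g₂ * C * g₀) =
      trace ((P₁ * g₁ * B) * (g₂ * (C * (g₀ * A)))) +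
        trace ((A * (g₁ * P₁)) * (B * (g₂ * C) * g₀)) := by
    have : trace ((P₁ * g₁ * B) * (g₂ * (C * (g₀ * A)))) =
        trace (A * (P₁ * g₁ * B * g₂ * C * g₀)) := by
      rw [trace_mul_comm A]
      simp only [Matrix.mul_assoc]
    rw [this, ← trace_add]
    simp only [Matrix.mul_assoc, Matrix.mul_add, Matrix.add_mul]
  rw [e]
  have h1 : ‖trace ((P₁ * g₁ * B) * (g₂ * (C * (g₀ * A))))‖ ≤
      (fr (P₁ * g₁ * P₁) + fr (P₀ * g₀ * P₀)) / 2 := by
    refine tr_am _ _ (rB _) ((c₂.2 _).trans ((lC _).trans ?_))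
    rw [← Matrix.mul_assoc]
    exact rA _
  have h2 : ‖trace ((A * (g₁ * P₁)) * (B * (g₂ * C) * g₀))‖ ≤
      (fr (P₁ * g₁ * P₁) + fr (P₂ * g₂ * P₂)) / 2 := by
    refine tr_am _ _ ?_ ((c₀.1 _).trans ((lB _).trans ?_))
    · rw [Matrix.mul_assoc P₁]
      exact lA _
    · rw [← Matrix.mul_assoc]
      exact rC _
  refine (norm_add_le _ _).trans ?_
  linarith

end Tri0

open Tri0 in
theorem tri0Stmt : Tri0Stmt := by
  intro ι _ _ A B C P₀ P₁ P₂ h₀ h₁ h₂ ν₀ ν₁ ν₂ hP₀ hP₁ hP₂ hh₀ hh₁ hh₂ c₀ c₁ c₂ a₀ b₀ a₁ b₁ a₂ b₂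
    n₀ n₁ n₂
  obtain ⟨g₀, ψ₀, f₀⟩ := flow P₀ hP₀ h₀ hh₀ c₀ ν₀ n₀
  obtain ⟨g₁, ψ₁, f₁⟩ := flow P₁ hP₁ h₁ hh₁ c₁ ν₁ n₁
  obtain ⟨g₂, ψ₂, f₂⟩ := flow P₂ hP₂ h₂ hh₂ c₂ ν₂ n₂
  set φ : ℝ → ℂ := fun t => trace (A * g₁ t * B * g₂ t * C * g₀ t) with hφ
  set φ' : ℝ → ℂ := fun t =>
    -(trace (A * (P₁ * g₁ t + g₁ t * P₁) * B * g₂ t * C * g₀ t) +
      trace (B * (P₂ * g₂ t + g₂ t * P₂) * C * g₀ t * A * g₁ t) +
      trace (C * (P₀ * g₀ t + g₀ t * P₀) * A * g₁ t * B * g₂ t)) with hφ'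
  have hd : ∀ t, HasDerivAt φ (φ' t) t := by
    intro t
    have := ((((((MD.const A t).mul (f₁.dg t)).mul (MD.const B t)).mul (f₂.dg t)).mul
      (MD.const C t)).mul (f₀.dg t)).trace
    convert this using 1
    have e1 : trace (B * (P₂ * g₂ t + g₂ t * P₂) * C * g₀ t * A * g₁ t) =
        trace (A * g₁ t * B * (P₂ * g₂ t + g₂ t * P₂) * C * g₀ t) := by
      rw [Matrix.mul_assoc _ A, trace_mul_comm]
      simp only [Matrix.mul_assoc]
    have e2 : trace (C * (P₀ * g₀ t + g₀ t * P₀) * A * g₁ t * B * g₂ t) =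
        trace (A * g₁ t * B * g₂ t * C * (P₀ * g₀ t + g₀ t * P₀)) := by
      rw [Matrix.mul_assoc (A * g₁ t * B * g₂ t) C, trace_mul_comm (A * g₁ t * B * g₂ t)]
      simp only [Matrix.mul_assoc]
    simp only [hφ', e1, e2, Matrix.zero_mul, Matrix.mul_zero, zero_add, add_zero,
      Matrix.mul_neg, Matrix.neg_mul, Matrix.add_mul, trace_add, trace_neg]
    simp only [Matrix.mul_add, Matrix.add_mul, trace_add]
    ring
  have hb : ∀ t, 0 ≤ t → ‖φ' t‖ ≤
      2 * (fr (P₀ * g₀ t * P₀) + fr (P₁ * g₁ t * P₁) + fr (P₂ * g₂ t * P₂)) := by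
    intro t ht
    have t1 := two_traces (g₁ := g₁ t) hP₀.1 hP₁.1 hP₂.1 (f₀.ctr t ht) (f₂.ctr t ht)
      a₀ b₀ a₁ b₁ a₂ b₂
    have t2 := two_traces (g₁ := g₂ t) hP₁.1 hP₂.1 hP₀.1 (f₁.ctr t ht) (f₀.ctr t ht)
      b₁ a₁ a₂ b₂ b₀ a₀
    have t3 := two_traces (g₁ := g₀ t) hP₂.1 hP₀.1 hP₁.1 (f₂.ctr t ht) (f₁.ctr t ht)
      b₂ a₂ b₀ a₀ a₁ b₁
    simp only [hφ', norm_neg]
    refine (norm_add₃_le).trans ?_
    linarith
  obtain ⟨ω, hω1, hω⟩ := Complex.exists_norm_mul_eq_self (φ 0)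
  obtain ⟨ω, hω1, hω⟩ : ∃ ω : ℂ, ‖ω‖ = 1 ∧ (ω * φ 0).re = ‖φ 0‖ := by
    refine ⟨(starRingEnd ℂ) ω, by simpa using hω1, ?_⟩
    have : (starRingEnd ℂ) ω * φ 0 = ‖φ 0‖ := by
      conv_lhs => rw [← hω]
      rw [← mul_assoc, Complex.conj_mul', hω1]
      simp
    rw [this, Complex.ofReal_re]
  set F : ℝ → ℝ := fun t => (ω * φ t).re - 2 * (ψ₀ t + ψ₁ t + ψ₂ t) with hF
  have hFd : ∀ t, HasDerivAt F ((ω * φ' t).re - 2 * (-fr (P₀ * g₀ t * P₀) + -fr (P₁ * g₁ t * P₁) +
      -fr (P₂ * g₂ t * P₂))) t := by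
    intro t
    have h1 : HasDerivAt (fun s => (ω * φ s).re) (ω * φ' t).re t :=
      Complex.reCLM.hasFDerivAt.comp_hasDerivAt t ((hd t).const_mul ω)
    exact h1.sub ((((f₀.dψ t).add (f₁.dψ t)).add (f₂.dψ t)).const_mul 2)
  have hmono : MonotoneOn F (Set.Ici 0) := by
    refine monotoneOn_of_deriv_nonneg (convex_Ici 0)
      (fun t _ => (hFd t).continuousAt.continuousWithinAt)
      (fun t _ => (hFd t).differentiableAt.differentiableWithinAt) fun t ht => ?_
    rw [interior_Ici] at ht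
    rw [(hFd t).deriv]
    have h1 := hb t (le_of_lt ht)
    have h2 : |(ω * φ' t).re| ≤ ‖φ' t‖ := by
      refine (Complex.abs_re_le_norm _).trans ?_
      rw [norm_mul, hω1, one_mul]
    have h3 := neg_abs_le (ω * φ' t).re
    linarith
  have hT : ∀ T, 0 ≤ T → F 0 ≤ √(fr (P₁ * g₁ T * P₁)) * √(fr C) := by
    intro T hT
    refine (hmono Set.self_mem_Ici hT hT).trans ?_
    have h1 : (ω * φ T).re ≤ ‖φ T‖ := by
      refine (Complex.re_le_norm _).trans ?_
      rw [norm_mul, hω1, one_mul]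
    have h2 : ‖φ T‖ ≤ √(fr (P₁ * g₁ T * P₁)) * √(fr C) := by
      have e : φ T = trace ((A * (g₁ T * B)) * (g₂ T * (C * g₀ T))) := by
        simp only [hφ, Matrix.mul_assoc]
      rw [e]
      refine (tr_cs _ _).trans (mul_le_mul (Real.sqrt_le_sqrt ?_) (Real.sqrt_le_sqrt ?_)
        (Real.sqrt_nonneg _) (Real.sqrt_nonneg _))
      · refine (fr_left (P := P₁) (by rwa [hP₁.1.eq]) _).trans ?_
        rw [← Matrix.mul_assoc]
        exact fr_right (by rwa [hP₁.1.eq]) _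
      · exact ((f₂.ctr T hT).2 _).trans ((f₀.ctr T hT).1 _)
    have := f₀.ψnn T
    have := f₁.ψnn T
    have := f₂.ψnn T
    simp only [hF]
    linarith
  have hlim : Tendsto (fun T => √(fr (P₁ * g₁ T * P₁)) * √(fr C)) atTop (𝓝 0) := by
    have := (f₁.lim.sqrt).mul_const (√(fr C))
    simpa using this
  have hF0 : F 0 ≤ 0 :=
    ge_of_tendsto hlim ((eventually_ge_atTop 0).mono hT)
  have e0 : φ 0 = trace (A * h₁ * B * h₂ * C * h₀) := by
    simp only [hφ, f₀.g0, f₁.g0, f₂.g0]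
  simp only [hF, hω] at hF0
  rw [← e0]
  have := f₀.ψ0
  have := f₁.ψ0
  have := f₂.ψ0
  have := f₀.ψnn 0
  have := f₁.ψnn 0
  have := f₂.ψnn 0
  linarith

end Crest.Agent.R72
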