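import Crest.Agent.R72.MatA

/-!
Row 72: the gap in the middle window controls Haar-type weights.
-/

namespace Crest.Agent.R72

open Matrix Finset MatA
open scoped MatrixOrder ComplexOrder

namespace TriC

variable {ι : Type} [Fintype ι] [DecidableEq ι]

/-- relative half difference -/
noncomputable def hh (g g' : ι → ℝ) : ι → ℝ := fun i => df g g' i / av g g' i

/-- `g^{1/2} F g'^{1/2}` -/
noncomputable def sw (g : ι → ℝ) (F : Mx ι) (g' : ι → ℝ) : Mx ι :=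
  dg (fun i => √(g i)) * F * dg (fun i => √(g' i))

/-- square of the Frobenius norm -/
noncomputable def fr (M : Mx ι) : ℝ := ∑ i, ∑ j, ‖M i j‖ ^ 2

omit [Fintype ι] [DecidableEq ι] in
theorem mul_div_eq {φ g : ℝ} (h : |φ| ≤ g) : g * (φ / g) = φ := by
  rcases eq_or_ne g 0 with rfl | hg
  · rw [abs_nonpos_iff.1 h]; simp
  · field_simp

omit [Fintype ι] [DecidableEq ι] in
theorem abs_div_le {φ g : ℝ} (h : |φ| ≤ g) : |φ / g| ≤ 1 := by
  have hg : 0 ≤ g := (abs_nonneg _).trans h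
  rw [abs_div, abs_of_nonneg hg]
  exact div_le_one_of_le₀ h hg

omit [Fintype ι] [DecidableEq ι] in
theorem abs_df_le {g g' : ι → ℝ} (h : ∀ i, 0 ≤ g i) (h' : ∀ i, 0 ≤ g' i) (i : ι) :
    |df g g' i| ≤ av g g' i := by
  have := h i
  have := h' i
  unfold df av
  rw [abs_le]
  constructor <;> linarith

theorem dg_split {φ g : ι → ℝ} (h : ∀ i, |φ i| ≤ g i) :
    dg φ = dg (fun i => √(g i)) * dg (fun i => φ i / g i) * dg (fun i => √(g i)) := by
  rw [dg_mul_dg, dg_mul_dg]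
  congr 1
  funext i
  rw [mul_right_comm, Real.mul_self_sqrt ((abs_nonneg _).trans (h i)), mul_div_eq (h i)]

omit [Fintype ι] in
theorem dg_one : dg (fun _ : ι => (1 : ℝ)) = 1 := by
  unfold dg; simp

omit [Fintype ι] in
theorem dg_add (g g' : ι → ℝ) : dg (fun i => g i + g' i) = dg g + dg g' := by
  unfold dg
  rw [diagonal_add]
  simp

omit [Fintype ι] in
theorem dg_neg (g : ι → ℝ) : dg (fun i => -g i) = -dg g := by
  unfold dg
  rw [diagonal_neg]
  simp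

theorem one_sub_psd {h : ι → ℝ} (hh : ∀ i, |h i| ≤ 1) : (1 - dg h * dg h).PosSemidef := by
  rw [dg_mul_dg, sub_eq_add_neg, ← dg_neg, ← dg_one, ← dg_add]
  refine dg_psd fun i => ?_
  have := abs_le.1 (hh i)
  nlinarith

theorem Phi_mul (hS : SwapStmt) {u : Mx ι} (hu : u.PosSemidef) {g h : ι → ℝ}
    (hg : ∀ i, 0 ≤ g i) (hh : ∀ i, 0 ≤ 1 + h i) :
    (sand g u + CFC.sqrt (sand g u) * dg h * CFC.sqrt (sand g u)).PosSemidef ∧
    Phi u (fun i => g i * (1 + h i)) =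
      f3 (sand g u + CFC.sqrt (sand g u) * dg h * CFC.sqrt (sand g u)) := by
  have hP := sqrt_psd (sand g u)
  have hPP := sqrt_mul (sand_psd g hu)
  have e1 : sand (fun i => g i * (1 + h i)) u =
      dg (fun i => √(1 + h i)) * sand g u * dg (fun i => √(1 + h i)) := by
    unfold sand
    have : dg (fun i => √(g i * (1 + h i))) = dg (fun i => √(g i)) * dg (fun i => √(1 + h i)) := by
      rw [dg_mul_dg]; congr 1; funext i; rw [Real.sqrt_mul (hg i)]
    have h2 : dg (fun i => √(g i * (1 + h i))) =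
        dg (fun i => √(1 + h i)) * dg (fun i => √(g i)) := by
      rw [dg_mul_dg]; congr 1; funext i; rw [Real.sqrt_mul (hg i), mul_comm]
    conv_lhs => rw [this]; enter [1, 1]; rw [← this, h2]
    simp only [mul_assoc]
  generalize CFC.sqrt (sand g u) = P at *
  have e2 : (P * dg fun i => √(1 + h i)) * (P * dg fun i => √(1 + h i))ᴴ =
      sand g u + P * dg h * P := by
    rw [conjTranspose_mul, dg_conjTranspose, hP.1, mul_assoc, ← mul_assoc (dg _), dg_sqrt_mul hh,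
      dg_add, dg_one, add_mul, one_mul, mul_add, hPP, mul_assoc]
  refine ⟨e2 ▸ posSemidef_self_mul_conjTranspose _, ?_⟩
  rw [← e2, ← hS, Phi, e1, conjTranspose_mul, dg_conjTranspose, hP.1, ← hPP]
  simp only [mul_assoc]

theorem gap_lower (hG : GapStmt) (hS : SwapStmt) {u : Mx ι} (hu : u.PosSemidef) {g g' : ι → ℝ}
    (hg : ∀ i, 0 ≤ g i) (hg' : ∀ i, 0 ≤ g' i) (X : Mx ι) (hX : X.IsHermitian) :
    qf (CFC.sqrt (sand (av g g') u))
      (CFC.sqrt (sand (av g g') u) * dg (hh g g') * CFC.sqrt (sand (av g g') u)) X ≤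
      4 / 3 * gapG u g g' := by
  have hb := fun i => abs_le.1 (abs_div_le (abs_df_le hg hg' i))
  have hm := fun i => mul_div_eq (abs_df_le hg hg' i)
  obtain ⟨p1, q1⟩ := Phi_mul hS hu (av_nonneg hg hg') (h := hh g g') fun i => by
    have := (hb i).1; unfold hh; linarith
  obtain ⟨p2, q2⟩ := Phi_mul hS hu (av_nonneg hg hg') (h := fun i => -hh g g' i) fun i => by
    have := (hb i).2; unfold hh; linarith
  have e1 : (fun i => av g g' i * (1 + hh g g' i)) = g := by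
    funext i
    rw [mul_add, hh, hm, av, df]; ring
  have e2 : (fun i => av g g' i * (1 + -hh g g' i)) = g' := by
    funext i
    rw [mul_add, mul_neg, hh, hm, av, df]; ring
  rw [e1] at q1
  rw [e2] at q2
  rw [dg_neg, mul_neg, neg_mul, ← sub_eq_add_neg] at p2 q2
  have := hG ι _ _ X p1 p2 hX
  unfold Jg at this
  rw [add_add_sub_cancel, ← two_smul ℂ, smul_smul, ← q1, ← q2] at this
  norm_num at this
  unfold gapG
  rw [Phi.eq_1 u (av g g')]
  linarith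

theorem sand_lft (F : Mx ι) (g : ι → ℝ) {g' : ι → ℝ} (h : ∀ i, 0 ≤ g' i) :
    sand g (lft F g') = (sw g' F g)ᴴ * sw g' F g := by
  unfold sand lft sw
  rw [conjTranspose_mul, conjTranspose_mul, dg_conjTranspose, dg_conjTranspose, ← dg_sqrt_mul h]
  simp only [mul_assoc]

theorem sand_rgt (F : Mx ι) (g : ι → ℝ) {g' : ι → ℝ} (h : ∀ i, 0 ≤ g' i) :
    sand g (rgt F g') = sw g F g' * (sw g F g')ᴴ := by
  unfold sand rgt sw
  rw [conjTranspose_mul, conjTranspose_mul, dg_conjTranspose, dg_conjTranspose, ← dg_sqrt_mul h]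
  simp only [mul_assoc]

theorem sq_split (F G : Mx ι) (g : ι → ℝ) {g₁ g₂ : ι → ℝ} (h₁ : ∀ i, 0 ≤ g₁ i)
    (h₂ : ∀ i, 0 ≤ g₂ i) :
    CFC.sqrt (sand g (lft F g₁ + rgt G g₂)) * CFC.sqrt (sand g (lft F g₁ + rgt G g₂)) =
      (sw g₁ F g)ᴴ * sw g₁ F g + sw g G g₂ * (sw g G g₂)ᴴ := by
  rw [sqrt_mul (sand_psd _ ((lft_psd _ h₁).add (rgt_psd _ h₂))), sand_add, sand_lft _ _ h₁,
    sand_rgt _ _ h₂]

theorem tl_split (F₀ F₁ F₂ : Mx ι) {φ₀ φ₁ φ₂ g₀ g₁ g₂ : ι → ℝ} (h₀ : ∀ i, |φ₀ i| ≤ g₀ i)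
    (h₁ : ∀ i, |φ₁ i| ≤ g₁ i) (h₂ : ∀ i, |φ₂ i| ≤ g₂ i) :
    tl F₀ F₁ F₂ φ₀ φ₁ φ₂ = trace (sw g₀ F₀ g₁ * dg (fun i => φ₁ i / g₁ i) * sw g₁ F₁ g₂ *
      dg (fun i => φ₂ i / g₂ i) * sw g₂ F₂ g₀ * dg (fun i => φ₀ i / g₀ i)) := by
  rw [tl_eq_trace, dg_split h₀, dg_split h₁, dg_split h₂]
  unfold sw
  simp only [mul_assoc]
  rw [trace_mul_comm]
  simp only [mul_assoc]
  rw [trace_mul_comm]
  simp only [mul_assoc]

omit [DecidableEq ι] in
theorem fr_nonneg (M : Mx ι) : 0 ≤ fr M := by unfold fr; positivity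

omit [DecidableEq ι] in
theorem fr_eq (M : Mx ι) : fr M = (trace (Mᴴ * M)).re := by
  unfold fr trace
  rw [Complex.re_sum, Finset.sum_comm]
  exact Finset.sum_congr rfl fun x _ => (diag_re M x).symm

omit [DecidableEq ι] in
theorem fr_conj (M : Mx ι) : fr Mᴴ = fr M := by
  unfold fr
  rw [Finset.sum_comm]
  simp [conjTranspose_apply]

omit [DecidableEq ι] in
theorem fr_eq' (M : Mx ι) : fr M = (trace (M * Mᴴ)).re := by
  rw [fr_eq, trace_mul_comm]

omit [DecidableEq ι] in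
theorem trace_mul_le (M N : Mx ι) : ‖trace (M * N)‖ ≤ √(fr M) * √(fr N) := by
  have := Real.sum_mul_le_sqrt_mul_sqrt (Finset.univ : Finset (ι × ι))
    (fun p => ‖M p.1 p.2‖) (fun p => ‖N p.2 p.1‖)
  simp only [Fintype.sum_prod_type] at this
  unfold fr
  rw [Finset.sum_comm (f := fun i j => ‖N i j‖ ^ 2)]
  refine le_trans ?_ this
  refine (norm_sum_le _ _).trans (Finset.sum_le_sum fun i _ => ?_)
  rw [diag_apply, Matrix.mul_apply]
  refine (norm_sum_le _ _).trans (Finset.sum_le_sum fun j _ => ?_)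
  rw [norm_mul]

omit [DecidableEq ι] in
theorem fr_mul_le (M N : Mx ι) : fr (M * N) ≤ fr M * fr N := by
  unfold fr
  rw [Finset.sum_comm (f := fun i j => ‖N i j‖ ^ 2), Finset.sum_mul_sum]
  refine Finset.sum_le_sum fun i _ => Finset.sum_le_sum fun j _ => ?_
  refine le_trans ?_ (Finset.sum_mul_sq_le_sq_mul_sq _ (fun k => ‖M i k‖) (fun k => ‖N k j‖))
  refine pow_le_pow_left₀ (norm_nonneg _) ?_ 2
  rw [Matrix.mul_apply]
  refine (norm_sum_le _ _).trans (Finset.sum_le_sum fun k _ => ?_)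
  rw [norm_mul]

theorem fr_mul_left {A P : Mx ι} (h : (Pᴴ * P - Aᴴ * A).PosSemidef) (M : Mx ι) :
    fr (A * M) ≤ fr (P * M) := by
  have := tr_psd_mul h (posSemidef_self_mul_conjTranspose M)
  rw [sub_mul, trace_sub, Complex.sub_re] at this
  have e : ∀ B : Mx ι, fr (B * M) = (trace (Bᴴ * B * (M * Mᴴ))).re := fun B => by
    rw [fr_eq, conjTranspose_mul, mul_assoc, trace_mul_comm]
    simp only [mul_assoc]
  rw [e, e]
  linarith

theorem fr_mul_right {B P : Mx ι} (h : (P * Pᴴ - B * Bᴴ).PosSemidef) (M : Mx ι) :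
    fr (M * B) ≤ fr (M * P) := by
  rw [← fr_conj, ← fr_conj (M * P), conjTranspose_mul, conjTranspose_mul]
  refine fr_mul_left ?_ _
  rwa [conjTranspose_conjTranspose, conjTranspose_conjTranspose]

theorem fr_sw (F : Mx ι) {g g' : ι → ℝ} (h : ∀ i, 0 ≤ g i) (h' : ∀ i, 0 ≤ g' i) :
    fr (sw g F g') = ∑ x, ∑ y, ‖F x y‖ ^ 2 * (g x * g' y) := by
  unfold fr sw dg
  refine Finset.sum_congr rfl fun x _ => Finset.sum_congr rfl fun y _ => ?_
  rw [mul_diagonal, diagonal_mul, norm_mul, norm_mul, mul_pow, mul_pow, Complex.norm_real,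
    Complex.norm_real, Real.norm_eq_abs, Real.norm_eq_abs, sq_abs, sq_abs, Real.sq_sqrt (h x),
    Real.sq_sqrt (h' y)]
  ring

end TriC

open TriC

theorem gapGStmt_of (hG : GapStmt) (hS : SwapStmt) : GapGStmt := by
  intro ι _ _ u g g' hu hg hg'
  have := gap_lower hG hS hu hg hg' 0 isHermitian_zero
  simp only [qf, zero_mul, mul_zero, trace_zero, Complex.zero_re, sub_zero] at this
  linarith

theorem triStmt_of (hG : GapStmt) (hS : SwapStmt) (h0 : Tri0Stmt) : TriStmt := by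
  intro ι _ _ F₀ F₁ F₂ g₀ g₀' g₁ g₁' g₂ g₂' a₀ a₀' a₁ a₁' a₂ a₂'
  have b₀ := av_nonneg a₀ a₀'
  have b₁ := av_nonneg a₁ a₁'
  have b₂ := av_nonneg a₂ a₂'
  rw [tl_split F₀ F₁ F₂ (abs_df_le a₀ a₀') (abs_df_le a₁ a₁') (abs_df_le a₂ a₂')]
  refine (h0 ι _ _ _ _ _ _ (dg (hh g₀ g₀')) (dg (hh g₁ g₁')) (dg (hh g₂ g₂')) _ _ _
    (sqrt_psd _) (sqrt_psd _) (sqrt_psd _) (dg_conjTranspose _) (dg_conjTranspose _)
    (dg_conjTranspose _) (one_sub_psd fun i => abs_div_le (abs_df_le a₀ a₀' i))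
    (one_sub_psd fun i => abs_div_le (abs_df_le a₁ a₁' i))
    (one_sub_psd fun i => abs_div_le (abs_df_le a₂ a₂' i)) ?_ ?_ ?_ ?_ ?_ ?_
    (gap_lower hG hS ((lft_psd F₂ b₂).add (rgt_psd F₀ b₁)) a₀ a₀')
    (gap_lower hG hS ((lft_psd F₀ b₀).add (rgt_psd F₁ b₂)) a₁ a₁')
    (gap_lower hG hS ((lft_psd F₁ b₁).add (rgt_psd F₂ b₀)) a₂ a₂')).trans_eq (by ring)
  · rw [sq_split _ _ _ b₂ b₁, add_sub_cancel_right]; exact posSemidef_conjTranspose_mul_self _
  · rw [sq_split _ _ _ b₂ b₁, add_sub_cancel_left]; exact posSemidef_self_mul_conjTranspose _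
  · rw [sq_split _ _ _ b₀ b₂, add_sub_cancel_left]; exact posSemidef_self_mul_conjTranspose _
  · rw [sq_split _ _ _ b₀ b₂, add_sub_cancel_right]; exact posSemidef_conjTranspose_mul_self _
  · rw [sq_split _ _ _ b₁ b₀, add_sub_cancel_left]; exact posSemidef_self_mul_conjTranspose _
  · rw [sq_split _ _ _ b₁ b₀, add_sub_cancel_right]; exact posSemidef_conjTranspose_mul_self _

theorem sqStmt_of (hG : GapStmt) (hS : SwapStmt) : SqStmt := by
  intro ι _ _ F₀ F₁ F₂ g₀ g₁ g₁' g₂ φ₀ φ₂ s ρ a₁ a₁' c₀ c₂ hs hρ hb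
  have a₀ : ∀ i, 0 ≤ g₀ i := fun i => (abs_nonneg _).trans (c₀ i)
  have a₂ : ∀ i, 0 ≤ g₂ i := fun i => (abs_nonneg _).trans (c₂ i)
  have b₁ := av_nonneg a₁ a₁'
  have hu := (lft_psd F₀ a₀).add (rgt_psd F₁ a₂)
  have hgap := gap_lower hG hS hu a₁ a₁'
  have hg0 := gapGStmt_of hG hS ι _ _ _ hu a₁ a₁'
  have hP := sqrt_psd (sand (av g₁ g₁') (lft F₀ g₀ + rgt F₁ g₂))
  have hPP := sq_split F₀ F₁ (av g₁ g₁') a₀ a₂
  rw [tl_split F₀ F₁ F₂ c₀ (abs_df_le a₁ a₁') c₂, ← fr_sw F₂ a₂ a₀]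
  rw [← fr_sw F₀ a₀ b₁, ← fr_sw F₁ b₁ a₂] at hb
  have hs₀ := one_sub_psd fun i => abs_div_le (c₀ i)
  have hs₂ := one_sub_psd fun i => abs_div_le (c₂ i)
  have hh₀ := dg_conjTranspose fun i => φ₀ i / g₀ i
  have hh₂ := dg_conjTranspose fun i => φ₂ i / g₂ i
  have hh₁ := dg_conjTranspose (hh g₁ g₁')
  change ‖trace (_ * dg (hh g₁ g₁') * _ * _ * _ * _)‖ ≤ _
  generalize CFC.sqrt (sand (av g₁ g₁') (lft F₀ g₀ + rgt F₁ g₂)) = P at *
  generalize gapG (lft F₀ g₀ + rgt F₁ g₂) g₁ g₁' = γ at *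
  generalize sw g₀ F₀ (av g₁ g₁') = A at *
  generalize sw (av g₁ g₁') F₁ g₂ = B at *
  generalize sw g₂ F₂ g₀ = C at *
  generalize dg (hh g₁ g₁') = h at *
  generalize dg (fun i => φ₀ i / g₀ i) = S₀ at *
  generalize dg (fun i => φ₂ i / g₂ i) = S₂ at *
  have hfP : fr P ≤ ρ ^ 2 := by
    rw [fr_eq, hP.1, hPP, trace_add, Complex.add_re, ← fr_eq, ← fr_eq']
    exact hb
  have h1 : fr (A * h * B) ≤ fr (P * h * P) := by
    refine (fr_mul_right (P := P) ?_ _).trans ?_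
    · rw [hP.1, hPP, add_sub_cancel_right]; exact posSemidef_conjTranspose_mul_self _
    · rw [mul_assoc, mul_assoc]
      refine fr_mul_left ?_ _
      rw [hP.1, hPP, add_sub_cancel_left]; exact posSemidef_self_mul_conjTranspose _
  have h2 : fr (S₂ * C * S₀) ≤ fr C := by
    refine (fr_mul_right (P := 1) ?_ _).trans ?_
    · rwa [conjTranspose_one, mul_one, hh₀]
    · rw [mul_one]
      refine (fr_mul_left (P := 1) ?_ _).trans_eq (by rw [one_mul])
      rwa [conjTranspose_one, mul_one, hh₂]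
  have h3 : ‖trace (A * h * B * S₂ * C * S₀)‖ ≤ √(fr (P * h * P)) * √(fr C) := by
    rw [mul_assoc (A * h * B), mul_assoc (A * h * B)]
    refine (trace_mul_le _ _).trans ?_
    gcongr
  refine h3.trans ?_
  have hD : (P * h * P).IsHermitian := by
    unfold IsHermitian
    rw [conjTranspose_mul, conjTranspose_mul, hP.1, hh₁, mul_assoc]
  have hDP : fr (P * h * P) ≤ fr (P * h) * ρ ^ 2 :=
    (fr_mul_le _ _).trans (mul_le_mul_of_nonneg_left hfP (fr_nonneg _))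
  generalize P * h * P = D at *
  have hC := fr_nonneg C
  have hD0 := fr_nonneg D
  rcases hρ.eq_or_lt with rfl | hρ
  · have : fr D = 0 := le_antisymm (by simpa using hDP) hD0
    rw [this, Real.sqrt_zero, zero_mul]
    positivity
  have h4 : (trace (P * D * D)).re ≤ ρ * fr D := by
    refine (Complex.re_le_norm _).trans ((trace_mul_le _ _).trans ?_)
    have : √(fr (P * D)) ≤ ρ * √(fr D) := by
      refine Real.sqrt_le_iff.2 ⟨by positivity, ?_⟩
      rw [mul_pow, Real.sq_sqrt hD0]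
      exact (fr_mul_le _ _).trans (mul_le_mul_of_nonneg_right hfP hD0)
    calc _ ≤ ρ * √(fr D) * √(fr D) := by gcongr
      _ = _ := by rw [mul_assoc, Real.mul_self_sqrt hD0]
  have h5 := hgap ((((1 / (2 * ρ) : ℝ)) : ℂ) • D) (by
    unfold IsHermitian
    rw [conjTranspose_smul, hD, Complex.star_def, Complex.conj_ofReal])
  have h6 : (trace (D * D)).re = fr D := by rw [fr_eq, hD]
  simp only [qf, smul_mul_assoc, mul_smul_comm, trace_smul, smul_eq_mul, Complex.re_ofReal_mul,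
    h6] at h5
  have h7 : fr D ≤ 8 / 3 * ρ * γ := by
    have e : 2 * (1 / (2 * ρ) * fr D) - 2 * (1 / (2 * ρ) * (1 / (2 * ρ) * (ρ * fr D))) =
        fr D / (2 * ρ) := by field_simp; ring
    have : fr D / (2 * ρ) ≤ 4 / 3 * γ := by
      rw [← e]
      refine le_trans ?_ h5
      gcongr
    rw [div_le_iff₀ (by positivity)] at this
    linarith
  have ha := Real.sq_sqrt hD0
  have hc := Real.sq_sqrt hC
  have ha0 := Real.sqrt_nonneg (fr D)
  have hc0 := Real.sqrt_nonneg (fr C)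
  generalize √(fr D) = a at *
  generalize √(fr C) = c at *
  rw [← hc]
  rw [← ha] at h7
  have h8 : a * c ≤ 3 * s / (8 * ρ) * a ^ 2 + 2 * ρ / (3 * s) * c ^ 2 := by
    have : 3 * s / (8 * ρ) * a ^ 2 + 2 * ρ / (3 * s) * c ^ 2 - a * c =
        3 * s / (8 * ρ) * (a - 4 * ρ / (3 * s) * c) ^ 2 := by field_simp; ring
    have h9 : 0 ≤ 3 * s / (8 * ρ) * (a - 4 * ρ / (3 * s) * c) ^ 2 := by positivity
    linarith
  refine h8.trans (add_le_add ?_ ?_)
  · calc _ ≤ 3 * s / (8 * ρ) * (8 / 3 * ρ * γ) := by gcongr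
      _ = _ := by field_simp
  · refine mul_le_mul_of_nonneg_right ?_ (by positivity)
    rw [div_le_div_iff₀ (by positivity) hs]
    nlinarith [mul_pos hρ hs]

end Crest.Agent.R72
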