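import Crest.Agent.R72.Basic

/-!
Row 72: from the linearised theorem on `ZMod L` to the count bound on `ℤ × ℤ`.
-/

set_option maxHeartbeats 400000

namespace Crest.Agent.R72.ZJ

open Matrix Finset
open scoped ENNReal

/-- the symmetrised kernel -/
noncomputable def ker (s : ℝ) (φ : ℤ → ℂ) (i : ℕ) : ℂ :=
  φ i / ((i : ℂ) + s) + φ (-1 - i) / (-1 - (i : ℂ) + s)

theorem exists_phase (z : ℂ) : ∃ ω : ℂ, ‖ω‖ ≤ 1 ∧ ω * z = (‖z‖ : ℂ) := by
  by_cases h : z = 0
  · exact ⟨0, by simp, by simp [h]⟩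
  · refine ⟨(‖z‖ : ℂ) / z, ?_, by field_simp⟩
    rw [norm_div, Complex.norm_real, norm_norm, div_self (norm_ne_zero_iff.2 h)]

theorem lin (n J : ℕ) (s : ℝ) (φ : ℤ → ℂ) :
    ∃ (S : ℝ) (θ : ℕ → ℂ), 0 ≤ S ∧ cnt n J s φ ≤ ENNReal.ofReal (2 * S) ∧ (∀ j, ‖θ j‖ ≤ 1) ∧
      θ 0 = 0 ∧ (∀ j, J ≤ j → θ j = 0) ∧ ∑ j ∈ range J, ‖θ (j + 1) - θ j‖ ≤ 2 * n ∧
      ∑ i ∈ range J, θ i * ker s φ i = S := by
  classical
  by_cases h0 : cnt n J s φ = 0
  · exact ⟨0, 0, le_rfl, by simp [h0], by simp, rfl, fun _ _ => rfl, by simp, by simp⟩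
  have htop : cnt n J s φ ≠ ⊤ := by
    refine ne_top_of_le_ne_top (b := n * ∑ i ∈ range J, ‖ker s φ i‖ₑ) ?_ ?_
    · exact ENNReal.mul_ne_top (by simp) (ENNReal.sum_ne_top.2 fun _ _ => enorm_ne_top)
    · refine iSup_le fun m => iSup_le fun hm => iSup_le fun a => iSup_le fun b =>
        iSup_le fun hab => iSup_le fun _ => ?_
      calc _ ≤ ∑ _j : Fin m, ∑ i ∈ range J, ‖ker s φ i‖ₑ := by
            refine Finset.sum_le_sum fun j _ => (enorm_sum_le _ _).trans ?_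
            refine Finset.sum_le_sum_of_subset fun i hi => ?_
            rw [Finset.mem_Ico] at hi
            exact Finset.mem_range.2 (hi.2.trans_le (hab j).2.2)
        _ = m * ∑ i ∈ range J, ‖ker s φ i‖ₑ := by simp
        _ ≤ _ := by gcongr
  have hlt := ENNReal.half_lt_self h0 htop
  conv_rhs at hlt => unfold cnt
  simp only [lt_iSup_iff] at hlt
  obtain ⟨m, hm, a, b, hab, hd, hlt⟩ := hlt
  choose ω hω using fun j : Fin m => exists_phase (∑ i ∈ Ico (a j) (b j), ker s φ i)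
  refine ⟨∑ j, ‖∑ i ∈ Ico (a j) (b j), ker s φ i‖,
    fun i => ∑ j, if i ∈ Ico (a j) (b j) then ω j else 0, by positivity, ?_, ?_, ?_, ?_, ?_, ?_⟩
  · rw [ENNReal.ofReal_mul (by norm_num), ENNReal.ofReal_sum_of_nonneg fun _ _ => norm_nonneg _]
    simp only [ofReal_norm, ENNReal.ofReal_ofNat]
    have := hlt.le
    rw [ENNReal.div_le_iff_le_mul (by simp) (by simp), mul_comm] at this
    exact this
  · intro i
    beta_reduce
    by_cases h : ∃ j, i ∈ Ico (a j) (b j)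
    · obtain ⟨j, hj⟩ := h
      rw [Finset.sum_eq_single j, if_pos hj]
      · exact (hω j).1
      · intro j' _ hne
        rw [if_neg]
        intro hj'
        rw [Finset.mem_Ico] at hj hj'
        rcases hd j' j hne with h | h <;> omega
      · simp
    · push Not at h
      rw [Finset.sum_eq_zero fun j _ => if_neg (h j)]
      simp
  · refine Finset.sum_eq_zero fun j _ => if_neg ?_
    have := (hab j).1
    rw [Finset.mem_Ico]; omega
  · intro i hi
    refine Finset.sum_eq_zero fun j _ => if_neg ?_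
    have := (hab j).2.2
    rw [Finset.mem_Ico]; omega
  · calc _ ≤ ∑ i ∈ range J, ∑ j : Fin m, ((if i = a j - 1 then (1 : ℝ) else 0) +
          (if i = b j - 1 then (1 : ℝ) else 0)) := by
          refine Finset.sum_le_sum fun i _ => ?_
          rw [← Finset.sum_sub_distrib]
          refine (norm_sum_le _ _).trans (Finset.sum_le_sum fun j _ => ?_)
          have h1 := (hω j).1
          have h2 := hab j
          simp only [Finset.mem_Ico]
          split_ifs <;> first | omega | (simp; try linarith)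
      _ = ∑ j : Fin m, ∑ i ∈ range J, ((if i = a j - 1 then (1 : ℝ) else 0) +
          (if i = b j - 1 then (1 : ℝ) else 0)) := Finset.sum_comm
      _ ≤ ∑ _j : Fin m, (2 : ℝ) := by
          refine Finset.sum_le_sum fun j _ => ?_
          rw [Finset.sum_add_distrib, Finset.sum_ite_eq', Finset.sum_ite_eq']
          split_ifs <;> norm_num
      _ ≤ _ := by
          have : (m : ℝ) ≤ n := by exact_mod_cast hm
          simp; linarith
  · simp only [Finset.sum_mul]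
    rw [Finset.sum_comm]
    push_cast
    refine Finset.sum_congr rfl fun j _ => ?_
    rw [← (hω j).2, Finset.mul_sum]
    simp only [ite_mul, zero_mul]
    rw [← Finset.sum_filter]
    refine Finset.sum_congr ?_ fun _ _ => rfl
    ext i
    have := (hab j).2.2
    simp only [Finset.mem_filter, Finset.mem_range, Finset.mem_Ico]
    omega

theorem sum_beta (J : ℕ) : ∑ i ∈ range J, (2 : ℝ) / ((i + 1) * (i + 2)) ≤ 2 := by
  have : ∑ i ∈ range J, (2 : ℝ) / ((i + 1) * (i + 2)) = 2 - 2 / (J + 1) := by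
    induction J with
    | zero => simp
    | succ J ih =>
      rw [Finset.sum_range_succ, ih]
      push_cast
      field_simp
      ring
  rw [this]
  have : (0 : ℝ) ≤ 2 / (J + 1) := by positivity
  linarith

theorem ker_err {s : ℝ} (h0 : 0 ≤ s) (h1 : s ≤ 1) {i : ℕ} (hi : i ≠ 0) (φ : ℤ → ℂ) :
    ‖ker s φ i - 1 / ((i : ℂ) + 1 / 2) * (φ i - φ (-1 - i))‖ ≤
      2 / ((i + 1) * (i + 2)) * (‖φ i‖ + ‖φ (-1 - i)‖) := by
  have hi' : (1 : ℝ) ≤ i := by exact_mod_cast Nat.one_le_iff_ne_zero.2 hi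
  have e : ker s φ i - 1 / ((i : ℂ) + 1 / 2) * (φ i - φ (-1 - i)) =
      ((1 / (i + s) - 1 / (i + 1 / 2) : ℝ) : ℂ) * φ i +
        ((1 / (i + 1 / 2) - 1 / (i + (1 - s)) : ℝ) : ℂ) * φ (-1 - i) := by
    unfold ker
    push_cast
    rw [show -1 - (i : ℂ) + s = -(i + (1 - s)) by ring, div_neg]
    ring
  have key : ∀ r : ℝ, 0 ≤ r → r ≤ 1 → |1 / (i + r) - 1 / (i + 1 / 2)| ≤ 2 / ((i + 1) * (i + 2)) := by
    intro r hr0 hr1
    have : 1 / (i + r) - 1 / (i + 1 / 2) = (1 / 2 - r) / ((i + r) * (i + 1 / 2)) := by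
      field_simp; ring
    rw [this, abs_div, abs_of_pos (show (0 : ℝ) < (i + r) * (i + 1 / 2) by positivity),
      div_le_div_iff₀ (by positivity) (by positivity)]
    have h2 : |1 / 2 - r| ≤ 1 / 2 := abs_le.2 ⟨by linarith, by linarith⟩
    have h3 : ((i : ℝ) + 1) * (i + 2) ≤ 4 * ((i + r) * (i + 1 / 2)) := by nlinarith
    calc _ ≤ 1 / 2 * (4 * ((i + r) * (i + 1 / 2))) := by gcongr
      _ = _ := by ring
  rw [e, mul_add]
  refine (norm_add_le _ _).trans (add_le_add ?_ ?_)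
  · rw [norm_mul, Complex.norm_real, Real.norm_eq_abs]
    exact mul_le_mul_of_nonneg_right (key s h0 h1) (norm_nonneg _)
  · rw [norm_mul, Complex.norm_real, Real.norm_eq_abs, abs_sub_comm]
    exact mul_le_mul_of_nonneg_right (key (1 - s) (by linarith) (by linarith)) (norm_nonneg _)

/-- the linearised bound with the shifted kernel, in product form -/
theorem prod_bound (hD : DiscStmt) : ∃ C : ℝ, 0 ≤ C ∧ ∀ (L : ℕ) [NeZero L] (J : ℕ) (t s : ℝ)
    (F₀ F₁ H : Mx (ZMod L)) (θ : ZMod L → ZMod L → ℕ → ℂ), 1 ≤ t → 0 ≤ s → s ≤ 1 →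
    (∀ z x j, ‖θ z x j‖ ≤ 1) → (∀ z x, θ z x 0 = 0) → (∀ z x j, J ≤ j → θ z x j = 0) →
    (∀ z x, ∑ j ∈ range J, ‖θ z x (j + 1) - θ z x j‖ ≤ t ^ 2) →
    ‖∑ z, ∑ x, H z x * ∑ j ∈ range J, θ z x j * ker s (Fz F₀ F₁ z x) j‖ ≤
      C * t * N3 F₀ ^ (1 / 3 : ℝ) * N3 F₁ ^ (1 / 3 : ℝ) * N3 H ^ (1 / 3 : ℝ) := by
  obtain ⟨C, hC, h⟩ := hD
  refine ⟨3 * (C + 4), by positivity, ?_⟩
  intro L _ J t s F₀ F₁ H θ ht hs0 hs1 h1 h0 hJ hTV
  have hadd : ∀ F₀ F₁ H : Mx (ZMod L),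
      ‖∑ z, ∑ x, H z x * ∑ j ∈ range J, θ z x j * ker s (Fz F₀ F₁ z x) j‖ ≤
        (C + 4) * (N3 F₀ + N3 F₁ + t ^ 3 * N3 H) := by
    intro F₀ F₁ H
    have hm := h L J t F₀ F₁ H θ ht h1 hJ hTV
    have he : ‖(∑ z, ∑ x, H z x * ∑ j ∈ range J, θ z x j * ker s (Fz F₀ F₁ z x) j) -
        ∑ z, ∑ x, H z x * ∑ j ∈ range J,
          θ z x j / ((j : ℂ) + 1 / 2) * (Fz F₀ F₁ z x j - Fz F₀ F₁ z x (-1 - j))‖ ≤
        4 * (N3 F₀ + N3 F₁ + N3 H) := by
      calc _ ≤ ∑ z, ∑ x, ∑ j ∈ range J, 2 / (((j : ℝ) + 1) * (j + 2)) *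
            (‖H z x‖ * ‖Fz F₀ F₁ z x j‖ + ‖H z x‖ * ‖Fz F₀ F₁ z x (-1 - j)‖) := by
            rw [← Finset.sum_sub_distrib]
            refine (norm_sum_le _ _).trans (Finset.sum_le_sum fun z _ => ?_)
            rw [← Finset.sum_sub_distrib]
            refine (norm_sum_le _ _).trans (Finset.sum_le_sum fun x _ => ?_)
            rw [← mul_sub, ← Finset.sum_sub_distrib, Finset.mul_sum]
            refine (norm_sum_le _ _).trans (Finset.sum_le_sum fun j _ => ?_)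
            by_cases hj : j = 0
            · subst hj
              rw [h0]
              simp only [zero_mul, zero_div, sub_self, mul_zero, norm_zero]
              positivity
            · rw [div_eq_mul_one_div (θ z x j), mul_assoc, ← mul_sub, norm_mul, norm_mul]
              have := ker_err hs0 hs1 hj (Fz F₀ F₁ z x)
              calc _ ≤ ‖H z x‖ * (1 * (2 / (((j : ℝ) + 1) * (j + 2)) *
                    (‖Fz F₀ F₁ z x j‖ + ‖Fz F₀ F₁ z x (-1 - j)‖))) := by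
                    gcongr
                    exact h1 z x j
                _ = _ := by ring
        _ = ∑ j ∈ range J, 2 / (((j : ℝ) + 1) * (j + 2)) *
            (∑ z, ∑ x, ‖H z x‖ * ‖Fz F₀ F₁ z x j‖ +
              ∑ z, ∑ x, ‖H z x‖ * ‖Fz F₀ F₁ z x (-1 - j)‖) := by
            simp only [← Finset.sum_add_distrib, Finset.mul_sum]
            rw [Finset.sum_comm (s := range J)]
            exact Finset.sum_congr rfl fun z _ => Finset.sum_comm
        _ ≤ ∑ j ∈ range J, 2 / (((j : ℝ) + 1) * (j + 2)) * (2 * (N3 F₀ + N3 F₁ + N3 H)) := by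
            refine Finset.sum_le_sum fun j _ => mul_le_mul_of_nonneg_left ?_ (by positivity)
            linarith [sum_Fz_le F₀ F₁ H j, sum_Fz_le F₀ F₁ H (-1 - j)]
        _ ≤ _ := by
            rw [← Finset.sum_mul]
            have := sum_beta J
            have h2 : 0 ≤ 2 * (N3 F₀ + N3 F₁ + N3 H) := by
              linarith [N3_nonneg F₀, N3_nonneg F₁, N3_nonneg H]
            nlinarith
    have h3 : N3 H ≤ t ^ 3 * N3 H := le_mul_of_one_le_left (N3_nonneg H) (one_le_pow₀ ht)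
    have := norm_le_norm_add_norm_sub' (∑ z, ∑ x, H z x * ∑ j ∈ range J,
      θ z x j * ker s (Fz F₀ F₁ z x) j) (∑ z, ∑ x, H z x * ∑ j ∈ range J,
          θ z x j / ((j : ℂ) + 1 / 2) * (Fz F₀ F₁ z x j - Fz F₀ F₁ z x (-1 - j)))
    linarith
  have := amgm_scale (X := ‖∑ z, ∑ x, H z x * ∑ j ∈ range J, θ z x j * ker s (Fz F₀ F₁ z x) j‖)
    (N3_nonneg F₀) (N3_nonneg F₁) (mul_nonneg (by positivity : (0 : ℝ) ≤ t ^ 3) (N3_nonneg H))
    (by positivity : 0 ≤ C + 4) (fun l₀ l₁ l₂ p₀ p₁ p₂ => by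
      have := hadd ((l₀ : ℂ) • F₀) ((l₁ : ℂ) • F₁) ((l₂ : ℂ) • H)
      simp only [N3_smul, Complex.norm_real, Real.norm_of_nonneg p₀.le, Real.norm_of_nonneg p₁.le,
        Real.norm_of_nonneg p₂.le] at this
      have e : ∑ z, ∑ x, ((l₂ : ℂ) • H) z x * ∑ j ∈ range J, θ z x j *
          ker s (Fz ((l₀ : ℂ) • F₀) ((l₁ : ℂ) • F₁) z x) j =
          ((l₀ * l₁ * l₂ : ℝ) : ℂ) *
            ∑ z, ∑ x, H z x * ∑ j ∈ range J, θ z x j * ker s (Fz F₀ F₁ z x) j := by
        simp only [Finset.mul_sum]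
        refine Finset.sum_congr rfl fun z _ => Finset.sum_congr rfl fun x _ =>
          Finset.sum_congr rfl fun j _ => ?_
        simp only [ker, Fz, Matrix.smul_apply, smul_eq_mul]
        push_cast
        ring
      rw [e, norm_mul, Complex.norm_real, Real.norm_of_nonneg (by positivity)] at this
      refine this.trans (le_of_eq ?_)
      ring)
  refine this.trans (le_of_eq ?_)
  rw [Real.mul_rpow (by positivity) (N3_nonneg H), ← Real.rpow_natCast, ← Real.rpow_mul (by linarith)]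
  norm_num
  ring

theorem absorb {X a b c : ℝ} (hX : 0 ≤ X) (ha : 0 ≤ a) (hb : 0 ≤ b) (hc : 0 ≤ c)
    (h : X ≤ c * a ^ (1 / 3 : ℝ) * b ^ (1 / 3 : ℝ) * X ^ (1 / 3 : ℝ)) :
    X ≤ c ^ (3 / 2 : ℝ) * a ^ (1 / 2 : ℝ) * b ^ (1 / 2 : ℝ) := by
  rcases hX.eq_or_lt with h0 | h0
  · rw [← h0]; positivity
  have e : X = X ^ (2 / 3 : ℝ) * X ^ (1 / 3 : ℝ) := by
    rw [← Real.rpow_add h0]; norm_num
  have h1 : X ^ (2 / 3 : ℝ) ≤ c * a ^ (1 / 3 : ℝ) * b ^ (1 / 3 : ℝ) := by
    refine le_of_mul_le_mul_right ?_ (Real.rpow_pos_of_pos h0 (1 / 3 : ℝ))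
    rwa [← e]
  have h2 := Real.rpow_le_rpow (by positivity) h1 (by norm_num : (0 : ℝ) ≤ 3 / 2)
  rw [← Real.rpow_mul hX, Real.mul_rpow (by positivity) (by positivity),
    Real.mul_rpow (by positivity) (by positivity), ← Real.rpow_mul ha, ← Real.rpow_mul hb] at h2
  norm_num at h2 ⊢
  exact h2

theorem ofReal_N3_le {L : ℕ} [NeZero L] (f : ℤ × ℤ → ℂ) (e : ZMod L × ZMod L → ℤ × ℤ)
    (he : Function.Injective e) :
    ENNReal.ofReal (N3 (Matrix.of fun x y => f (e (x, y)))) ≤ ∑' p, ‖f p‖ₑ ^ (3 : ℝ) := by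
  refine le_trans (le_of_eq ?_) (ENNReal.tsum_comp_le_tsum_of_injective he fun p => ‖f p‖ₑ ^ (3 : ℝ))
  rw [tsum_fintype, Fintype.sum_prod_type]
  unfold N3
  rw [ENNReal.ofReal_sum_of_nonneg fun _ _ => by positivity]
  refine Finset.sum_congr rfl fun x _ => ?_
  rw [ENNReal.ofReal_sum_of_nonneg fun _ _ => by positivity]
  refine Finset.sum_congr rfl fun y _ => ?_
  rw [ENNReal.ofReal_pow (norm_nonneg _), ofReal_norm, ← ENNReal.rpow_natCast]
  simp

end Crest.Agent.R72.ZJ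

namespace Crest.Agent.R72

open Matrix Finset ZJ
open scoped ENNReal

theorem zStmt_of (hD : DiscStmt) : ZStmt := by
  classical
  obtain ⟨C, hC, h⟩ := prod_bound hD
  refine ⟨4 * C, by positivity, ?_⟩
  intro n J s f g hn hs0 hs1
  choose S θ hS hcnt h1 h0 hJ hTV hsum using fun p : ℤ × ℤ =>
    lin n J s fun j => f (p.1 + j, p.2) * g (p.1, p.2 + j)
  rw [ENNReal.tsum_eq_iSup_sum]
  refine iSup_le fun Q => ?_
  obtain ⟨N, hN⟩ : ∃ N : ℕ, ∀ p ∈ Q, |p.1| ≤ N ∧ |p.2| ≤ N := by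
    refine ⟨Q.sup fun p => p.1.natAbs + p.2.natAbs, fun p hp => ?_⟩
    have := Finset.le_sup (f := fun p : ℤ × ℤ => p.1.natAbs + p.2.natAbs) hp
    rw [Int.abs_eq_natAbs, Int.abs_eq_natAbs]
    constructor <;> omega
  set L := 2 * (N + J + 1) + 1 with hL
  have : NeZero L := ⟨by omega⟩
  have hv : ∀ a : ℤ, |a| ≤ N + J + 1 → (a : ZMod L).valMinAbs = a := fun a ha => by
    rw [ZMod.valMinAbs_spec]
    rw [abs_le] at ha
    refine ⟨rfl, ?_, ?_⟩ <;> push_cast [hL] <;> omega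
  have hinj : Function.Injective (ZMod.valMinAbs : ZMod L → ℤ) := ZMod.injective_valMinAbs
  set e₀ : ZMod L × ZMod L → ℤ × ℤ := fun xy => ((xy.2 + xy.1).valMinAbs, (-xy.1).valMinAbs)
  set e₁ : ZMod L × ZMod L → ℤ × ℤ := fun yz => ((-yz.2).valMinAbs, (yz.1 + yz.2).valMinAbs)
  have he₀ : Function.Injective e₀ := fun u v huv => by
    have a1 := hinj (Prod.ext_iff.1 huv).1
    have a2 := neg_injective (hinj (Prod.ext_iff.1 huv).2)
    rw [a2] at a1
    exact Prod.ext a2 (add_right_cancel a1)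
  have he₁ : Function.Injective e₁ := fun u v huv => by
    have a1 := neg_injective (hinj (Prod.ext_iff.1 huv).1)
    have a2 := hinj (Prod.ext_iff.1 huv).2
    rw [a1] at a2
    exact Prod.ext (add_right_cancel a2) a1
  set F₀ : Mx (ZMod L) := Matrix.of fun x y => f (e₀ (x, y))
  set F₁ : Mx (ZMod L) := Matrix.of fun y z => g (e₁ (y, z))
  set pt : ZMod L → ZMod L → ℤ × ℤ := fun z x => ((-z).valMinAbs, (-x).valMinAbs) with hpt
  set H : Mx (ZMod L) := Matrix.of fun z x => if pt z x ∈ Q then (√(S (pt z x)) : ℂ) else 0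
  have hptQ : ∀ p ∈ Q, pt (-(p.1 : ZMod L)) (-(p.2 : ZMod L)) = p := fun p hp => by
    have := hN p hp
    simp only [hpt, neg_neg]
    rw [hv _ (by omega), hv _ (by omega)]
  have hsumQ : ∀ {M : Type} [AddCommMonoid M] (G : ZMod L → ZMod L → M),
      (∀ z x, pt z x ∉ Q → G z x = 0) →
      ∑ z, ∑ x, G z x = ∑ p ∈ Q, G (-(p.1 : ZMod L)) (-(p.2 : ZMod L)) := by
    intro M _ G hG
    rw [← Fintype.sum_prod_type']
    symm
    refine Finset.sum_of_injOn (fun p : ℤ × ℤ => (-(p.1 : ZMod L), -(p.2 : ZMod L))) ?_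
      (fun _ _ => by simp) ?_ fun _ _ => rfl
    · intro p hp q hq hpq
      obtain ⟨a1, a2⟩ := Prod.mk.inj hpq
      rw [← hptQ p hp, ← hptQ q hq, a1, a2]
    · intro zx _ hzx
      refine hG _ _ fun hQ => hzx ⟨_, hQ, ?_⟩
      simp [hpt]
  have hX : N3 H = ∑ p ∈ Q, √(S p) ^ 3 := by
    unfold N3
    rw [hsumQ (fun z x => ‖H z x‖ ^ 3) fun z x hzx => by simp [H, hzx]]
    refine Finset.sum_congr rfl fun p hp => ?_
    simp only [H, Matrix.of_apply, hptQ p hp, if_pos hp, Complex.norm_real,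
      Real.norm_of_nonneg (Real.sqrt_nonneg _)]
  have ht : (1 : ℝ) ≤ 2 * √n := by
    have : (1 : ℝ) ≤ √n := Real.one_le_sqrt.2 (by exact_mod_cast hn)
    linarith
  have hb := h L J (2 * √n) s F₀ F₁ H (fun z x => θ (pt z x)) ht hs0 hs1 (fun z x => h1 _)
    (fun z x => h0 _) (fun z x => hJ _) (fun z x => (hTV _).trans (by
      rw [mul_pow, Real.sq_sqrt (by positivity)]
      have : (0 : ℝ) ≤ n := by positivity
      linarith))
  have hΛ : ∑ z, ∑ x, H z x * ∑ j ∈ range J, θ (pt z x) j * ker s (Fz F₀ F₁ z x) j =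
      (N3 H : ℂ) := by
    rw [hsumQ _ fun z x hzx => by simp [H, hzx], hX]
    push_cast
    refine Finset.sum_congr rfl fun p hp => ?_
    have hp' := hN p hp
    have hF : ∀ j : ℤ, |j| ≤ J + 1 → Fz F₀ F₁ (-(p.1 : ZMod L)) (-(p.2 : ZMod L)) j =
        f (p.1 + j, p.2) * g (p.1, p.2 + j) := fun j hj => by
      simp only [Fz, F₀, F₁, Matrix.of_apply, e₀, e₁, neg_neg]
      rw [show (j : ZMod L) - -(p.2 : ZMod L) - -(p.1 : ZMod L) + -(p.2 : ZMod L) =
          ((p.1 + j : ℤ) : ZMod L) by push_cast; ring,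
        show (j : ZMod L) - -(p.2 : ZMod L) - -(p.1 : ZMod L) + -(p.1 : ZMod L) =
          ((p.2 + j : ℤ) : ZMod L) by push_cast; ring]
      have a1 := abs_add_le p.1 j
      have a2 := abs_add_le p.2 j
      rw [hv _ (by omega), hv _ (by omega), hv _ (by omega), hv _ (by omega)]
    have : ∑ j ∈ range J, θ p j * ker s (Fz F₀ F₁ (-(p.1 : ZMod L)) (-(p.2 : ZMod L))) j =
        S p := by
      rw [← hsum p]
      refine Finset.sum_congr rfl fun j hj => ?_
      have hj' := Finset.mem_range.1 hj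
      unfold ker
      rw [hF _ (by rw [abs_le]; constructor <;> omega), hF _ (by rw [abs_le]; constructor <;> omega)]
    simp only [H, Matrix.of_apply, hptQ p hp, if_pos hp]
    rw [this]
    conv_lhs => rw [← Real.mul_self_sqrt (hS p)]
    rw [Real.sqrt_mul_self (Real.sqrt_nonneg _)]
    push_cast
    ring
  rw [hΛ, Complex.norm_real, Real.norm_of_nonneg (N3_nonneg H)] at hb
  have hfin := absorb (N3_nonneg H) (N3_nonneg F₀) (N3_nonneg F₁) (by positivity) hb
  calc _ ≤ ∑ p ∈ Q, ENNReal.ofReal ((2 : ℝ) ^ (3 / 2 : ℝ) * √(S p) ^ 3) := by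
        refine Finset.sum_le_sum fun p _ => ?_
        refine (ENNReal.rpow_le_rpow (hcnt p) (by norm_num)).trans (le_of_eq ?_)
        rw [ENNReal.ofReal_rpow_of_nonneg (by linarith [hS p]) (by norm_num),
          Real.mul_rpow (by norm_num) (hS p), Real.sqrt_eq_rpow, ← Real.rpow_natCast,
          ← Real.rpow_mul (hS p)]
        norm_num
    _ = ENNReal.ofReal ((2 : ℝ) ^ (3 / 2 : ℝ) * N3 H) := by
        rw [← ENNReal.ofReal_sum_of_nonneg fun _ _ => by positivity, ← Finset.mul_sum, hX]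
    _ ≤ ENNReal.ofReal ((4 * C * √n) ^ (3 / 2 : ℝ) * N3 F₀ ^ (1 / 2 : ℝ) * N3 F₁ ^ (1 / 2 : ℝ)) := by
        refine ENNReal.ofReal_le_ofReal ?_
        rw [show 4 * C * √n = 2 * (C * (2 * √n)) by ring, Real.mul_rpow (by norm_num) (by positivity),
          mul_assoc, mul_assoc, ← mul_assoc ((C * (2 * √n)) ^ (3 / 2 : ℝ))]
        gcongr
    _ ≤ _ := by
        have p0 := N3_nonneg F₀
        have p1 := N3_nonneg F₁
        rw [ENNReal.ofReal_mul (by positivity), ENNReal.ofReal_mul (by positivity),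
          ← ENNReal.ofReal_rpow_of_nonneg (by positivity) (by norm_num),
          ← ENNReal.ofReal_rpow_of_nonneg p0 (by norm_num),
          ← ENNReal.ofReal_rpow_of_nonneg p1 (by norm_num)]
        gcongr
        · exact ofReal_N3_le f e₀ he₀
        · exact ofReal_N3_le g e₁ he₁

end Crest.Agent.R72
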