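import Crest.Agent.R72.MatB
import Crest.Agent.R72.Tri0
import Crest.Agent.R72.TriC
import Crest.Agent.R72.Gain
import Crest.Agent.R72.Max
import Crest.Agent.R72.Dec
import Crest.Agent.R72.Long
import Crest.Agent.R72.Short
import Crest.Agent.R72.Disc
import Crest.Agent.R72.ZJ
import Crest.Agent.R72.Count

/-!
Row 72: assembly of the continuous count bound.
-/

namespace Crest.Agent.R72

theorem gapGStmt : GapGStmt := gapGStmt_of gapStmt swapStmt
theorem triStmt : TriStmt := triStmt_of gapStmt swapStmt tri0Stmt
theorem sqStmt : SqStmt := sqStmt_of gapStmt swapStmt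
theorem gainStmt : GainStmt := gainStmt_of convStmt mixStmt trStmt jumpStmt gapGStmt
theorem longStmt : LongStmt := longStmt_of triStmt gapGStmt gainStmt maxStmt decTriStmt
theorem shortStmt : ShortStmt := shortStmt_of sqStmt gapGStmt gainStmt maxStmt decSqStmt
theorem discStmt : DiscStmt := discStmt_of longStmt shortStmt
theorem countStmt : CountStmt := countStmt_of (zStmt_of discStmt)

end Crest.Agent.R72
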