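import Crest.Agent.R72.Defs

/-!
Row 72: basic lemmas about the interface.
-/

set_option maxHeartbeats 400000

namespace Crest.Agent.R72

open Matrix Finset
open scoped MatrixOrder ComplexOrder ENNReal

section Mat

variable {ι : Type} [Fintype ι] [DecidableEq ι]

omit [DecidableEq ι] in
theorem N3_nonneg (F : Mx ι) : 0 ≤ N3 F := by
  unfold N3; positivity

omit [DecidableEq ι] in
theorem N3_conjTranspose (F : Mx ι) : N3 Fᴴ = N3 F := by
  unfold N3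
  rw [Finset.sum_comm]
  simp [conjTranspose_apply]

omit [DecidableEq ι] in
theorem N3_smul (c : ℂ) (F : Mx ι) : N3 (c • F) = ‖c‖ ^ 3 * N3 F := by
  unfold N3
  simp [Finset.mul_sum, mul_pow]

omit [DecidableEq ι] in
theorem N3_mono {F G : Mx ι} (h : ∀ x y, ‖F x y‖ ≤ ‖G x y‖) : N3 F ≤ N3 G := by
  unfold N3
  refine Finset.sum_le_sum fun x _ => Finset.sum_le_sum fun y _ => ?_
  exact pow_le_pow_left₀ (norm_nonneg _) (h x y) 3

omit [Fintype ι] in
theorem dg_conjTranspose (g : ι → ℝ) : (dg g)ᴴ = dg g := by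
  unfold dg
  rw [diagonal_conjTranspose]
  congr 1
  funext i
  simp

theorem dg_mul_dg (g g' : ι → ℝ) : dg g * dg g' = dg fun i => g i * g' i := by
  unfold dg
  rw [diagonal_mul_diagonal]
  simp

omit [Fintype ι] in
theorem dg_psd {g : ι → ℝ} (h : ∀ i, 0 ≤ g i) : (dg g).PosSemidef := by
  unfold dg
  refine PosSemidef.diagonal fun i => ?_
  simpa using h i

theorem dg_sqrt_mul {g : ι → ℝ} (h : ∀ i, 0 ≤ g i) :
    dg (fun i => √(g i)) * dg (fun i => √(g i)) = dg g := by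
  rw [dg_mul_dg]
  congr 1
  funext i
  exact Real.mul_self_sqrt (h i)

omit [Fintype ι] in
theorem dg_av (g g' : ι → ℝ) : dg (av g g') = (1 / 2 : ℂ) • (dg g + dg g') := by
  unfold dg av
  ext i j
  by_cases h : i = j
  · subst h; simp; ring
  · simp [h]

theorem lft_psd (F : Mx ι) {g : ι → ℝ} (h : ∀ i, 0 ≤ g i) : (lft F g).PosSemidef :=
  (dg_psd h).conjTranspose_mul_mul_same F

theorem rgt_psd (F : Mx ι) {g : ι → ℝ} (h : ∀ i, 0 ≤ g i) : (rgt F g).PosSemidef :=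
  (dg_psd h).mul_mul_conjTranspose_same F

theorem sand_psd (g : ι → ℝ) {u : Mx ι} (h : u.PosSemidef) : (sand g u).PosSemidef := by
  have := h.mul_mul_conjTranspose_same (dg fun i => √(g i))
  rwa [dg_conjTranspose] at this

theorem lft_av (F : Mx ι) (g g' : ι → ℝ) :
    lft F (av g g') = (1 / 2 : ℂ) • (lft F g + lft F g') := by
  unfold lft
  rw [dg_av]
  simp [Matrix.mul_add, Matrix.add_mul]

theorem rgt_av (F : Mx ι) (g g' : ι → ℝ) :
    rgt F (av g g') = (1 / 2 : ℂ) • (rgt F g + rgt F g') := by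
  unfold rgt
  rw [dg_av]
  simp [Matrix.mul_add, Matrix.add_mul]

theorem sand_add (g : ι → ℝ) (u u' : Mx ι) : sand g (u + u') = sand g u + sand g u' := by
  unfold sand
  simp [Matrix.mul_add, Matrix.add_mul]

theorem sand_smul (g : ι → ℝ) (c : ℂ) (u : Mx ι) : sand g (c • u) = c • sand g u := by
  unfold sand
  simp

theorem rgt_eq_lft (F : Mx ι) (g : ι → ℝ) : rgt F g = lft Fᴴ g := by
  unfold rgt lft
  rw [conjTranspose_conjTranspose]

theorem lft_eq_rgt (F : Mx ι) (g : ι → ℝ) : lft F g = rgt Fᴴ g := by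
  unfold rgt lft
  rw [conjTranspose_conjTranspose]

theorem sand_apply (g : ι → ℝ) (u : Mx ι) (i j : ι) :
    sand g u i j = (√(g i) : ℂ) * u i j * (√(g j) : ℂ) := by
  unfold sand dg
  simp [diagonal_mul, mul_diagonal]

theorem lft_diag (F : Mx ι) (g : ι → ℝ) (y : ι) :
    lft F g y y = ((∑ x, ‖F x y‖ ^ 2 * g x : ℝ) : ℂ) := by
  unfold lft dg
  simp only [mul_apply, conjTranspose_apply, diagonal_apply, mul_ite, mul_zero,
    Finset.sum_ite_eq', Finset.mem_univ, if_true]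
  push_cast
  refine Finset.sum_congr rfl fun x _ => ?_
  rw [← Complex.conj_mul' (F x y)]
  simp only [RCLike.star_def]
  ring

theorem rgt_diag (F : Mx ι) (g : ι → ℝ) (y : ι) :
    rgt F g y y = ((∑ z, ‖F y z‖ ^ 2 * g z : ℝ) : ℂ) := by
  rw [rgt_eq_lft, lft_diag]
  simp [conjTranspose_apply]

theorem sand_diag {g : ι → ℝ} (hg : ∀ i, 0 ≤ g i) (u : Mx ι) (i : ι) :
    sand g u i i = (g i : ℂ) * u i i := by
  rw [sand_apply]
  have : (√(g i) : ℂ) * (√(g i) : ℂ) = g i := by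
    rw [← Complex.ofReal_mul, Real.mul_self_sqrt (hg i)]
  rw [← this]; ring

theorem tl_eq_trace (F₀ F₁ F₂ : Mx ι) (φ₀ φ₁ φ₂ : ι → ℝ) :
    tl F₀ F₁ F₂ φ₀ φ₁ φ₂ = trace (dg φ₀ * F₀ * dg φ₁ * F₁ * dg φ₂ * F₂) := by
  unfold tl trace dg
  refine Finset.sum_congr rfl fun x _ => ?_
  simp only [diag_apply]
  rw [Finset.sum_comm, mul_apply]
  refine Finset.sum_congr rfl fun z _ => ?_
  rw [mul_diagonal, mul_apply, Finset.sum_mul, Finset.sum_mul]
  refine Finset.sum_congr rfl fun y _ => ?_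
  rw [mul_diagonal, diagonal_mul]
  push_cast
  ring

omit [Fintype ι] [DecidableEq ι] in
theorem av_nonneg {g g' : ι → ℝ} (h : ∀ i, 0 ≤ g i) (h' : ∀ i, 0 ≤ g' i) (i : ι) :
    0 ≤ av g g' i := by
  unfold av
  have := h i; have := h' i
  positivity

/-- convexity of the potential in the matrix variable -/
theorem Phi_conv (hC : ConvStmt) {u u' : Mx ι} (hu : u.PosSemidef) (hu' : u'.PosSemidef)
    (g : ι → ℝ) : Phi ((1 / 2 : ℂ) • (u + u')) g ≤ (Phi u g + Phi u' g) / 2 := by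
  have := hC ι (sand g u) (sand g u') (sand_psd g hu) (sand_psd g hu')
  unfold Jg at this
  unfold Phi
  rw [sand_smul, sand_add]
  linarith

theorem Phi_nonneg (hT : TrStmt) {u : Mx ι} (hu : u.PosSemidef) (g : ι → ℝ) : 0 ≤ Phi u g :=
  (hT ι _ (sand_psd g hu)).1

/-- the potential at level zero -/
theorem Phi_delta (hT : TrStmt) (F₀ F₁ : Mx ι) (p q r : ι) :
    Phi (lft F₀ (fun x => if x = p then 1 else 0) + rgt F₁ (fun x => if x = r then 1 else 0))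
      (fun x => if x = q then 1 else 0) ≤ √2 * (‖F₀ p q‖ ^ 3 + ‖F₁ q r‖ ^ 3) := by
  have hn : ∀ (s : ι) (x : ι), (0 : ℝ) ≤ if x = s then 1 else 0 := fun s x => by
    split_ifs <;> norm_num
  have h := (hT ι _ (sand_psd (fun x => if x = q then (1 : ℝ) else 0)
    ((lft_psd F₀ (hn p)).add (rgt_psd F₁ (hn r))))).2
  refine h.trans ?_
  have ht : (trace (sand (fun x => if x = q then (1 : ℝ) else 0)
      (lft F₀ (fun x => if x = p then 1 else 0) + rgt F₁ (fun x => if x = r then 1 else 0)))).re =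
      ‖F₀ p q‖ ^ 2 + ‖F₁ q r‖ ^ 2 := by
    unfold trace
    simp only [diag_apply, sand_diag (hn q), Matrix.add_apply, lft_diag, rgt_diag]
    rw [Finset.sum_eq_single q]
    · simp [-Complex.ofReal_pow]
    · intro b _ hb; simp [hb]
    · simp
  rw [ht]
  set a := ‖F₀ p q‖
  set b := ‖F₁ q r‖
  have ha : 0 ≤ a := norm_nonneg _
  have hb : 0 ≤ b := norm_nonneg _
  have h2 : (0 : ℝ) ≤ √2 * (a ^ 3 + b ^ 3) := by positivity
  refine (pow_le_pow_iff_left₀ (by positivity) h2 two_ne_zero).1 ?_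
  have e1 : (√(a ^ 2 + b ^ 2) ^ 3) ^ 2 = (a ^ 2 + b ^ 2) ^ 3 := by
    rw [← pow_mul, mul_comm 3 2, pow_mul, Real.sq_sqrt (by positivity)]
  rw [e1, mul_pow, Real.sq_sqrt (by norm_num)]
  have : 0 ≤ (a - b) ^ 2 * (a ^ 4 + 2 * a ^ 3 * b + 2 * a * b ^ 3 + b ^ 4) := by positivity
  nlinarith

end Mat

section Lattice

variable {L : ℕ} [NeZero L]

omit [NeZero L] in
theorem w_nonneg (k : ℕ) (p x : ZMod L) : 0 ≤ w k p x := by
  unfold w
  refine div_nonneg (Finset.sum_nonneg fun j _ => ?_) (by positivity)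
  split_ifs <;> norm_num

omit [NeZero L] in
theorem w_le_one (k : ℕ) (p x : ZMod L) : w k p x ≤ 1 := by
  unfold w
  rw [div_le_one (by positivity)]
  calc _ ≤ ∑ _j ∈ range (2 ^ k), (1 : ℝ) := Finset.sum_le_sum fun j _ => by
        split_ifs <;> norm_num
    _ = _ := by simp

omit [NeZero L] in
theorem w_zero (p : ZMod L) : w 0 p = fun x => if x = p then 1 else 0 := by
  funext x
  unfold w
  rw [pow_zero, Finset.sum_range_one]
  simp

omit [NeZero L] in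
theorem w_succ (k : ℕ) (p : ZMod L) : w (k + 1) p = av (w k p) (w k (p + 2 ^ k)) := by
  funext x
  unfold av w
  rw [pow_succ 2 k, mul_two, Finset.sum_range_add]
  have : ∀ j : ℕ, p + ((2 ^ k + j : ℕ) : ZMod L) = p + 2 ^ k + j := fun j => by
    push_cast; ring
  simp only [this]
  rw [pow_succ]
  field_simp

omit [NeZero L] in
theorem w_le_two_mul (k : ℕ) (p x : ZMod L) : w k p x ≤ 2 * w (k + 1) p x := by
  rw [w_succ]
  unfold av
  have := w_nonneg k (p + 2 ^ k) x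
  linarith

theorem sum_mul_w (k : ℕ) (p : ZMod L) (ψ : ZMod L → ℝ) :
    ∑ y, ψ y * w k p y = (∑ j ∈ range (2 ^ k), ψ (p + (j : ZMod L))) / 2 ^ k := by
  unfold w
  simp only [← mul_div_assoc, Finset.mul_sum]
  rw [← Finset.sum_div, Finset.sum_comm]
  simp

theorem sum_w_left (k : ℕ) (x : ZMod L) : ∑ p, w k p x = 1 := by
  unfold w
  rw [← Finset.sum_div, Finset.sum_comm]
  have : ∀ j : ℕ, ∑ p : ZMod L, (if x = p + (j : ZMod L) then (1 : ℝ) else 0) = 1 := fun j => by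
    simp only [← sub_eq_iff_eq_add]
    simp
  simp [this]

theorem sum_w_right (k : ℕ) (p : ZMod L) : ∑ x, w k p x = 1 := by
  have := sum_mul_w k p fun _ => 1
  simpa using this

omit [NeZero L] in
theorem exists_of_w_ne_zero {k : ℕ} {p x : ZMod L} (h : w k p x ≠ 0) :
    ∃ j : ℕ, j < 2 ^ k ∧ x = p + j := by
  by_contra hc
  push Not at hc
  apply h
  unfold w
  rw [Finset.sum_eq_zero, zero_div]
  intro j hj
  rw [if_neg (hc j (Finset.mem_range.1 hj))]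

omit [NeZero L] in
theorem pw_bx (k : ℕ) (p : ZMod L) : pw k (bx k) p = w k p := by
  funext x
  unfold pw w bx
  rw [pow_succ 2 k, mul_two, Finset.sum_range_add, Finset.sum_div]
  rw [Finset.sum_eq_zero (s := range (2 ^ k)) (f := fun j => if x = p + ((2 ^ k + j : ℕ) : ZMod L)
    then (if 0 ≤ ((2 ^ k + j : ℕ) : ℤ) ∧ ((2 ^ k + j : ℕ) : ℤ) < 2 ^ k then (1 : ℝ) / 2 ^ k else 0)
    else 0), add_zero]
  · refine Finset.sum_congr rfl fun j hj => ?_
    have hj' : (j : ℤ) < 2 ^ k := by exact_mod_cast Finset.mem_range.1 hj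
    split_ifs with h1 h2
    · rfl
    · exact absurd ⟨by positivity, hj'⟩ h2
    · simp
  · intro j _
    have : ¬ (0 ≤ ((2 ^ k + j : ℕ) : ℤ) ∧ ((2 ^ k + j : ℕ) : ℤ) < 2 ^ k) := by
      push_cast
      have : (0 : ℤ) ≤ j := by positivity
      omega
    simp only [this, if_false, ite_self]

omit [NeZero L] in
theorem pw_hr (k : ℕ) (p : ZMod L) : pw k (hr k) p = df (w k p) (w k (p + 2 ^ k)) := by
  funext x
  unfold pw df w hr bx
  rw [pow_succ 2 k, mul_two, Finset.sum_range_add, ← sub_div, sub_div, sub_div, Finset.sum_div,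
    Finset.sum_div, Finset.sum_div, Finset.sum_div, sub_eq_add_neg, ← Finset.sum_neg_distrib]
  congr 1
  · refine Finset.sum_congr rfl fun j hj => ?_
    have hj' : (j : ℤ) < 2 ^ k := by exact_mod_cast Finset.mem_range.1 hj
    have h0 : (0 : ℤ) ≤ j := by positivity
    have h1 : ¬ (0 ≤ (j : ℤ) - 2 ^ k ∧ (j : ℤ) - 2 ^ k < 2 ^ k) := by omega
    rw [if_pos (And.intro h0 hj'), if_neg h1]
    split_ifs <;> simp
  · refine Finset.sum_congr rfl fun j hj => ?_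
    have hj' : (j : ℤ) < 2 ^ k := by exact_mod_cast Finset.mem_range.1 hj
    have h0 : (0 : ℤ) ≤ j := by positivity
    have h1 : ¬ (0 ≤ ((2 ^ k + j : ℕ) : ℤ) ∧ ((2 ^ k + j : ℕ) : ℤ) < 2 ^ k) := by
      push_cast; omega
    have h2 : (0 ≤ ((2 ^ k + j : ℕ) : ℤ) - 2 ^ k ∧ ((2 ^ k + j : ℕ) : ℤ) - 2 ^ k < 2 ^ k) := by
      push_cast; omega
    have h3 : p + ((2 ^ k + j : ℕ) : ZMod L) = p + 2 ^ k + j := by push_cast; ring
    rw [if_neg h1, if_pos h2, h3]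
    split_ifs <;> simp [neg_div]

theorem sum_mul_pw (k : ℕ) (φ : ℤ → ℝ) (p : ZMod L) (ψ : ZMod L → ℂ) :
    ∑ y, ψ y * (pw k φ p y : ℂ) = ∑ a ∈ range (2 ^ (k + 1)), ψ (p + (a : ZMod L)) * (φ a : ℂ) := by
  unfold pw
  push_cast
  simp only [Finset.mul_sum]
  rw [Finset.sum_comm]
  refine Finset.sum_congr rfl fun a _ => ?_
  rw [Finset.sum_eq_single (p + (a : ZMod L))]
  · simp
  · intro b _ hb; simp [hb]
  · simp

theorem tl_pw (k : ℕ) (φ₀ φ₁ φ₂ : ℤ → ℝ) (F₀ F₁ H : Mx (ZMod L)) (p q r : ZMod L) :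
    tl F₀ F₁ H (pw k φ₀ p) (pw k φ₁ q) (pw k φ₂ r) =
      ∑ a ∈ range (2 ^ (k + 1)), ∑ b ∈ range (2 ^ (k + 1)), ∑ c ∈ range (2 ^ (k + 1)),
        ((φ₀ a * φ₁ b * φ₂ c : ℝ) : ℂ) *
          (F₀ (p + a) (q + b) * F₁ (q + b) (r + c) * H (r + c) (p + a)) := by
  unfold tl
  have h1 : ∀ x y, ∑ z, F₀ x y * F₁ y z * H z x *
      ((pw k φ₀ p x * pw k φ₁ q y * pw k φ₂ r z : ℝ) : ℂ) =
      (∑ c ∈ range (2 ^ (k + 1)), F₀ x y * F₁ y (r + c) * H (r + c) x * (φ₂ c : ℂ) *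
        (pw k φ₀ p x : ℂ)) * (pw k φ₁ q y : ℂ) := fun x y => by
    have := sum_mul_pw k φ₂ r fun z => F₀ x y * F₁ y z * H z x
    rw [← Finset.sum_mul, ← this, Finset.sum_mul, Finset.sum_mul]
    refine Finset.sum_congr rfl fun z _ => ?_
    push_cast; ring
  simp only [h1]
  have h2 : ∀ x, ∑ y, (∑ c ∈ range (2 ^ (k + 1)), F₀ x y * F₁ y (r + c) * H (r + c) x *
      (φ₂ c : ℂ) * (pw k φ₀ p x : ℂ)) * (pw k φ₁ q y : ℂ) =
      (∑ b ∈ range (2 ^ (k + 1)), ∑ c ∈ range (2 ^ (k + 1)),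
        F₀ x (q + b) * F₁ (q + b) (r + c) * H (r + c) x * (φ₂ c : ℂ) * (φ₁ b : ℂ)) *
        (pw k φ₀ p x : ℂ) := fun x => by
    rw [sum_mul_pw k φ₁ q fun y => ∑ c ∈ range (2 ^ (k + 1)), F₀ x y * F₁ y (r + c) *
      H (r + c) x * (φ₂ c : ℂ) * (pw k φ₀ p x : ℂ), Finset.sum_mul]
    refine Finset.sum_congr rfl fun b _ => ?_
    rw [Finset.sum_mul, Finset.sum_mul]
    refine Finset.sum_congr rfl fun c _ => ?_
    ring
  simp only [h2]
  rw [sum_mul_pw k φ₀ p fun x => ∑ b ∈ range (2 ^ (k + 1)), ∑ c ∈ range (2 ^ (k + 1)),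
        F₀ x (q + b) * F₁ (q + b) (r + c) * H (r + c) x * (φ₂ c : ℂ) * (φ₁ b : ℂ)]
  refine Finset.sum_congr rfl fun a _ => ?_
  rw [Finset.sum_mul]
  refine Finset.sum_congr rfl fun b _ => ?_
  rw [Finset.sum_mul]
  refine Finset.sum_congr rfl fun c _ => ?_
  push_cast; ring

/-- reindexing of a plane: `(p, q) ↦ (z, x) = (u - p - q + c, p + a)` -/
theorem sum_plane {M : Type*} [AddCommMonoid M] (u a c : ZMod L) (f : ZMod L → ZMod L → M) :
    ∑ p, ∑ q, f (u - p - q + c) (p + a) = ∑ z, ∑ x, f z x := by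
  rw [Finset.sum_comm (f := fun z x => f z x)]
  refine Fintype.sum_equiv (Equiv.addRight a) _ _ fun p => ?_
  refine Fintype.sum_equiv (Equiv.subLeft (u - p + c)) _ _ fun q => ?_
  simp only [Equiv.subLeft_apply, Equiv.coe_addRight]
  congr 1
  ring

/-- The key identity: atoms on a plane. -/
theorem sum_tri (k : ℕ) (φ₀ φ₁ φ₂ : ℤ → ℝ) (F₀ F₁ H : Mx (ZMod L)) (u : ℤ) :
    ∑ z, ∑ x, H z x * tri k φ₀ φ₁ φ₂ (fun j => Fz F₀ F₁ z x (u + j)) =
      ∑ p, ∑ q, tl F₀ F₁ H (pw k φ₀ p) (pw k φ₁ q) (pw k φ₂ ((u : ZMod L) - p - q)) := by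
  simp only [tl_pw]
  unfold tri
  simp only [Finset.mul_sum]
  have hl : ∀ (g : ZMod L → ZMod L → ℕ → ℕ → ℕ → ℂ),
      ∑ z, ∑ x, ∑ a ∈ range (2 ^ (k + 1)), ∑ b ∈ range (2 ^ (k + 1)), ∑ c ∈ range (2 ^ (k + 1)),
        g z x a b c =
      ∑ a ∈ range (2 ^ (k + 1)), ∑ b ∈ range (2 ^ (k + 1)), ∑ c ∈ range (2 ^ (k + 1)),
        ∑ z, ∑ x, g z x a b c := fun g => by
    have : ∀ (s : Finset ℕ) (g : ZMod L → ZMod L → ℕ → ℂ),
        ∑ z, ∑ x, ∑ a ∈ s, g z x a = ∑ a ∈ s, ∑ z, ∑ x, g z x a := fun s g => by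
      rw [Finset.sum_comm (s := s)]
      exact Finset.sum_congr rfl fun z _ => Finset.sum_comm
    rw [this]
    refine Finset.sum_congr rfl fun a _ => ?_
    rw [this]
    refine Finset.sum_congr rfl fun b _ => ?_
    rw [this]
  rw [hl, hl]
  refine Finset.sum_congr rfl fun a _ => Finset.sum_congr rfl fun b _ =>
    Finset.sum_congr rfl fun c _ => ?_
  rw [← sum_plane (u : ZMod L) a c]
  refine Finset.sum_congr rfl fun p _ => Finset.sum_congr rfl fun q _ => ?_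
  unfold Fz
  have : (((u + ((a : ℤ) + b + c) : ℤ)) : ZMod L) - (p + a) - ((u : ZMod L) - p - q + c) = q + b := by
    push_cast; ring
  rw [this]
  ring

theorem sum_Fz_le (F₀ F₁ H : Mx (ZMod L)) (j : ℤ) :
    ∑ z, ∑ x, ‖H z x‖ * ‖Fz F₀ F₁ z x j‖ ≤ N3 F₀ + N3 F₁ + N3 H := by
  have h3 : ∀ a b c : ℝ, 0 ≤ a → 0 ≤ b → 0 ≤ c → a * (b * c) ≤ b ^ 3 + c ^ 3 + a ^ 3 := by
    intro a b c ha hb hc
    have : 0 ≤ (a + b + c) * ((a - b) ^ 2 + (b - c) ^ 2 + (c - a) ^ 2) := by positivity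
    have h : 0 ≤ a * b * c := by positivity
    nlinarith
  calc _ ≤ ∑ z, ∑ x, (‖F₀ x ((j : ZMod L) - x - z)‖ ^ 3 + ‖F₁ ((j : ZMod L) - x - z) z‖ ^ 3 +
        ‖H z x‖ ^ 3) := by
        refine Finset.sum_le_sum fun z _ => Finset.sum_le_sum fun x _ => ?_
        unfold Fz
        rw [norm_mul]
        exact h3 _ _ _ (norm_nonneg _) (norm_nonneg _) (norm_nonneg _)
    _ = _ := by
        simp only [Finset.sum_add_distrib]
        unfold N3
        congr 2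
        · rw [Finset.sum_comm]
          refine Finset.sum_congr rfl fun x _ => ?_
          exact Fintype.sum_equiv (Equiv.subLeft ((j : ZMod L) - x)) _ _ fun z => rfl
        · rw [Finset.sum_comm (f := fun x y => ‖F₁ x y‖ ^ 3)]
          refine Finset.sum_congr rfl fun z _ => ?_
          refine Fintype.sum_equiv (Equiv.subLeft ((j : ZMod L) - z)) _ _ fun x => ?_
          simp only [Equiv.subLeft_apply]
          congr 3
          ring

/-- The trivial bound for kernels with an integrable majorant. -/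
theorem triv_bound (A : ℤ) (F₀ F₁ H : Mx (ZMod L)) (Kr : ZMod L → ZMod L → ℤ → ℂ) (β : ℤ → ℝ)
    (h : ∀ z x j, j ∈ Icc (-A) A → ‖Kr z x j‖ ≤ β j) :
    ‖∑ z, ∑ x, H z x * ev A (Kr z x) (Fz F₀ F₁ z x)‖ ≤
      (∑ j ∈ Icc (-A) A, β j) * (N3 F₀ + N3 F₁ + N3 H) := by
  calc _ ≤ ∑ z, ∑ x, ∑ j ∈ Icc (-A) A, β j * (‖H z x‖ * ‖Fz F₀ F₁ z x j‖) := by
        refine (norm_sum_le _ _).trans (Finset.sum_le_sum fun z _ => ?_)
        refine (norm_sum_le _ _).trans (Finset.sum_le_sum fun x _ => ?_)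
        unfold ev
        rw [Finset.mul_sum]
        refine (norm_sum_le _ _).trans (Finset.sum_le_sum fun j hj => ?_)
        rw [norm_mul, norm_mul]
        have := h z x j hj
        have h1 := norm_nonneg (H z x)
        have h2 := norm_nonneg (Fz F₀ F₁ z x j)
        calc _ = ‖Kr z x j‖ * (‖H z x‖ * ‖Fz F₀ F₁ z x j‖) := by ring
          _ ≤ _ := by gcongr
    _ = ∑ j ∈ Icc (-A) A, β j * ∑ z, ∑ x, ‖H z x‖ * ‖Fz F₀ F₁ z x j‖ := by
        simp only [Finset.mul_sum]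
        rw [Finset.sum_comm (s := Icc (-A) A)]
        exact Finset.sum_congr rfl fun z _ => Finset.sum_comm
    _ ≤ _ := by
        rw [Finset.sum_mul]
        refine Finset.sum_le_sum fun j hj => ?_
        exact mul_le_mul_of_nonneg_left (sum_Fz_le F₀ F₁ H j)
          ((norm_nonneg _).trans (h 0 0 j hj))

theorem gain_symm (F₀ F₁ : Mx (ZMod L)) (k : ℕ) (p q r : ZMod L) :
    gain F₀ F₁ k p q r = gain F₁ᴴ F₀ᴴ k r q p := by
  unfold gain
  rw [← rgt_eq_lft, ← lft_eq_rgt, add_comm (rgt _ _)]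

theorem gain_nonneg (h : GapGStmt) (F₀ F₁ : Mx (ZMod L)) (k : ℕ) (p q r : ZMod L) :
    0 ≤ gain F₀ F₁ k p q r :=
  h _ _ _ _ ((lft_psd _ (w_nonneg _ _)).add (rgt_psd _ (w_nonneg _ _))) (w_nonneg _ _)
    (w_nonneg _ _)

theorem pgain_nonneg (h : GapGStmt) (F₀ F₁ : Mx (ZMod L)) (k : ℕ) (u : ℤ) :
    0 ≤ pgain F₀ F₁ k u :=
  Finset.sum_nonneg fun _ _ => Finset.sum_nonneg fun _ _ => gain_nonneg h _ _ _ _ _ _

/-- rotation of a plane sum -/
theorem sum_plane_rot {M : Type*} [AddCommMonoid M] (u : ZMod L)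
    (f : ZMod L → ZMod L → ZMod L → M) :
    ∑ p, ∑ q, f q (u - p - q) p = ∑ p, ∑ q, f p q (u - p - q) := by
  rw [Finset.sum_comm]
  refine Finset.sum_congr rfl fun q _ => ?_
  refine Fintype.sum_equiv (Equiv.subLeft (u - q)) _ _ fun p => ?_
  simp only [Equiv.subLeft_apply]
  congr 1 <;> ring

theorem sum_plane_rot' {M : Type*} [AddCommMonoid M] (u : ZMod L)
    (f : ZMod L → ZMod L → ZMod L → M) :
    ∑ p, ∑ q, f (u - p - q) p q = ∑ p, ∑ q, f p q (u - p - q) :=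
  (sum_plane_rot u fun p q r => f q r p).trans (sum_plane_rot u f)

theorem sum_plane_swap {M : Type*} [AddCommMonoid M] (u : ZMod L)
    (f : ZMod L → ZMod L → ZMod L → M) :
    ∑ p, ∑ q, f (u - p - q) q p = ∑ p, ∑ q, f p q (u - p - q) := by
  rw [Finset.sum_comm, Finset.sum_comm (f := fun p q => f p q (u - p - q))]
  refine Finset.sum_congr rfl fun q _ => ?_
  refine Fintype.sum_equiv (Equiv.subLeft (u - q)) _ _ fun p => ?_
  simp only [Equiv.subLeft_apply]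
  congr 1 <;> ring

theorem pgain_symm (F₀ F₁ : Mx (ZMod L)) (k : ℕ) (u : ℤ) :
    pgain F₀ F₁ k u = pgain F₁ᴴ F₀ᴴ k u := by
  unfold pgain
  rw [← sum_plane_swap (u : ZMod L) fun p q r => gain F₁ᴴ F₀ᴴ k p q r]
  simp only [gain_symm F₀ F₁]

end Lattice

/-- homogenisation: from the additive form to the product form -/
theorem amgm_scale {X a b c C : ℝ} (ha : 0 ≤ a) (hb : 0 ≤ b) (hc : 0 ≤ c) (hC : 0 ≤ C)
    (h : ∀ l₀ l₁ l₂ : ℝ, 0 < l₀ → 0 < l₁ → 0 < l₂ →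
      l₀ * l₁ * l₂ * X ≤ C * (l₀ ^ 3 * a + l₁ ^ 3 * b + l₂ ^ 3 * c)) :
    X ≤ 3 * C * a ^ (1 / 3 : ℝ) * b ^ (1 / 3 : ℝ) * c ^ (1 / 3 : ℝ) := by
  have key : ∀ ε : ℝ, 0 < ε → X ≤ 3 * C * (a ^ (1 / 3 : ℝ) + ε) * (b ^ (1 / 3 : ℝ) + ε) *
      (c ^ (1 / 3 : ℝ) + ε) := by
    intro ε hε
    have aux : ∀ a : ℝ, 0 ≤ a → 0 < a ^ (1 / 3 : ℝ) + ε ∧
        ((a ^ (1 / 3 : ℝ) + ε)⁻¹) ^ 3 * a ≤ 1 := by
      intro a ha
      have h0 : 0 ≤ a ^ (1 / 3 : ℝ) := Real.rpow_nonneg ha _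
      have h1 : (a ^ (1 / 3 : ℝ)) ^ 3 = a := by
        rw [← Real.rpow_natCast, ← Real.rpow_mul ha]; norm_num
      refine ⟨by positivity, ?_⟩
      rw [inv_pow, inv_mul_le_iff₀ (by positivity), mul_one]
      conv_lhs => rw [← h1]
      exact pow_le_pow_left₀ h0 (by linarith) 3
    obtain ⟨pa, qa⟩ := aux a ha
    obtain ⟨pb, qb⟩ := aux b hb
    obtain ⟨pc, qc⟩ := aux c hc
    have h1 := h _ _ _ (inv_pos.2 pa) (inv_pos.2 pb) (inv_pos.2 pc)
    have h2 : C * (((a ^ (1 / 3 : ℝ) + ε)⁻¹) ^ 3 * a + ((b ^ (1 / 3 : ℝ) + ε)⁻¹) ^ 3 * b +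
        ((c ^ (1 / 3 : ℝ) + ε)⁻¹) ^ 3 * c) ≤ C * 3 := by
      gcongr; linarith
    have h3 := h1.trans h2
    set A := a ^ (1 / 3 : ℝ) + ε
    set B := b ^ (1 / 3 : ℝ) + ε
    set D := c ^ (1 / 3 : ℝ) + ε
    have : X = A * B * D * (A⁻¹ * B⁻¹ * D⁻¹ * X) := by field_simp
    rw [this]
    calc _ ≤ A * B * D * (C * 3) := by gcongr
      _ = _ := by ring
  have hcont : Filter.Tendsto (fun ε : ℝ => 3 * C * (a ^ (1 / 3 : ℝ) + ε) * (b ^ (1 / 3 : ℝ) + ε) *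
      (c ^ (1 / 3 : ℝ) + ε)) (nhdsWithin 0 (Set.Ioi 0))
      (nhds (3 * C * (a ^ (1 / 3 : ℝ) + 0) * (b ^ (1 / 3 : ℝ) + 0) * (c ^ (1 / 3 : ℝ) + 0))) := by
    refine Filter.Tendsto.mono_left ?_ nhdsWithin_le_nhds
    exact Continuous.tendsto (by fun_prop) 0
  simp only [add_zero] at hcont
  exact ge_of_tendsto hcont (eventually_nhdsWithin_of_forall fun ε hε => key ε hε)

end Crest.Agent.R72
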