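import Crest.Agent.R72.Basic

/-!
Row 72: calculus of finitely supported kernels on `ℤ` (Laurent polynomials).
-/

set_option autoImplicit false
set_option maxHeartbeats 400000

namespace Crest.Agent.R72

open Finset LaurentPolynomial

namespace Dec

/-- finitely supported kernels -/
abbrev K : Type := LaurentPolynomial ℂ

/-- support in `[a, b]` -/
def Sp (f : K) (a b : ℤ) : Prop := ∀ j, f.coeff j ≠ 0 → a ≤ j ∧ j ≤ b
/-- `ℓ¹` bound -/
def L1 (f : K) (c : ℝ) : Prop := ∀ s : Finset ℤ, ∑ j ∈ s, ‖f.coeff j‖ ≤ c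
/-- `ℓ^∞` bound -/
def Sup (f : K) (c : ℝ) : Prop := ∀ j, ‖f.coeff j‖ ≤ c

lemma coeff_mul (f g : K) (m : ℤ) :
    (f * g).coeff m = ∑ a ∈ f.coeff.support, f.coeff a * g.coeff (-a + m) :=
  AddMonoidAlgebra.coeff_mul_apply_left f g m

lemma coeff_T_mul (a : ℤ) (g : K) (m : ℤ) : (T a * g).coeff m = g.coeff (-a + m) := by
  rw [coeff_mul, T, AddMonoidAlgebra.coeff_single, Finsupp.support_single _ one_ne_zero]
  simp

lemma Sp.mono {f : K} {a b a' b' : ℤ} (h : Sp f a b) (ha : a' ≤ a) (hb : b ≤ b') : Sp f a' b' :=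
  fun j hj => ⟨ha.trans (h j hj).1, (h j hj).2.trans hb⟩

lemma Sp.mul {f g : K} {a b a' b' : ℤ} (h : Sp f a b) (h' : Sp g a' b') :
    Sp (f * g) (a + a') (b + b') := fun j hj => by
  rw [coeff_mul] at hj
  obtain ⟨i, -, hi⟩ := Finset.exists_ne_zero_of_sum_ne_zero hj
  have := h i (left_ne_zero_of_mul hi)
  have := h' _ (right_ne_zero_of_mul hi)
  constructor <;> omega

lemma Sp.add {f g : K} {a b : ℤ} (h : Sp f a b) (h' : Sp g a b) : Sp (f + g) a b := fun j hj => by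
  by_cases h0 : f.coeff j = 0
  · exact h' j (by simpa [h0] using hj)
  · exact h j h0

lemma Sp.smul {f : K} {a b : ℤ} (h : Sp f a b) (c : ℂ) : Sp (c • f) a b := fun j hj =>
  h j (right_ne_zero_of_mul (by simpa using hj))

lemma Sp.sub {f g : K} {a b : ℤ} (h : Sp f a b) (h' : Sp g a b) : Sp (f - g) a b := by
  have := h.add (h'.smul (-1))
  rwa [neg_smul, one_smul, ← sub_eq_add_neg] at this

lemma Sp.T (a : ℤ) : Sp (T a) a a := fun j hj => by
  rw [T_apply] at hj
  split_ifs at hj with h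
  · omega
  · exact absurd rfl hj

lemma Sp.one : Sp 1 0 0 := Sp.T 0

lemma Sp.pow {f : K} {a b : ℤ} (h : Sp f a b) (n : ℕ) : Sp (f ^ n) (n * a) (n * b) := by
  induction n with
  | zero => simpa using Sp.one
  | succ n ih => rw [pow_succ]; exact (ih.mul h).mono (by push_cast; linarith) (by push_cast; linarith)

lemma Sp.sum {α : Type*} (s : Finset α) {f : α → K} {a b : ℤ} (h : ∀ i ∈ s, Sp (f i) a b) :
    Sp (∑ i ∈ s, f i) a b :=
  Finset.sum_induction f (fun g => Sp g a b) (fun _ _ => Sp.add) (fun _ hj => absurd rfl hj) h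

lemma L1.nonneg {f : K} {c : ℝ} (h : L1 f c) : 0 ≤ c := by simpa using h ∅

lemma Sup.nonneg {f : K} {c : ℝ} (h : Sup f c) : 0 ≤ c := (norm_nonneg _).trans (h 0)

lemma L1.mono {f : K} {c c' : ℝ} (h : L1 f c) (hc : c ≤ c') : L1 f c' := fun s => (h s).trans hc

lemma Sup.mono {f : K} {c c' : ℝ} (h : Sup f c) (hc : c ≤ c') : Sup f c' :=
  fun s => (h s).trans hc

lemma L1.mul {f g : K} {c c' : ℝ} (h : L1 f c) (h' : L1 g c') : L1 (f * g) (c * c') := fun s => by
  calc ∑ j ∈ s, ‖(f * g).coeff j‖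
      ≤ ∑ j ∈ s, ∑ a ∈ f.coeff.support, ‖f.coeff a‖ * ‖g.coeff (-a + j)‖ := by
        refine Finset.sum_le_sum fun j _ => ?_
        rw [coeff_mul]
        exact (norm_sum_le _ _).trans (le_of_eq (by simp))
    _ ≤ ∑ a ∈ f.coeff.support, ‖f.coeff a‖ * c' := by
        rw [Finset.sum_comm]
        refine Finset.sum_le_sum fun a _ => ?_
        rw [← Finset.mul_sum]
        gcongr
        simpa using h' (s.map (Equiv.addLeft (-a)).toEmbedding)
    _ ≤ c * c' := by
        rw [← Finset.sum_mul]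
        exact mul_le_mul_of_nonneg_right (h _) h'.nonneg

lemma L1.mul_sup {f g : K} {c c' : ℝ} (h : L1 f c) (h' : Sup g c') : Sup (f * g) (c * c') :=
  fun j => by
  rw [coeff_mul]
  calc _ ≤ ∑ a ∈ f.coeff.support, ‖f.coeff a‖ * c' := by
        refine (norm_sum_le _ _).trans (Finset.sum_le_sum fun a _ => ?_)
        rw [norm_mul]
        gcongr
        exact h' _
    _ ≤ c * c' := by
        rw [← Finset.sum_mul]
        exact mul_le_mul_of_nonneg_right (h _) h'.nonneg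

lemma L1.add {f g : K} {c c' : ℝ} (h : L1 f c) (h' : L1 g c') : L1 (f + g) (c + c') := fun s => by
  refine le_trans ?_ (add_le_add (h s) (h' s))
  rw [← Finset.sum_add_distrib]
  exact Finset.sum_le_sum fun j _ => norm_add_le _ _

lemma L1.smul {f : K} {c : ℝ} (h : L1 f c) (a : ℂ) : L1 (a • f) (‖a‖ * c) := fun s => by
  simp only [AddMonoidAlgebra.coeff_smul, Finsupp.smul_apply, norm_smul, ← Finset.mul_sum]
  exact mul_le_mul_of_nonneg_left (h s) (norm_nonneg _)

lemma Sup.smul {f : K} {c : ℝ} (h : Sup f c) (a : ℂ) : Sup (a • f) (‖a‖ * c) := fun s => by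
  simp only [AddMonoidAlgebra.coeff_smul, Finsupp.smul_apply, norm_smul]
  exact mul_le_mul_of_nonneg_left (h s) (norm_nonneg _)

lemma L1.sub {f g : K} {c c' : ℝ} (h : L1 f c) (h' : L1 g c') : L1 (f - g) (c + c') := by
  have := h.add (h'.smul (-1))
  rwa [neg_smul, one_smul, ← sub_eq_add_neg, norm_neg, norm_one, one_mul] at this

lemma L1.T (a : ℤ) : L1 (T a) 1 := fun s => by
  simp only [T_apply, apply_ite norm, norm_one, norm_zero, Finset.sum_ite_eq]
  split_ifs <;> norm_num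

lemma L1.one : L1 1 1 := L1.T 0

lemma L1.pow {f : K} (h : L1 f 1) (n : ℕ) : L1 (f ^ n) 1 := by
  induction n with
  | zero => simpa using L1.one
  | succ n ih => rw [pow_succ]; simpa using ih.mul h

lemma L1.sum {α : Type*} (s : Finset α) {f : α → K} {c : α → ℝ} (h : ∀ i ∈ s, L1 (f i) (c i)) :
    L1 (∑ i ∈ s, f i) (∑ i ∈ s, c i) := by
  classical
  induction s using Finset.induction_on with
  | empty => intro s; simp
  | insert a s ha ih =>
    rw [Finset.sum_insert ha, Finset.sum_insert ha]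
    exact (h a (mem_insert_self _ _)).add (ih fun b hb => h b (mem_insert_of_mem hb))

lemma L1.of_Icc {f : K} {a b : ℤ} {c : ℝ} (h : Sp f a b) (hc : ∑ j ∈ Icc a b, ‖f.coeff j‖ ≤ c) :
    L1 f c := fun s => by
  refine le_trans ?_ hc
  rw [← Finset.sum_filter_ne_zero]
  refine Finset.sum_le_sum_of_subset_of_nonneg (fun j hj => ?_) fun _ _ _ => norm_nonneg _
  exact mem_Icc.2 (h j (norm_ne_zero_iff.1 (mem_filter.1 hj).2))

lemma Sup.l1 {f : K} {a b : ℤ} {c n : ℝ} (h' : Sup f c) (h : Sp f a b) (hab : a ≤ b + 1)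
    (hn : ((b + 1 - a : ℤ) : ℝ) ≤ n) : L1 f (n * c) := by
  refine L1.of_Icc h ((Finset.sum_le_card_nsmul _ _ c fun j _ => h' j).trans ?_)
  rw [nsmul_eq_mul]
  refine mul_le_mul_of_nonneg_right (le_trans (le_of_eq ?_) hn) h'.nonneg
  rw [← Int.card_Icc_of_le a b hab, Int.cast_natCast]

/-- the pairing with a function -/
noncomputable def pr (Φ : ℤ → ℂ) : K →ₗ[ℂ] ℂ :=
  Finsupp.linearCombination ℂ Φ ∘ₗ (AddMonoidAlgebra.coeffLinearEquiv ℂ).toLinearMap

lemma pr_def (Φ : ℤ → ℂ) (f : K) : pr Φ f = f.coeff.sum fun j c => c * Φ j := rfl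

lemma pr_single (Φ : ℤ → ℂ) (a : ℤ) (c : ℂ) : pr Φ (AddMonoidAlgebra.single a c) = c * Φ a := by
  rw [pr_def, AddMonoidAlgebra.coeff_single, Finsupp.sum_single_index (zero_mul _)]

lemma pr_T (Φ : ℤ → ℂ) (a : ℤ) : pr Φ (T a) = Φ a := by rw [T, pr_single, one_mul]

lemma pr_Icc (Φ : ℤ → ℂ) {f : K} {a b : ℤ} (h : Sp f a b) :
    pr Φ f = ∑ j ∈ Icc a b, f.coeff j * Φ j := by
  rw [pr_def]
  exact Finsupp.sum_of_support_subset _
    (fun j hj => mem_Icc.2 (h j (Finsupp.mem_support_iff.1 hj))) _ fun _ _ => zero_mul _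

lemma pr_mul (Φ : ℤ → ℂ) (f g : K) : pr Φ (f * g) = pr (fun u => pr (fun j => Φ (u + j)) g) f := by
  induction f using AddMonoidAlgebra.induction_linear with
  | zero => simp
  | add x y hx hy => rw [add_mul, map_add, map_add, hx, hy]
  | single a c =>
    rw [pr_single]
    induction g using AddMonoidAlgebra.induction_linear with
    | zero => simp
    | add x y hx hy => rw [mul_add, map_add, map_add, hx, hy, mul_add]
    | single b d => rw [AddMonoidAlgebra.single_mul_single, pr_single, pr_single, mul_assoc]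

lemma pr_sub (Φ Ψ : ℤ → ℂ) (f : K) : pr (fun j => Φ j - Ψ j) f = pr Φ f - pr Ψ f := by
  simp only [pr_def, mul_sub, Finsupp.sum_sub]

lemma pr_add (Φ Ψ : ℤ → ℂ) (f : K) : pr (fun j => Φ j + Ψ j) f = pr Φ f + pr Ψ f := by
  simp only [pr_def, mul_add, Finsupp.sum_add]

lemma pr_const_mul (c : ℂ) (Φ : ℤ → ℂ) (f : K) : pr (fun j => c * Φ j) f = c * pr Φ f := by
  simp only [pr_def, Finsupp.mul_sum, mul_left_comm]

lemma pr_diff (Φ : ℤ → ℂ) (f : K) :
    pr Φ ((1 - T 1) * f) = pr (fun j => Φ j - Φ (j + 1)) f := by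
  rw [mul_comm, pr_mul]
  congr 2
  funext u
  rw [map_sub, ← T_zero, pr_T, pr_T, add_zero]

lemma coeff_diff (f : K) (j : ℤ) : ((1 - T 1) * f).coeff j = f.coeff j - f.coeff (j - 1) := by
  rw [sub_mul, one_mul, AddMonoidAlgebra.coeff_sub, Finsupp.sub_apply, coeff_T_mul]
  congr 2; ring

/-- a kernel from a function -/
noncomputable def mk (a b : ℤ) (e : ℤ → ℂ) : K := ∑ j ∈ Icc a b, e j • T j

lemma coeff_mk (a b : ℤ) (e : ℤ → ℂ) (j : ℤ) :
    (mk a b e).coeff j = if j ∈ Icc a b then e j else 0 := by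
  simp [mk, AddMonoidAlgebra.coeff_sum, Finsupp.finsetSum_apply]

lemma sp_mk (a b : ℤ) (e : ℤ → ℂ) : Sp (mk a b e) a b := fun j hj => by
  rw [coeff_mk] at hj
  split_ifs at hj with h
  · exact mem_Icc.1 h
  · exact absurd rfl hj

lemma coeff_mk' {A : ℤ} {e : ℤ → ℂ} (h : ∀ j, A < |j| → e j = 0) (j : ℤ) :
    (mk (-A) A e).coeff j = e j := by
  rw [coeff_mk]
  split_ifs with hj
  · rfl
  · rw [mem_Icc, ← abs_le, not_le] at hj
    exact (h j hj).symm

/-- division by `1 - z` -/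
lemma exists_div {f : K} {a b : ℤ} {c : ℝ} (h : Sp f a b) (h0 : pr (fun _ => 1) f = 0)
    (h1 : L1 f c) : ∃ E : K, f = (1 - T 1) * E ∧ Sp E a b ∧ Sup E c := by
  have hE : ∀ j, (mk a b fun j => ∑ i ∈ Icc a j, f.coeff i).coeff j = ∑ i ∈ Icc a j, f.coeff i := by
    intro j
    rw [coeff_mk]
    split_ifs with hj
    · rfl
    · rw [mem_Icc, not_and_or, not_le, not_le] at hj
      rcases hj with hj | hj
      · rw [Icc_eq_empty_of_lt hj, Finset.sum_empty]
      · rw [pr_Icc _ (h.mono le_rfl hj.le)] at h0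
        simpa using h0.symm
  refine ⟨mk a b fun j => ∑ i ∈ Icc a j, f.coeff i, ?_, sp_mk _ _ _, fun j => ?_⟩
  · ext j
    rw [coeff_diff, hE, hE]
    by_cases hj : a ≤ j
    · have : Icc a j = insert j (Icc a (j - 1)) := by
        ext i; simp only [mem_Icc, mem_insert]; omega
      rw [this, Finset.sum_insert (by simp)]
      ring
    · rw [Icc_eq_empty (by omega), Icc_eq_empty (by omega)]
      by_contra hne
      exact hj (h j (by simpa using hne)).1
  · rw [hE]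
    exact (norm_sum_le _ _).trans (h1 _)

lemma sup_of_diff {f : K} {a b : ℤ} {c : ℝ} (h : Sp f a b) (h1 : L1 ((1 - T 1) * f) c) :
    Sup f c := by
  obtain ⟨E, hE, -, hs⟩ := exists_div (((Sp.one.mono le_rfl zero_le_one).sub
    ((Sp.T 1).mono zero_le_one le_rfl)).mul h) (by rw [pr_diff]; simp [pr_def]) h1
  have hne : (1 - T 1 : K) ≠ 0 := fun h => by
    have := congrArg (fun g : K => g.coeff 0) h
    rw [← T_zero] at this
    simp [AddMonoidAlgebra.coeff_sub] at this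
  rwa [mul_left_cancel₀ hne hE]

/-- the geometric sum -/
noncomputable def S (n : ℕ) : K := ∑ a ∈ range n, T a

lemma diff_S (n : ℕ) : (1 - T 1) * S n = 1 - T n := by
  induction n with
  | zero => simp [S]
  | succ n ih =>
    rw [S, Finset.sum_range_succ, ← S, mul_add, ih, Nat.cast_succ, T_add]
    ring

lemma S_add (n m : ℕ) : S (n + m) = S n + T n * S m := by
  simp only [S, Finset.sum_range_add, Finset.mul_sum, Nat.cast_add, T_add]

/-- the box kernel -/
noncomputable def B (i : ℕ) : K := ((2 : ℂ) ^ i)⁻¹ • S (2 ^ i)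
/-- the Haar kernel -/
noncomputable def H (i : ℕ) : K := (2⁻¹ : ℂ) • (B i * (1 - T (2 ^ i)))

lemma B_zero : B 0 = 1 := by simp [B, S]

lemma B_succ (i : ℕ) : B (i + 1) = (2⁻¹ : ℂ) • (B i * (1 + T (2 ^ i))) := by
  rw [B, B, pow_succ 2 i, pow_succ 2 i, mul_two (2 ^ i : ℕ), S_add, mul_inv, smul_mul_assoc,
    smul_smul, mul_comm (2⁻¹ : ℂ)]
  push_cast
  congr 1
  ring

lemma diff_B (i : ℕ) : 1 - T (2 ^ i) = ((2 : ℂ) ^ i) • ((1 - T 1) * B i) := by
  rw [B, mul_smul_comm, smul_smul, mul_inv_cancel₀ (pow_ne_zero _ two_ne_zero), one_smul, diff_S]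
  push_cast; rfl

lemma sp_B (i : ℕ) : Sp (B i) 0 (2 ^ i) := by
  have h : Sp (S (2 ^ i)) 0 (2 ^ i) := by
    refine Sp.sum (range (2 ^ i)) fun a ha => (Sp.T (a : ℤ)).mono (Int.natCast_nonneg a) ?_
    exact_mod_cast (mem_range.1 ha).le
  exact h.smul _

lemma l1_B (i : ℕ) : L1 (B i) 1 :=
  ((L1.sum (range (2 ^ i)) fun a _ => L1.T a).smul _).mono (by simp)

lemma sp_one_sub {d : ℤ} (hd : 0 ≤ d) : Sp (1 - T d) 0 d :=
  (Sp.one.mono le_rfl hd).sub ((Sp.T d).mono hd le_rfl)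

lemma l1_one_sub (d : ℤ) : L1 (1 - T d) 2 := (L1.one.sub (L1.T d)).mono (by norm_num)

lemma sp_H (i : ℕ) : Sp (H i) 0 (2 * 2 ^ i) :=
  (((sp_B i).mul (sp_one_sub (by positivity))).mono (by simp) (by linarith)).smul _

lemma l1_H (i : ℕ) : L1 (H i) 1 := (((l1_B i).mul (l1_one_sub _)).smul _).mono (by norm_num)

/-- the kernel of a profile -/
noncomputable def P (i : ℕ) (φ : ℤ → ℝ) : K := ∑ a ∈ range (2 ^ (i + 1)), (φ a : ℂ) • T a

lemma tri_eq (i : ℕ) (φ₀ φ₁ φ₂ : ℤ → ℝ) (Φ : ℤ → ℂ) :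
    tri i φ₀ φ₁ φ₂ Φ = pr Φ (P i φ₀ * P i φ₁ * P i φ₂) := by
  simp only [tri, P]
  rw [mul_assoc, Finset.sum_mul, map_sum]
  refine Finset.sum_congr rfl fun a _ => ?_
  rw [Finset.sum_mul, Finset.mul_sum, map_sum]
  refine Finset.sum_congr rfl fun b _ => ?_
  rw [Finset.mul_sum, Finset.mul_sum, map_sum]
  refine Finset.sum_congr rfl fun c _ => ?_
  simp only [smul_mul_assoc, mul_smul_comm, ← T_add, map_smul, pr_T, smul_eq_mul, add_assoc]
  push_cast; ring

lemma P_bx (i : ℕ) : P i (bx i) = B i := by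
  rw [P, B, S, pow_succ 2 i, mul_two, Finset.sum_range_add, Finset.smul_sum,
    Finset.sum_eq_zero (s := range (2 ^ i)) (f := fun x => _ • T ((2 ^ i + x : ℕ) : ℤ)), add_zero]
  · refine Finset.sum_congr rfl fun j hj => ?_
    have hj' : (j : ℤ) < 2 ^ i := by exact_mod_cast mem_range.1 hj
    rw [bx, if_pos ⟨by positivity, hj'⟩]
    simp
  · intro j _
    rw [bx, if_neg (by push_cast; omega)]
    simp

lemma P_hr (i : ℕ) : P i (hr i) = H i := by
  rw [P, H, mul_sub, mul_one, mul_comm (B i), B, S, pow_succ 2 i, mul_two, Finset.sum_range_add,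
    Finset.smul_sum, Finset.mul_sum, smul_sub, Finset.smul_sum, Finset.smul_sum, sub_eq_add_neg,
    ← Finset.sum_neg_distrib]
  congr 1
  · refine Finset.sum_congr rfl fun j hj => ?_
    have hj' : (j : ℤ) < 2 ^ i := by exact_mod_cast mem_range.1 hj
    rw [hr, bx, bx, if_pos ⟨by positivity, hj'⟩, if_neg (by omega), smul_smul]
    congr 1; push_cast; ring
  · refine Finset.sum_congr rfl fun j hj => ?_
    have hj' : (j : ℤ) < 2 ^ i := by exact_mod_cast mem_range.1 hj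
    rw [hr, bx, bx, if_neg (by push_cast; omega), if_pos (by push_cast; omega), mul_smul_comm,
      smul_smul, ← neg_smul, ← T_add]
    congr 1
    push_cast; ring

/-- a polynomial in `T d` -/
noncomputable def pol (c : List ℕ) (d : ℤ) : K :=
  ∑ n ∈ range c.length, ((c.getD n 0 : ℕ) : ℂ) • T d ^ n

lemma sp_pol (c : List ℕ) {d : ℤ} (hd : 0 ≤ d) : Sp (pol c d) 0 (c.length * d) :=
  Sp.sum _ fun n hn => (((Sp.T d).pow n).mono (by positivity) (by
    have := (mem_range.1 hn).le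
    gcongr)).smul _

lemma l1_pol (c : List ℕ) (d : ℤ) : L1 (pol c d) (∑ n ∈ range c.length, (c.getD n 0 : ℕ)) :=
  (L1.sum _ fun n _ => ((L1.T d).pow n).smul _).mono (by simp)

lemma tele (e : K) (b : ℕ → K) (k : ℕ) :
    e * b 0 = ∑ i ∈ range k, e * (b i - b (i + 1)) + e * b k := by
  rw [← Finset.mul_sum, Finset.sum_range_sub']; ring

lemma T_inv (d : ℤ) (m n : ℕ) : (T (-d) : K) ^ m = T (-d) ^ (m + n) * T d ^ n := by
  rw [T_pow, T_pow, T_pow, ← T_add]; congr 1; push_cast; ring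

end Dec

end Crest.Agent.R72
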