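import Mathlib
import Crest.Prelude.Def_TriangularHilbert
import Crest.Prelude.Def_DyadicTriangular

/-!
Row 72 (triangular Hilbert transform): interface.

The potential is `f3 Y = tr Y^{3/2}` for `Y = g^{1/2} (F₀ᴴ w F₀ + F₁ w' F₁ᴴ) g^{1/2}`, where
`w, g, w'` are windows on the three axes.
-/

set_option maxHeartbeats 400000

namespace Crest.Agent.R72

open Matrix Finset
open scoped MatrixOrder ComplexOrder ENNReal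

/-- square complex matrices -/
abbrev Mx (ι : Type) : Type := Matrix ι ι ℂ

section Mat

variable {ι : Type} [Fintype ι] [DecidableEq ι]

/-- `tr Y^{3/2}` -/
noncomputable def f3 (Y : Mx ι) : ℝ := (trace (CFC.sqrt Y ^ 3)).re
/-- real diagonal matrix -/
noncomputable def dg (g : ι → ℝ) : Mx ι := diagonal fun i => (g i : ℂ)
/-- `g^{1/2} u g^{1/2}` -/
noncomputable def sand (g : ι → ℝ) (u : Mx ι) : Mx ι :=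
  dg (fun i => √(g i)) * u * dg (fun i => √(g i))
/-- the potential -/
noncomputable def Phi (u : Mx ι) (g : ι → ℝ) : ℝ := f3 (sand g u)
/-- Jensen gap of `f3` -/
noncomputable def Jg (a a' : Mx ι) : ℝ := (f3 a + f3 a') / 2 - f3 ((1 / 2 : ℂ) • (a + a'))
/-- average of two windows -/
noncomputable def av (g g' : ι → ℝ) : ι → ℝ := fun i => (g i + g' i) / 2
/-- half difference of two windows -/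
noncomputable def df (g g' : ι → ℝ) : ι → ℝ := fun i => (g i - g' i) / 2
/-- Jensen gap of the potential in the middle window -/
noncomputable def gapG (u : Mx ι) (g g' : ι → ℝ) : ℝ := (Phi u g + Phi u g') / 2 - Phi u (av g g')
/-- `Fᴴ g F` -/
noncomputable def lft (F : Mx ι) (g : ι → ℝ) : Mx ι := Fᴴ * dg g * F
/-- `F g Fᴴ` -/
noncomputable def rgt (F : Mx ι) (g : ι → ℝ) : Mx ι := F * dg g * Fᴴ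
/-- quadratic functional whose supremum over Hermitian `X` is `∑ |Δ_{kl}|² / (p_k + p_l)` -/
noncomputable def qf (P Δ X : Mx ι) : ℝ := 2 * (trace (X * Δ)).re - 2 * (trace (P * X * X)).re
/-- cube of the `ℓ³` norm of the entries -/
noncomputable def N3 (F : Mx ι) : ℝ := ∑ x, ∑ y, ‖F x y‖ ^ 3
/-- the trilinear form with weights on the three axes -/
noncomputable def tl (F₀ F₁ F₂ : Mx ι) (φ₀ φ₁ φ₂ : ι → ℝ) : ℂ :=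
  ∑ x, ∑ y, ∑ z, F₀ x y * F₁ y z * F₂ z x * ((φ₀ x * φ₁ y * φ₂ z : ℝ) : ℂ)

end Mat

/-! ### Matrix statements -/

def ConvStmt : Prop :=
  ∀ (ι : Type) [Fintype ι] [DecidableEq ι] (a a' : Mx ι), a.PosSemidef → a'.PosSemidef →
    0 ≤ Jg a a'

def GapStmt : Prop :=
  ∀ (ι : Type) [Fintype ι] [DecidableEq ι] (Y Δ X : Mx ι), (Y + Δ).PosSemidef →
    (Y - Δ).PosSemidef → X.IsHermitian →
    3 / 4 * qf (CFC.sqrt Y) Δ X ≤ Jg (Y + Δ) (Y - Δ)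

def MixStmt : Prop :=
  ∀ (ι : Type) [Fintype ι] [DecidableEq ι] (a a' b b' : Mx ι), a.PosSemidef → a'.PosSemidef →
    b.PosSemidef → b'.PosSemidef →
    f3 (a' + b) + f3 (a + b') - f3 (a + b) - f3 (a' + b') ≤ 11 * (Jg a a' + Jg b b')

def TrStmt : Prop :=
  ∀ (ι : Type) [Fintype ι] [DecidableEq ι] (Y : Mx ι), Y.PosSemidef →
    0 ≤ f3 Y ∧ f3 Y ≤ √((trace Y).re) ^ 3

def JumpStmt : Prop :=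
  ∀ (ι : Type) [Fintype ι] [DecidableEq ι] (u C C' : Mx ι), u.PosSemidef →
    f3 (u + C * Cᴴ) - 3 * ∑ z, ∑ x, ‖C' z x - C z x‖ * √(((u + C * Cᴴ) z z).re) *
      √(((Cᴴ * C) x x).re) ≤ f3 (u + C' * C'ᴴ)

def SwapStmt : Prop :=
  ∀ (ι : Type) [Fintype ι] [DecidableEq ι] (T : Mx ι), f3 (Tᴴ * T) = f3 (T * Tᴴ)

def Tri0Stmt : Prop :=
  ∀ (ι : Type) [Fintype ι] [DecidableEq ι] (A B C P₀ P₁ P₂ h₀ h₁ h₂ : Mx ι) (ν₀ ν₁ ν₂ : ℝ),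
    P₀.PosSemidef → P₁.PosSemidef → P₂.PosSemidef →
    h₀.IsHermitian → h₁.IsHermitian → h₂.IsHermitian →
    (1 - h₀ * h₀).PosSemidef → (1 - h₁ * h₁).PosSemidef → (1 - h₂ * h₂).PosSemidef →
    (P₀ * P₀ - A * Aᴴ).PosSemidef → (P₀ * P₀ - Cᴴ * C).PosSemidef →
    (P₁ * P₁ - Aᴴ * A).PosSemidef → (P₁ * P₁ - B * Bᴴ).PosSemidef →
    (P₂ * P₂ - Bᴴ * B).PosSemidef → (P₂ * P₂ - C * Cᴴ).PosSemidef →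
    (∀ X : Mx ι, X.IsHermitian → qf P₀ (P₀ * h₀ * P₀) X ≤ ν₀) →
    (∀ X : Mx ι, X.IsHermitian → qf P₁ (P₁ * h₁ * P₁) X ≤ ν₁) →
    (∀ X : Mx ι, X.IsHermitian → qf P₂ (P₂ * h₂ * P₂) X ≤ ν₂) →
    ‖trace (A * h₁ * B * h₂ * C * h₀)‖ ≤ 2 * (ν₀ + ν₁ + ν₂)

def GapGStmt : Prop :=
  ∀ (ι : Type) [Fintype ι] [DecidableEq ι] (u : Mx ι) (g g' : ι → ℝ), u.PosSemidef →
    (∀ i, 0 ≤ g i) → (∀ i, 0 ≤ g' i) → 0 ≤ gapG u g g'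

/-- three Haar-type weights are controlled by the three gaps -/
def TriStmt : Prop :=
  ∀ (ι : Type) [Fintype ι] [DecidableEq ι] (F₀ F₁ F₂ : Mx ι) (g₀ g₀' g₁ g₁' g₂ g₂' : ι → ℝ),
    (∀ i, 0 ≤ g₀ i) → (∀ i, 0 ≤ g₀' i) → (∀ i, 0 ≤ g₁ i) → (∀ i, 0 ≤ g₁' i) →
    (∀ i, 0 ≤ g₂ i) → (∀ i, 0 ≤ g₂' i) →
    ‖tl F₀ F₁ F₂ (df g₀ g₀') (df g₁ g₁') (df g₂ g₂')‖ ≤
      8 / 3 * (gapG (lft F₂ (av g₂ g₂') + rgt F₀ (av g₁ g₁')) g₀ g₀' +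
        gapG (lft F₀ (av g₀ g₀') + rgt F₁ (av g₂ g₂')) g₁ g₁' +
        gapG (lft F₁ (av g₁ g₁') + rgt F₂ (av g₀ g₀')) g₂ g₂')

/-- one Haar-type weight: square function form -/
def SqStmt : Prop :=
  ∀ (ι : Type) [Fintype ι] [DecidableEq ι] (F₀ F₁ F₂ : Mx ι) (g₀ g₁ g₁' g₂ φ₀ φ₂ : ι → ℝ)
    (s ρ : ℝ), (∀ i, 0 ≤ g₁ i) → (∀ i, 0 ≤ g₁' i) → (∀ i, |φ₀ i| ≤ g₀ i) → (∀ i, |φ₂ i| ≤ g₂ i) →
    0 < s → 0 ≤ ρ →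
    (∑ x, ∑ y, ‖F₀ x y‖ ^ 2 * (g₀ x * av g₁ g₁' y)) +
      (∑ y, ∑ z, ‖F₁ y z‖ ^ 2 * (av g₁ g₁' y * g₂ z)) ≤ ρ ^ 2 →
    ‖tl F₀ F₁ F₂ φ₀ (df g₁ g₁') φ₂‖ ≤
      s * gapG (lft F₀ g₀ + rgt F₁ g₂) g₁ g₁' + ρ / s * ∑ z, ∑ x, ‖F₂ z x‖ ^ 2 * (g₂ z * g₀ x)

/-! ### Windows on `ZMod L` -/

section Lattice

variable {L : ℕ} [NeZero L]

/-- box window of length `2^k` starting at `p` (mass one) -/
noncomputable def w (k : ℕ) (p x : ZMod L) : ℝ :=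
  (∑ j ∈ range (2 ^ k), if x = p + (j : ZMod L) then (1 : ℝ) else 0) / 2 ^ k

/-- gain at the triple `(p, q, r)` for the step from level `k + 1` to level `k` -/
noncomputable def gain (F₀ F₁ : Mx (ZMod L)) (k : ℕ) (p q r : ZMod L) : ℝ :=
  gapG (lft F₀ (w (k + 1) p) + rgt F₁ (w (k + 1) r)) (w k q) (w k (q + 2 ^ k))

/-- total gain on the plane `p + q + r = u` -/
noncomputable def pgain (F₀ F₁ : Mx (ZMod L)) (k : ℕ) (u : ℤ) : ℝ :=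
  ∑ p, ∑ q, gain F₀ F₁ k p q ((u : ZMod L) - p - q)

/-- the integrand of the triangular form at the point `(z, x)` -/
def Fz (F₀ F₁ : Mx (ZMod L)) (z x : ZMod L) (j : ℤ) : ℂ :=
  F₀ x ((j : ZMod L) - x - z) * F₁ ((j : ZMod L) - x - z) z

/-- a profile on `[0, 2^(k+1))` placed at `p` -/
noncomputable def pw (k : ℕ) (φ : ℤ → ℝ) (p x : ZMod L) : ℝ :=
  ∑ a ∈ range (2 ^ (k + 1)), if x = p + (a : ZMod L) then φ a else 0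

end Lattice

/-- box profile of length `2^k` -/
noncomputable def bx (k : ℕ) (j : ℤ) : ℝ := if 0 ≤ j ∧ j < 2 ^ k then 1 / 2 ^ k else 0
/-- Haar profile of length `2^(k+1)` -/
noncomputable def hr (k : ℕ) (j : ℤ) : ℝ := (bx k j - bx k (j - 2 ^ k)) / 2
/-- the convolution of three profiles tested against `Φ` -/
noncomputable def tri (k : ℕ) (φ₀ φ₁ φ₂ : ℤ → ℝ) (Φ : ℤ → ℂ) : ℂ :=
  ∑ a ∈ range (2 ^ (k + 1)), ∑ b ∈ range (2 ^ (k + 1)), ∑ c ∈ range (2 ^ (k + 1)),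
    ((φ₀ a * φ₁ b * φ₂ c : ℝ) : ℂ) * Φ (a + b + c)
/-- a kernel supported in `[-A, A]` tested against `Φ` -/
noncomputable def ev (A : ℤ) (e Φ : ℤ → ℂ) : ℂ := ∑ j ∈ Icc (-A) A, e j * Φ j

/-- Total gains on a fat plane, with a right kernel that changes with the level. -/
def GainStmt : Prop :=
  ∃ C : ℝ, 0 ≤ C ∧ ∀ (L : ℕ) [NeZero L] (α K : ℕ) (F₀ : Mx (ZMod L)) (F₁ : ℕ → Mx (ZMod L)) (B : ℝ)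
    (m₀ m₁ m₂ : ZMod L → ZMod L → ℝ), (∀ i, N3 (F₁ i) ≤ B) →
    (∀ z x, 0 ≤ m₀ z x) → (∀ z x, 0 ≤ m₁ z x) → (∀ z x, 0 ≤ m₂ z x) →
    (∀ (k : ℕ) z x (t : ℤ), |t| ≤ 2 ^ (α + 3) * 2 ^ k →
      ∑ x', ‖F₀ x' z‖ ^ 2 * w k (-z - x + (t : ZMod L)) x' ≤ m₀ z x ^ 2) →
    (∀ (i k : ℕ) z x (t : ℤ), |t| ≤ 2 ^ k →
      ∑ x', ‖F₁ i z x'‖ ^ 2 * w k (x + (t : ZMod L)) x' ≤ m₁ z x ^ 2) →
    (∀ (i k : ℕ) z x (t : ℤ), |t| ≤ 2 ^ k →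
      ∑ z', ‖F₁ i z' x‖ ^ 2 * w k (z + (t : ZMod L)) z' ≤ m₂ z x ^ 2) →
    ∑ k ∈ range K, (∑ u ∈ Icc (-(2 ^ (α + k) : ℤ)) (2 ^ (α + k)), pgain F₀ (F₁ k) k u) /
        2 ^ (α + k) ≤
      C * (α + 1) * (N3 F₀ + B + ∑ z, ∑ x,
        (∑ i ∈ range K, ‖F₁ (i + 1) z x - F₁ i z x‖) * ((m₀ z x + m₁ z x) * m₂ z x))

/-- Maximal inequality on `ZMod L` (for squares, in `ℓ³`). -/
def MaxStmt : Prop :=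
  ∃ C : ℝ, 0 ≤ C ∧ ∀ (L : ℕ) [NeZero L] (φ : ZMod L → ℝ), (∀ x, 0 ≤ φ x) →
    ∃ m : ZMod L → ℝ, (∀ x, 0 ≤ m x) ∧
      (∀ (R k : ℕ) (x : ZMod L) (t : ℤ), |t| ≤ R * 2 ^ k →
        ∑ y, φ y ^ 2 * w k (x + (t : ZMod L)) y ≤ (R + 1) * m x ^ 2) ∧
      ∑ x, m x ^ 3 ≤ C * ∑ x, φ x ^ 3

/-- Mean zero kernels of bounded variation are superpositions of one-Haar atoms. -/
def DecSqStmt : Prop :=
  ∃ C : ℝ, 0 ≤ C ∧ ∀ (k : ℕ) (e : ℤ → ℂ) (s v : ℝ), (∀ j, 16 * 2 ^ k < |j| → e j = 0) →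
    ∑ j ∈ Icc (-(16 * 2 ^ k : ℤ)) (16 * 2 ^ k), e j = 0 → (∀ j, ‖e j‖ ≤ s) →
    ∑ j ∈ Icc (-(17 * 2 ^ k : ℤ)) (17 * 2 ^ k), ‖e (j + 1) - e j‖ ≤ v →
    ∃ γ : ℕ → ℤ → ℂ, (∀ i u, ‖γ i u‖ ≤ C * s) ∧
      (∀ i, i ≤ k → ∑ u ∈ Icc (-(32 * 2 ^ k : ℤ)) (32 * 2 ^ k), ‖γ i u‖ ≤ C * 2 ^ i * v) ∧
      ∀ Φ : ℤ → ℂ, ev (16 * 2 ^ k) e Φ = ∑ i ∈ range (k + 1),
        ∑ u ∈ Icc (-(32 * 2 ^ k : ℤ)) (32 * 2 ^ k),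
          γ i u * tri i (bx i) (hr i) (bx i) fun j => Φ (u + j)

/-- single scale Lipschitz kernel with three vanishing moments -/
def IsTau (k : ℕ) (s : ℝ) (τ : ℤ → ℂ) : Prop :=
  (∀ j, 16 * 2 ^ k < |j| → τ j = 0) ∧
    (∀ m, m ≤ 2 → ∑ j ∈ Icc (-(16 * 2 ^ k : ℤ)) (16 * 2 ^ k), (j : ℂ) ^ m * τ j = 0) ∧
    (∀ j, ‖τ j‖ ≤ s) ∧ ∀ j, ‖τ (j + 1) - τ j‖ ≤ s / 2 ^ k

/-- Such kernels are superpositions of triple-Haar atoms. -/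
def DecTriStmt : Prop :=
  ∃ C : ℝ, 0 ≤ C ∧ ∀ (k : ℕ) (τ : ℤ → ℂ) (s : ℝ), IsTau k s τ →
    ∃ (ρ : ℤ → ℂ) (γ : ℕ → ℤ → ℂ),
      ∑ u ∈ Icc (-(32 * 2 ^ k : ℤ)) (32 * 2 ^ k), ‖ρ u‖ ≤ C * s ∧
      (∀ i u, i ≤ k → ‖γ i u‖ ≤ C * 2 ^ i * s / 2 ^ k) ∧
      ∀ Φ : ℤ → ℂ, ev (16 * 2 ^ k) τ Φ = ev (32 * 2 ^ k) ρ Φ + ∑ i ∈ range (k + 1),
        ∑ u ∈ Icc (-(32 * 2 ^ k : ℤ)) (32 * 2 ^ k),
          γ i u * tri i (hr i) (hr i) (hr i) fun j => Φ (u + j)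

/-- Long variation. -/
def LongStmt : Prop :=
  ∃ C : ℝ, 0 ≤ C ∧ ∀ (L : ℕ) [NeZero L] (K : ℕ) (t : ℝ) (F₀ F₁ H : Mx (ZMod L))
    (η : ℕ → ZMod L → ZMod L → ℂ) (τ : ℕ → ℤ → ℂ), 1 ≤ t → (∀ k z x, ‖η k z x‖ ≤ 1) →
    (∀ z x, ∑ k ∈ range K, ‖η (k + 1) z x - η k z x‖ ≤ t ^ 2) →
    (∀ k, IsTau k (8 / 2 ^ k) (τ k)) →
    ‖∑ k ∈ range K, ∑ z, ∑ x, H z x * η k z x * ev (16 * 2 ^ k) (τ k) (Fz F₀ F₁ z x)‖ ≤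
      C * (N3 F₀ + N3 F₁ + t ^ 3 * N3 H)

/-- Short variation. -/
def ShortStmt : Prop :=
  ∃ C : ℝ, 0 ≤ C ∧ ∀ (L : ℕ) [NeZero L] (K : ℕ) (t : ℝ) (F₀ F₁ H : Mx (ZMod L))
    (e : ℕ → ZMod L → ZMod L → ℤ → ℂ) (v : ℕ → ZMod L → ZMod L → ℝ), 1 ≤ t →
    (∀ k z x j, 16 * 2 ^ k < |j| → e k z x j = 0) →
    (∀ k z x, ∑ j ∈ Icc (-(16 * 2 ^ k : ℤ)) (16 * 2 ^ k), e k z x j = 0) →
    (∀ k z x j, ‖e k z x j‖ ≤ 16 / 2 ^ k) →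
    (∀ k z x, ∑ j ∈ Icc (-(17 * 2 ^ k : ℤ)) (17 * 2 ^ k), ‖e k z x (j + 1) - e k z x j‖ ≤
      v k z x / 2 ^ k) →
    (∀ z x, ∑ k ∈ range K, v k z x ≤ t ^ 2) →
    ‖∑ k ∈ range K, ∑ z, ∑ x, H z x * ev (16 * 2 ^ k) (e k z x) (Fz F₀ F₁ z x)‖ ≤
      C * (N3 F₀ + N3 F₁ + t ^ 3 * N3 H)

/-- The discrete linearised theorem. -/
def DiscStmt : Prop :=
  ∃ C : ℝ, 0 ≤ C ∧ ∀ (L : ℕ) [NeZero L] (J : ℕ) (t : ℝ) (F₀ F₁ H : Mx (ZMod L))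
    (θ : ZMod L → ZMod L → ℕ → ℂ), 1 ≤ t → (∀ z x j, ‖θ z x j‖ ≤ 1) →
    (∀ z x j, J ≤ j → θ z x j = 0) →
    (∀ z x, ∑ j ∈ range J, ‖θ z x (j + 1) - θ z x j‖ ≤ t ^ 2) →
    ‖∑ z, ∑ x, H z x * ∑ j ∈ range J,
        θ z x j / ((j : ℂ) + 1 / 2) * (Fz F₀ F₁ z x j - Fz F₀ F₁ z x (-1 - j))‖ ≤
      C * (N3 F₀ + N3 F₁ + t ^ 3 * N3 H)

/-- discrete annulus count with kernel `1 / (j + s)` and integer radii in `[1, J]` -/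
noncomputable def cnt (n J : ℕ) (s : ℝ) (φ : ℤ → ℂ) : ℝ≥0∞ :=
  ⨆ (m : ℕ) (_ : m ≤ n) (a : Fin m → ℕ) (b : Fin m → ℕ)
    (_ : ∀ j, 1 ≤ a j ∧ a j < b j ∧ b j ≤ J) (_ : ∀ i j, i ≠ j → b i ≤ a j ∨ b j ≤ a i),
    ∑ j, ‖∑ i ∈ Ico (a j) (b j),
      (φ i / ((i : ℂ) + s) + φ (-1 - i) / (-1 - (i : ℂ) + s))‖ₑ

/-- The discrete theorem on `ℤ × ℤ`. -/
def ZStmt : Prop :=
  ∃ C : ℝ, 0 ≤ C ∧ ∀ (n J : ℕ) (s : ℝ) (f g : ℤ × ℤ → ℂ), 1 ≤ n → 0 ≤ s → s ≤ 1 →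
    ∑' p : ℤ × ℤ, cnt n J s (fun j => f (p.1 + j, p.2) * g (p.1, p.2 + j)) ^ (3 / 2 : ℝ) ≤
      ENNReal.ofReal (C * √n) ^ (3 / 2 : ℝ) * (∑' p, ‖f p‖ₑ ^ (3 : ℝ)) ^ (1 / 2 : ℝ) *
        (∑' p, ‖g p‖ₑ ^ (3 : ℝ)) ^ (1 / 2 : ℝ)

/-- The continuous count bound (without the logarithm), with measurability. -/
def CountStmt : Prop :=
  ∃ C : ℝ, 0 ≤ C ∧ ∀ n : ℕ, 1 ≤ n → ∀ F G : ℝ × ℝ → ℂ,
    MeasureTheory.MemLp F 3 MeasureTheory.volume → MeasureTheory.MemLp G 3 MeasureTheory.volume →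
    AEMeasurable (Crest.AnalysisR.annulusCount n F G) MeasureTheory.volume ∧
      ∫⁻ z, Crest.AnalysisR.annulusCount n F G z ^ (3 / 2 : ℝ) ≤
        (ENNReal.ofReal (C * √n) * MeasureTheory.eLpNorm F 3 MeasureTheory.volume *
          MeasureTheory.eLpNorm G 3 MeasureTheory.volume) ^ (3 / 2 : ℝ)

/-- The statement S0095. -/
def VarStmt : Prop :=
  ∀ r : ℝ, 2 < r → ∃ C : ℝ, ∀ F G : ℝ × ℝ → ℂ,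
    MeasureTheory.MemLp F 3 MeasureTheory.volume → MeasureTheory.MemLp G 3 MeasureTheory.volume →
      (∫⁻ z, Crest.AnalysisR.annularVariation r F G z ^ (3 / 2 : ℝ)) ^ (2 / 3 : ℝ) ≤
        ENNReal.ofReal C * MeasureTheory.eLpNorm F 3 MeasureTheory.volume *
          MeasureTheory.eLpNorm G 3 MeasureTheory.volume

/-! ### The dyadic model -/

/-- dyadic window of level `k` and index `n` on `Fin (2^m)` -/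
noncomputable def dw {m : ℕ} (k n : ℕ) (x : Fin (2 ^ m)) : ℝ :=
  if (x : ℕ) / 2 ^ k = n then 1 / 2 ^ k else 0

/-- Haar weight on the dyadic window of level `k + 1` and index `n` -/
noncomputable def dh {m : ℕ} (k n : ℕ) : Fin (2 ^ m) → ℝ := df (dw k (2 * n)) (dw k (2 * n + 1))

/-- The discrete dyadic theorem. -/
def DyStmt : Prop :=
  ∀ (m : ℕ) (F₀ F₁ F₂ : Mx (Fin (2 ^ m))),
    ∑ k ∈ range m, ∑ n₀ ∈ range (2 ^ (m - k - 1)), ∑ n₁ ∈ range (2 ^ (m - k - 1)),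
      4 ^ (k + 1) * ‖tl F₀ F₁ F₂ (dh k n₀) (dh k n₁) (dh k (n₀ ^^^ n₁))‖ ≤
      8 * (N3 F₀ + N3 F₁ + N3 F₂)

/-- The statement S0097. -/
def Dy97Stmt : Prop :=
  ∀ (F₀ F₁ F₂ : ℝ × ℝ → ℝ), Measurable F₀ → Measurable F₁ → Measurable F₂ →
    (∃ M : ℝ, ∀ z, abs (F₀ z) ≤ M ∧ abs (F₁ z) ≤ M ∧ abs (F₂ z) ≤ M) →
    HasCompactSupport F₀ → HasCompactSupport F₁ → HasCompactSupport F₂ →
    ∀ 𝓘 : Finset (ℤ × ℕ × ℕ),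
    ∑ i ∈ 𝓘, abs (Crest.AnalysisR.TriangularDyadic.localForm i.1 i.2.1 i.2.2 (i.2.1 ^^^ i.2.2)
        F₀ F₁ F₂) ≤
      40 * (∫ z in Set.Ici 0 ×ˢ Set.Ici 0, abs (F₀ z) ^ 3) ^ (1 / 3 : ℝ) *
        (∫ z in Set.Ici 0 ×ˢ Set.Ici 0, abs (F₁ z) ^ 3) ^ (1 / 3 : ℝ) *
        (∫ z in Set.Ici 0 ×ˢ Set.Ici 0, abs (F₂ z) ^ 3) ^ (1 / 3 : ℝ)

end Crest.Agent.R72
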