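import Crest.Agent.R72.Basic

/-! Row 72: the discrete dyadic theorem. -/

set_option autoImplicit false

namespace Crest.Agent.R72

open Matrix Finset
open scoped MatrixOrder ComplexOrder

namespace Dy

lemma sum_two (f : ℕ → ℝ) (N : ℕ) :
    ∑ n ∈ range (2 * N), f n = ∑ n ∈ range N, (f (2 * n) + f (2 * n + 1)) := by
  induction N with
  | zero => simp
  | succ N ih => rw [mul_add, mul_one, sum_range_succ, sum_range_succ, ih, sum_range_succ]; ring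

lemma xor_reindex (f : ℕ → ℝ) {j c : ℕ} (hc : c < 2 ^ j) :
    ∑ n ∈ range (2 ^ j), f (c ^^^ n) = ∑ n ∈ range (2 ^ j), f n :=
  sum_nbij' (c ^^^ ·) (c ^^^ ·) (fun _ hn => mem_range.2 (Nat.xor_lt_two_pow hc (mem_range.1 hn)))
    (fun _ hn => mem_range.2 (Nat.xor_lt_two_pow hc (mem_range.1 hn)))
    (fun _ _ => Nat.xor_xor_cancel_left _ _) (fun _ _ => Nat.xor_xor_cancel_left _ _)
    fun _ _ => rfl

lemma rot₁ (T : ℕ → ℕ → ℕ → ℝ) (j : ℕ) :
    ∑ a ∈ range (2 ^ j), ∑ b ∈ range (2 ^ j), T (a ^^^ b) a b =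
      ∑ a ∈ range (2 ^ j), ∑ b ∈ range (2 ^ j), T a b (a ^^^ b) := by
  rw [sum_comm (f := fun a b => T a b (a ^^^ b))]
  refine sum_congr rfl fun a ha => ?_
  rw [← xor_reindex (fun b => T b a (b ^^^ a)) (mem_range.1 ha)]
  refine sum_congr rfl fun b _ => ?_
  rw [Nat.xor_comm (a ^^^ b), Nat.xor_xor_cancel_left]

lemma rot₂ (T : ℕ → ℕ → ℕ → ℝ) (j : ℕ) :
    ∑ a ∈ range (2 ^ j), ∑ b ∈ range (2 ^ j), T b (a ^^^ b) a =
      ∑ a ∈ range (2 ^ j), ∑ b ∈ range (2 ^ j), T a b (a ^^^ b) :=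
  (rot₁ (fun a b c => T c a b) j).trans (rot₁ T j)

lemma x00 (a b : ℕ) : (2 * a) ^^^ (2 * b) = 2 * (a ^^^ b) := by
  simpa [Nat.bit] using Nat.xor_bit false a false b
lemma x01 (a b : ℕ) : (2 * a) ^^^ (2 * b + 1) = 2 * (a ^^^ b) + 1 := by
  simpa [Nat.bit] using Nat.xor_bit false a true b
lemma x10 (a b : ℕ) : (2 * a + 1) ^^^ (2 * b) = 2 * (a ^^^ b) + 1 := by
  simpa [Nat.bit] using Nat.xor_bit true a false b
lemma x11 (a b : ℕ) : (2 * a + 1) ^^^ (2 * b + 1) = 2 * (a ^^^ b) := by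
  simpa [Nat.bit] using Nat.xor_bit true a true b

variable {m : ℕ}

lemma dw_nonneg (k n : ℕ) (x : Fin (2 ^ m)) : 0 ≤ dw k n x := by
  unfold dw; split_ifs <;> positivity

lemma dw_succ (k n : ℕ) : (dw (k + 1) n : Fin (2 ^ m) → ℝ) = av (dw k (2 * n)) (dw k (2 * n + 1)) := by
  funext x
  unfold av dw
  rw [pow_succ 2 k, ← Nat.div_div_eq_div_mul]
  split_ifs <;> first | omega | ring

/-- potential of a triple -/
noncomputable def ph (F G : Mx (Fin (2 ^ m))) (k a b : ℕ) : ℝ :=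
  Phi (lft F (dw k a) + rgt G (dw k (a ^^^ b))) (dw k b)

/-- gap of a triple -/
noncomputable def gp (F G : Mx (Fin (2 ^ m))) (k a b c : ℕ) : ℝ :=
  gapG (lft F (dw (k + 1) a) + rgt G (dw (k + 1) c)) (dw k (2 * b)) (dw k (2 * b + 1))

lemma psd (F G : Mx (Fin (2 ^ m))) (k a c : ℕ) : (lft F (dw k a) + rgt G (dw k c)).PosSemidef :=
  (lft_psd _ (dw_nonneg _ _)).add (rgt_psd _ (dw_nonneg _ _))

lemma step (hC : ConvStmt) (F G : Mx (Fin (2 ^ m))) (k a b : ℕ) :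
    4 * (ph F G (k + 1) a b + gp F G k a b (a ^^^ b)) ≤
      (ph F G k (2 * a) (2 * b) + ph F G k (2 * a) (2 * b + 1)) +
        (ph F G k (2 * a + 1) (2 * b) + ph F G k (2 * a + 1) (2 * b + 1)) := by
  have e1 : lft F (dw (k + 1) a) + rgt G (dw (k + 1) (a ^^^ b)) = (1 / 2 : ℂ) •
      ((lft F (dw k (2 * a)) + rgt G (dw k (2 * (a ^^^ b)))) +
        (lft F (dw k (2 * a + 1)) + rgt G (dw k (2 * (a ^^^ b) + 1)))) := by
    rw [dw_succ, dw_succ, lft_av, rgt_av, ← smul_add]; congr 1; abel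
  have e2 : lft F (dw (k + 1) a) + rgt G (dw (k + 1) (a ^^^ b)) = (1 / 2 : ℂ) •
      ((lft F (dw k (2 * a)) + rgt G (dw k (2 * (a ^^^ b) + 1))) +
        (lft F (dw k (2 * a + 1)) + rgt G (dw k (2 * (a ^^^ b))))) := by
    rw [e1]; congr 1; abel
  have h1 := Phi_conv hC (psd F G k (2 * a) (2 * (a ^^^ b)))
    (psd F G k (2 * a + 1) (2 * (a ^^^ b) + 1)) (dw k (2 * b))
  have h2 := Phi_conv hC (psd F G k (2 * a) (2 * (a ^^^ b) + 1))
    (psd F G k (2 * a + 1) (2 * (a ^^^ b))) (dw k (2 * b + 1))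
  rw [← e1] at h1
  rw [← e2] at h2
  simp only [ph, gp, gapG, x00, x01, x10, x11, ← dw_succ]
  linarith

lemma ph_zero (hT : TrStmt) (F G : Mx (Fin (2 ^ m))) :
    ∑ a ∈ range (2 ^ m), ∑ b ∈ range (2 ^ m), ph F G 0 a b ≤ √2 * (N3 F + N3 G) := by
  set e : Mx (Fin (2 ^ m)) → ℕ → ℕ → ℝ := fun F a b =>
    if h : a < 2 ^ m ∧ b < 2 ^ m then ‖F ⟨a, h.1⟩ ⟨b, h.2⟩‖ ^ 3 else 0 with he
  have hN : ∀ F, N3 F = ∑ a ∈ range (2 ^ m), ∑ b ∈ range (2 ^ m), e F a b := fun F => by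
    simp only [sum_range, N3, he, Fin.is_lt, and_self, dif_pos]
  have hd : ∀ a (ha : a < 2 ^ m), (dw 0 a : Fin (2 ^ m) → ℝ) =
      fun x => if x = ⟨a, ha⟩ then 1 else 0 := fun a ha => by
    funext x; simp [dw, Fin.ext_iff]
  rw [hN, hN, ← rot₂ (fun a b _ => e G a b), ← sum_add_distrib, mul_sum]
  refine sum_le_sum fun a ha => ?_
  rw [← sum_add_distrib, mul_sum]
  refine sum_le_sum fun b hb => ?_
  have ha := mem_range.1 ha
  have hb := mem_range.1 hb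
  have hc := Nat.xor_lt_two_pow ha hb
  simp only [ph, hd a ha, hd b hb, hd _ hc, he, ha, hb, hc, and_self, dif_pos]
  exact Phi_delta hT F G _ _ _

lemma tele (hC : ConvStmt) (hT : TrStmt) (F G : Mx (Fin (2 ^ m))) :
    ∑ k ∈ range m, ∑ a ∈ range (2 ^ (m - k - 1)), ∑ b ∈ range (2 ^ (m - k - 1)),
      4 ^ (k + 1) * gp F G k a b (a ^^^ b) ≤ √2 * (N3 F + N3 G) := by
  have key : ∀ j, j ≤ m → 4 ^ j * ∑ a ∈ range (2 ^ (m - j)), ∑ b ∈ range (2 ^ (m - j)),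
      ph F G j a b + ∑ k ∈ range j, ∑ a ∈ range (2 ^ (m - k - 1)),
        ∑ b ∈ range (2 ^ (m - k - 1)), 4 ^ (k + 1) * gp F G k a b (a ^^^ b) ≤
      √2 * (N3 F + N3 G) := by
    intro j
    induction j with
    | zero => intro _; simpa using ph_zero hT F G
    | succ j ih =>
      intro hj
      refine le_trans ?_ (ih (by omega))
      have e : 2 ^ (m - j) = 2 * 2 ^ (m - j - 1) := by
        rw [← pow_succ']; congr 1; omega
      rw [sum_range_succ, e, sum_two, ← Nat.sub_sub, add_comm (∑ k ∈ range j, _), ← add_assoc]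
      simp only [sum_two, mul_sum, ← sum_add_distrib]
      gcongr with a _ b _
      have := mul_le_mul_of_nonneg_left (step hC F G j a b) (by positivity : (0 : ℝ) ≤ 4 ^ j)
      rw [pow_succ]
      linarith
  refine le_trans (le_add_of_nonneg_left ?_) (key m le_rfl)
  exact mul_nonneg (by positivity) (sum_nonneg fun _ _ => sum_nonneg fun _ _ =>
    Phi_nonneg hT (psd _ _ _ _ _) _)

end Dy

open Dy in
theorem dyStmt_of (hC : ConvStmt) (hT : TrStmt) (hTri : TriStmt) : DyStmt := by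
  intro m F₀ F₁ F₂
  have h0 := tele hC hT F₂ F₀
  have h1 := tele hC hT F₀ F₁
  have h2 := tele hC hT F₁ F₂
  rw [← sum_congr rfl fun k _ => rot₁ (fun a b c => 4 ^ (k + 1) * gp F₂ F₀ k a b c) _] at h0
  rw [← sum_congr rfl fun k _ => rot₂ (fun a b c => 4 ^ (k + 1) * gp F₁ F₂ k a b c) _] at h2
  have hs : √2 ≤ 3 / 2 := Real.sqrt_le_iff.2 (by norm_num)
  have hN := add_nonneg (add_nonneg (N3_nonneg F₀) (N3_nonneg F₁)) (N3_nonneg F₂)
  refine le_trans ?_ ((mul_le_mul_of_nonneg_left (add_le_add (add_le_add h0 h1) h2)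
    (by norm_num : (0 : ℝ) ≤ 8 / 3)).trans (by nlinarith))
  simp only [← sum_add_distrib, mul_sum]
  refine sum_le_sum fun k _ => sum_le_sum fun a _ => sum_le_sum fun b _ => ?_
  have := hTri _ F₀ F₁ F₂ _ _ _ _ _ _ (dw_nonneg k (2 * a)) (dw_nonneg k (2 * a + 1))
    (dw_nonneg k (2 * b)) (dw_nonneg k (2 * b + 1)) (dw_nonneg k (2 * (a ^^^ b)))
    (dw_nonneg k (2 * (a ^^^ b) + 1))
  simp only [← dw_succ] at this
  refine (mul_le_mul_of_nonneg_left this (by positivity : (0 : ℝ) ≤ 4 ^ (k + 1))).trans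
    (le_of_eq ?_)
  simp only [gp]
  ring

end Crest.Agent.R72
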