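import Crest.Agent.R72.Basic

/-!
Row 72: from the discrete dyadic theorem to the continuous one.
-/

set_option maxHeartbeats 400000

namespace Crest.Agent.R72

open Matrix Finset MeasureTheory Crest.AnalysisR.TriangularDyadic

namespace Dy97A

theorem tile_measure {δ : ℝ} (hδ : 0 < δ) (N : ℕ) :
    volume.restrict (Set.Ico 0 (δ * N)) =
      Measure.sum fun i : Fin N => (volume.restrict (Set.Ico 0 δ)).map fun u => δ * i + u := by
  have h1 : ∀ c : ℝ, (volume.restrict (Set.Ico 0 δ)).map (fun u => c + u) =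
      volume.restrict (Set.Ico c (c + δ)) := fun c => by
    have := (measurePreserving_add_left volume c).restrict_preimage
      (s := Set.Ico c (c + δ)) measurableSet_Ico
    rw [← this.map_eq]
    congr 2
    ext x
    simp
  simp only [h1]
  rw [Measure.sum_fintype, Fin.sum_univ_eq_sum_range
    (fun i : ℕ => volume.restrict (Set.Ico (δ * i) (δ * i + δ))) N]
  induction N with
  | zero => simp
  | succ N ih =>
    rw [Finset.sum_range_succ, ← ih, ← Measure.restrict_union (Set.Ico_disjoint_Ico_same)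
      measurableSet_Ico, Set.Ico_union_Ico_eq_Ico (by positivity) (by linarith)]
    push_cast
    rw [mul_add, mul_one]

theorem integrable_bdd {α : Type*} [MeasurableSpace α] (μ : Measure α) [IsFiniteMeasure μ]
    {f : α → ℝ} (hf : Measurable f) {M : ℝ} (hM : ∀ x, |f x| ≤ M) : Integrable f μ :=
  Integrable.of_bound hf.aestronglyMeasurable M (Filter.Eventually.of_forall hM)

/-- The cube of side `s`. -/
noncomputable def cube (s : ℝ) : Measure (ℝ × ℝ × ℝ) :=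
  (volume.restrict (Set.Ico 0 s)).prod
    ((volume.restrict (Set.Ico 0 s)).prod (volume.restrict (Set.Ico 0 s)))

instance (s : ℝ) : IsFiniteMeasure (cube s) := by
  unfold cube
  infer_instance

theorem tile {δ : ℝ} (hδ : 0 < δ) (N : ℕ) {Φ : ℝ × ℝ × ℝ → ℝ} (hΦ : Measurable Φ) {M : ℝ}
    (hM : ∀ x, |Φ x| ≤ M) :
    ∫ x, Φ x ∂cube (δ * N) = ∫ u, ∑ i : Fin N, ∑ j : Fin N, ∑ l : Fin N,
      Φ (δ * i + u.1, δ * j + u.2.1, δ * l + u.2.2) ∂cube δ := by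
  have hm : ∀ c : ℝ, Measurable fun u : ℝ => c + u := fun c => by fun_prop
  have e : cube (δ * N) = Measure.sum fun p : Fin N × Fin N × Fin N => (cube δ).map
      fun u => (δ * p.1 + u.1, δ * p.2.1 + u.2.1, δ * p.2.2 + u.2.2) := by
    unfold cube
    rw [tile_measure hδ N, Measure.prod_sum, Measure.prod_sum]
    congr 1
    funext p
    rw [Measure.map_prod_map _ _ (hm _) (hm _), Measure.map_prod_map _ _ (hm _)
      ((hm _).prodMap (hm _))]
    rfl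
  have hi : ∀ p : Fin N × Fin N × Fin N, Integrable
      (fun u : ℝ × ℝ × ℝ => Φ (δ * p.1 + u.1, δ * p.2.1 + u.2.1, δ * p.2.2 + u.2.2)) (cube δ) :=
    fun p => integrable_bdd _ (hΦ.comp (by fun_prop)) fun _ => hM _
  rw [e, Measure.sum_fintype, integral_finsetSum_measure fun p _ => integrable_bdd _ hΦ hM]
  simp only [← Fintype.sum_prod_type']
  rw [integral_finsetSum _ fun p _ => hi p]
  refine Finset.sum_congr rfl fun p _ => ?_
  rw [integral_map (by fun_prop) hΦ.aestronglyMeasurable]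

theorem iter (s : ℝ) {Φ : ℝ × ℝ × ℝ → ℝ} (hΦ : Measurable Φ) {M : ℝ} (hM : ∀ x, |Φ x| ≤ M) :
    ∫ x, Φ x ∂cube s = ∫ x₀ in Set.Ico 0 s, ∫ x₁ in Set.Ico 0 s, ∫ x₂ in Set.Ico 0 s,
      Φ (x₀, x₁, x₂) := by
  unfold cube
  rw [integral_prod _ (integrable_bdd _ hΦ hM)]
  congr 1
  funext x₀
  exact integral_prod _ (integrable_bdd _ (hΦ.comp (by fun_prop)) fun _ => hM _)

theorem mem_cell {δ u : ℝ} (hδ : 0 < δ) (hu : u ∈ Set.Ico 0 δ) (i a D : ℕ) (hD : 0 < D) :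
    δ * i + u ∈ Set.Ico (δ * (D * a : ℕ)) (δ * (D * (a + 1) : ℕ)) ↔ i / D = a := by
  have h1 : ∀ n : ℕ, δ * i + u < δ * n ↔ i < n := fun n => by
    constructor
    · intro h
      have : δ * i < δ * n := by linarith [hu.1]
      exact_mod_cast lt_of_mul_lt_mul_left this hδ.le
    · intro h
      have : (i : ℝ) + 1 ≤ n := by exact_mod_cast h
      nlinarith [hu.2]
  rw [Set.mem_Ico, ← not_lt, h1, h1, not_lt, Nat.div_eq_iff hD, mul_comm D a, mul_comm D (a + 1)]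
  rw [add_mul, one_mul]
  omega

theorem haar_eq {m : ℕ} (κ : ℤ) (k n : ℕ) {u : ℝ} (hu : u ∈ Set.Ico 0 ((2 : ℝ) ^ κ))
    (i : Fin (2 ^ m)) :
    haarSign (κ + k + 1) n (2 ^ κ * i + u) = 2 ^ (k + 1) * dh k n i := by
  have hδ : (0 : ℝ) < 2 ^ κ := by positivity
  have e1 : (2 : ℝ) ^ (κ + k + 1) = 2 ^ κ * 2 ^ k * 2 := by
    rw [zpow_add_one₀ two_ne_zero, zpow_add₀ two_ne_zero, zpow_natCast]
  have e2 : (2 : ℝ) ^ (κ + k + 1 - 1) = 2 ^ κ * 2 ^ k := by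
    rw [add_sub_cancel_right, zpow_add₀ two_ne_zero, zpow_natCast]
  have a1 := mem_cell hδ hu i (2 * n) (2 ^ k) (by positivity)
  have a2 := mem_cell hδ hu i (2 * n + 1) (2 ^ k) (by positivity)
  have b1 : (2 : ℝ) ^ (κ + k + 1) * n = 2 ^ κ * (2 ^ k * (2 * n) : ℕ) := by
    rw [e1]; push_cast; ring
  have b2 : (2 : ℝ) ^ (κ + k + 1) * n + 2 ^ (κ + k + 1 - 1) =
      2 ^ κ * (2 ^ k * (2 * n + 1) : ℕ) := by
    rw [e1, e2]; push_cast; ring
  have b3 : (2 : ℝ) ^ (κ + k + 1) * (n + 1) = 2 ^ κ * (2 ^ k * (2 * n + 1 + 1) : ℕ) := by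
    rw [e1]; push_cast; ring
  unfold haarSign dh df dw
  rw [b2, b3, b1]
  simp only [a1, a2]
  split_ifs with h1 h2 h3
  · omega
  · field_simp; ring
  · field_simp; ring
  · simp

theorem haar_meas (k : ℤ) (n : ℕ) : Measurable (haarSign k n) := by
  unfold haarSign
  exact Measurable.ite measurableSet_Ico measurable_const
    (Measurable.ite measurableSet_Ico measurable_const measurable_const)

theorem haar_le (k : ℤ) (n : ℕ) (x : ℝ) : |haarSign k n x| ≤ 1 := by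
  unfold haarSign
  split_ifs <;> simp

theorem haar_zero {k : ℤ} {n : ℕ} {x : ℝ} (hx : x ∉ interval k n) : haarSign k n x = 0 := by
  have h0 : (0 : ℝ) < 2 ^ (k - 1) := by positivity
  have e : (2 : ℝ) ^ k * (n + 1) = 2 ^ k * n + 2 ^ (k - 1) + 2 ^ (k - 1) := by
    rw [zpow_sub_one₀ two_ne_zero]; ring
  unfold haarSign
  rw [if_neg fun h => hx ⟨h.1, by linarith [h.2]⟩, if_neg fun h => hx ⟨by linarith [h.1], h.2⟩]

theorem interval_sub (κ : ℤ) {k n m : ℕ} (hk : k < m) (hn : n < 2 ^ (m - k - 1)) :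
    interval (κ + k + 1) n ⊆ Set.Ico 0 ((2 : ℝ) ^ κ * (2 ^ m : ℕ)) := by
  refine Set.Ico_subset_Ico (by positivity) ?_
  have e1 : (2 : ℝ) ^ (κ + k + 1) = 2 ^ κ * 2 ^ (k + 1) := by
    rw [add_assoc, zpow_add₀ two_ne_zero, ← zpow_natCast]
    push_cast
    rfl
  have e2 : (2 : ℝ) ^ m = 2 ^ (k + 1) * 2 ^ (m - k - 1) := by
    rw [← pow_add]
    congr 1
    omega
  have : (n : ℝ) + 1 ≤ 2 ^ (m - k - 1) := by exact_mod_cast hn
  push_cast
  rw [e1, e2, mul_assoc]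
  gcongr

variable {F₀ F₁ F₂ : ℝ × ℝ → ℝ}

/-- The sampled matrix. -/
noncomputable def samp (δ : ℝ) (m : ℕ) (F : ℝ × ℝ → ℝ) (u v : ℝ) : Mx (Fin (2 ^ m)) :=
  Matrix.of fun i j => (F (δ * i + u, δ * j + v) : ℂ)

theorem ae_cube (s : ℝ) : ∀ᵐ u ∂cube s,
    u.1 ∈ Set.Ico 0 s ∧ u.2.1 ∈ Set.Ico 0 s ∧ u.2.2 ∈ Set.Ico 0 s := by
  unfold cube
  rw [Measure.prod_restrict, Measure.prod_restrict]
  exact ae_restrict_of_forall_mem
    (measurableSet_Ico.prod (measurableSet_Ico.prod measurableSet_Ico)) fun u hu => hu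

theorem local_le (h₀ : Measurable F₀) (h₁ : Measurable F₁) (h₂ : Measurable F₂) {M : ℝ}
    (hM : ∀ z, |F₀ z| ≤ M ∧ |F₁ z| ≤ M ∧ |F₂ z| ≤ M) (κ : ℤ) {k n₀ n₁ n₂ m : ℕ} (hk : k < m)
    (hn₀ : n₀ < 2 ^ (m - k - 1)) (hn₁ : n₁ < 2 ^ (m - k - 1)) (hn₂ : n₂ < 2 ^ (m - k - 1)) :
    ∃ g : ℝ × ℝ × ℝ → ℝ, Integrable g (cube (2 ^ κ)) ∧
      |localForm (κ + k + 1) n₀ n₁ n₂ F₀ F₁ F₂| ≤ ∫ u, g u ∂cube (2 ^ κ) ∧
      ∀ᵐ u ∂cube (2 ^ κ), g u = (2 ^ κ)⁻¹ * (4 ^ (k + 1) *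
        ‖tl (samp (2 ^ κ) m F₀ u.1 u.2.1) (samp (2 ^ κ) m F₁ u.2.1 u.2.2)
          (samp (2 ^ κ) m F₂ u.2.2 u.1) (dh k n₀) (dh k n₁) (dh k n₂)‖) := by
  have hδ : (0 : ℝ) < 2 ^ κ := by positivity
  set K := κ + k + 1 with hK
  let Φ : ℝ × ℝ × ℝ → ℝ := fun x => F₀ (x.1, x.2.1) * F₁ (x.2.1, x.2.2) * F₂ (x.2.2, x.1) *
    (haarSign K n₀ x.1 * haarSign K n₁ x.2.1 * haarSign K n₂ x.2.2)
  have hΦ : Measurable Φ := by
    have a := haar_meas K n₀
    have b := haar_meas K n₁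
    have c := haar_meas K n₂
    fun_prop
  have hM0 : 0 ≤ M := (abs_nonneg _).trans (hM 0).1
  have hΦM : ∀ x, |Φ x| ≤ M * M * M * (1 * 1 * 1) := fun x => by
    simp only [Φ, abs_mul]
    gcongr
    exacts [(hM _).1, (hM _).2.1, (hM _).2.2, haar_le _ _ _, haar_le _ _ _, haar_le _ _ _]
  let S : ℝ × ℝ × ℝ → ℝ := fun u => ∑ i : Fin (2 ^ m), ∑ j : Fin (2 ^ m), ∑ l : Fin (2 ^ m),
      Φ (2 ^ κ * i + u.1, 2 ^ κ * j + u.2.1, 2 ^ κ * l + u.2.2)
  have hS : Integrable S (cube (2 ^ κ)) :=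
    integrable_finsetSum _ fun i _ => integrable_finsetSum _ fun j _ =>
      integrable_finsetSum _ fun l _ => integrable_bdd _ (hΦ.comp (by fun_prop)) fun _ => hΦM _
  have e : localForm K n₀ n₁ n₂ F₀ F₁ F₂ = 2 ^ (-K) * ∫ u, S u ∂cube (2 ^ κ) := by
    unfold localForm
    rw [← tile hδ (2 ^ m) hΦ hΦM, iter _ hΦ hΦM]
    congr 1
    rw [setIntegral_eq_of_subset_of_forall_sdiff_eq_zero measurableSet_Ico
      (interval_sub κ hk hn₀) fun x hx => by simp [Φ, haar_zero (k := K) hx.2]]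
    congr 1
    funext x₀
    rw [setIntegral_eq_of_subset_of_forall_sdiff_eq_zero measurableSet_Ico
      (interval_sub κ hk hn₁) fun x hx => by simp [Φ, haar_zero (k := K) hx.2]]
    congr 1
    funext x₁
    rw [setIntegral_eq_of_subset_of_forall_sdiff_eq_zero measurableSet_Ico
      (interval_sub κ hk hn₂) fun x hx => by simp [Φ, haar_zero (k := K) hx.2]]
  refine ⟨fun u => 2 ^ (-K) * |S u|, hS.abs.const_mul _, ?_, ?_⟩
  · rw [e, abs_mul, abs_of_nonneg (by positivity), integral_const_mul]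
    gcongr
    exact abs_integral_le_integral_abs
  · filter_upwards [ae_cube ((2 : ℝ) ^ κ)] with u hu
    have e1 : (S u : ℂ) = 8 ^ (k + 1) * tl (samp (2 ^ κ) m F₀ u.1 u.2.1)
        (samp (2 ^ κ) m F₁ u.2.1 u.2.2) (samp (2 ^ κ) m F₂ u.2.2 u.1)
        (dh k n₀) (dh k n₁) (dh k n₂) := by
      simp only [S, Φ, hK, haar_eq κ k _ hu.1, haar_eq κ k _ hu.2.1, haar_eq κ k _ hu.2.2, tl, samp,
        Finset.mul_sum, Matrix.of_apply]
      push_cast
      refine Finset.sum_congr rfl fun i _ => Finset.sum_congr rfl fun j _ =>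
        Finset.sum_congr rfl fun l _ => ?_
      rw [show (8 : ℂ) = 2 * 2 * 2 by norm_num, mul_pow, mul_pow]
      ring
    have e2 : (2 : ℝ) ^ (-K) = (2 ^ κ)⁻¹ * (2 ^ (k + 1))⁻¹ := by
      rw [_root_.zpow_neg, hK, add_assoc, zpow_add₀ two_ne_zero, mul_inv, ← zpow_natCast]
      push_cast
      rfl
    rw [← Real.norm_eq_abs, ← Complex.norm_real, e1, norm_mul, norm_pow, e2,
      show ‖(8 : ℂ)‖ = 2 * 4 by norm_num, mul_pow]
    field_simp

theorem samp_int {F : ℝ × ℝ → ℝ} (h : Measurable F) {M : ℝ} (hM : ∀ z, |F z| ≤ M)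
    (hF : IntegrableOn (fun z => |F z| ^ 3) (Set.Ici 0 ×ˢ Set.Ici 0)) {δ : ℝ} (hδ : 0 < δ)
    (m : ℕ) :
    (Integrable (fun u : ℝ × ℝ × ℝ => N3 (samp δ m F u.1 u.2.1)) (cube δ) ∧
      ∫ u, N3 (samp δ m F u.1 u.2.1) ∂cube δ ≤ δ * ∫ z in Set.Ici 0 ×ˢ Set.Ici 0, |F z| ^ 3) ∧
    (Integrable (fun u : ℝ × ℝ × ℝ => N3 (samp δ m F u.2.1 u.2.2)) (cube δ) ∧
      ∫ u, N3 (samp δ m F u.2.1 u.2.2) ∂cube δ ≤ δ * ∫ z in Set.Ici 0 ×ˢ Set.Ici 0, |F z| ^ 3) ∧
    (Integrable (fun u : ℝ × ℝ × ℝ => N3 (samp δ m F u.2.2 u.1)) (cube δ) ∧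
      ∫ u, N3 (samp δ m F u.2.2 u.1) ∂cube δ ≤ δ * ∫ z in Set.Ici 0 ×ˢ Set.Ici 0, |F z| ^ 3) := by
  have hg : Measurable fun z => |F z| ^ 3 := by fun_prop
  have hgM : ∀ z, abs (|F z| ^ 3) ≤ M ^ 3 := fun z => by
    rw [abs_of_nonneg (by positivity)]
    exact pow_le_pow_left₀ (abs_nonneg _) (hM z) 3
  have hN : ∀ u v, N3 (samp δ m F u v) =
      ∑ i : Fin (2 ^ m), ∑ j : Fin (2 ^ m), |F (δ * i + u, δ * j + v)| ^ 3 := fun u v => by
    simp [N3, samp]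
  set s : ℝ := δ * (2 ^ m : ℕ) with hs
  have hs0 : 0 ≤ s := by positivity
  set ν := volume.restrict (Set.Ico 0 s) with hν
  have hνu : ν.real Set.univ = s := by simp [hν, hs0]
  have hsq : ∫ z, |F z| ^ 3 ∂ν.prod ν ≤ ∫ z in Set.Ici 0 ×ˢ Set.Ici 0, |F z| ^ 3 := by
    rw [hν, Measure.prod_restrict, ← Measure.volume_eq_prod]
    exact setIntegral_mono_set hF (Filter.Eventually.of_forall fun z => by positivity)
      (Filter.Eventually.of_forall (Set.prod_mono Set.Ico_subset_Ici_self Set.Ico_subset_Ici_self))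
  have hi := integrable_bdd (ν.prod ν) hg hgM
  have fin : ∀ {X Y : ℝ}, s * Y = (2 ^ m : ℕ) * X → Y ≤ ∫ z in Set.Ici 0 ×ˢ Set.Ici 0, |F z| ^ 3 →
      X ≤ δ * ∫ z in Set.Ici 0 ×ˢ Set.Ici 0, |F z| ^ 3 := fun {X Y} h1 h2 => by
    have : X = δ * Y := by
      refine mul_left_cancel₀ (a := ((2 ^ m : ℕ) : ℝ)) (by positivity) ?_
      rw [← h1, hs]; ring
    rw [this]
    gcongr
  simp only [hN]
  refine ⟨⟨?_, ?_⟩, ⟨?_, ?_⟩, ?_, ?_⟩
  · exact integrable_finsetSum _ fun i _ => integrable_finsetSum _ fun j _ =>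
      integrable_bdd _ (hg.comp (by fun_prop)) fun _ => hgM _
  · have hΦ : Measurable fun x : ℝ × ℝ × ℝ => |F (x.1, x.2.1)| ^ 3 := hg.comp (by fun_prop)
    have e := tile hδ (2 ^ m) hΦ fun _ => hgM _
    rw [iter _ hΦ fun _ => hgM _] at e
    refine fin ?_ hsq
    rw [integral_prod _ hi, ← integral_const_mul, ← integral_const_mul]
    simp only [Finset.sum_const, Finset.card_univ, Fintype.card_fin, nsmul_eq_mul,
      ← Finset.mul_sum, integral_const, smul_eq_mul, ← hs, ← hν, hνu, integral_const_mul] at e ⊢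
    exact e
  · exact integrable_finsetSum _ fun i _ => integrable_finsetSum _ fun j _ =>
      integrable_bdd _ (hg.comp (by fun_prop)) fun _ => hgM _
  · have hΦ : Measurable fun x : ℝ × ℝ × ℝ => |F (x.2.1, x.2.2)| ^ 3 := hg.comp (by fun_prop)
    have e := tile hδ (2 ^ m) hΦ fun _ => hgM _
    rw [iter _ hΦ fun _ => hgM _] at e
    refine fin ?_ hsq
    rw [integral_prod _ hi]
    simp only [Finset.sum_const, Finset.card_univ, Fintype.card_fin, nsmul_eq_mul,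
      integral_const, smul_eq_mul, ← hs, ← hν, hνu, integral_const_mul] at e ⊢
    exact e
  · exact integrable_finsetSum _ fun i _ => integrable_finsetSum _ fun j _ =>
      integrable_bdd _ (hg.comp (by fun_prop)) fun _ => hgM _
  · have hΦ : Measurable fun x : ℝ × ℝ × ℝ => |F (x.2.2, x.1)| ^ 3 := hg.comp (by fun_prop)
    have e := tile hδ (2 ^ m) hΦ fun _ => hgM _
    rw [iter _ hΦ fun _ => hgM _] at e
    refine fin ?_ hsq
    rw [integral_prod_symm _ hi]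
    simp only [Finset.sum_const, Finset.card_univ, Fintype.card_fin, nsmul_eq_mul,
      ← Finset.mul_sum, integral_const, smul_eq_mul, ← hs, ← hν, hνu, integral_const_mul] at e ⊢
    rw [e]
    congr 2
    funext u
    exact Finset.sum_comm

theorem additive (h : DyStmt) (h₀ : Measurable F₀) (h₁ : Measurable F₁) (h₂ : Measurable F₂)
    {M : ℝ} (hM : ∀ z, |F₀ z| ≤ M ∧ |F₁ z| ≤ M ∧ |F₂ z| ≤ M)
    (i₀ : IntegrableOn (fun z => |F₀ z| ^ 3) (Set.Ici 0 ×ˢ Set.Ici 0))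
    (i₁ : IntegrableOn (fun z => |F₁ z| ^ 3) (Set.Ici 0 ×ˢ Set.Ici 0))
    (i₂ : IntegrableOn (fun z => |F₂ z| ^ 3) (Set.Ici 0 ×ˢ Set.Ici 0))
    (𝓘 : Finset (ℤ × ℕ × ℕ)) :
    ∑ i ∈ 𝓘, |localForm i.1 i.2.1 i.2.2 (i.2.1 ^^^ i.2.2) F₀ F₁ F₂| ≤
      8 * ((∫ z in Set.Ici 0 ×ˢ Set.Ici 0, |F₀ z| ^ 3) +
        (∫ z in Set.Ici 0 ×ˢ Set.Ici 0, |F₁ z| ^ 3) +
        ∫ z in Set.Ici 0 ×ˢ Set.Ici 0, |F₂ z| ^ 3) := by
  obtain ⟨κ, hκ⟩ : ∃ κ : ℤ, ∀ i ∈ 𝓘, κ + 1 ≤ i.1 := by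
    obtain ⟨b, hb⟩ := (𝓘.image Prod.fst).bddBelow
    exact ⟨b - 1, fun i hi => by
      have := hb (Finset.mem_coe.mpr (Finset.mem_image_of_mem Prod.fst hi))
      omega⟩
  let kk : ℤ × ℕ × ℕ → ℕ := fun i => (i.1 - κ - 1).toNat
  have hkk : ∀ i ∈ 𝓘, i.1 = κ + kk i + 1 := fun i hi => by
    have := hκ i hi
    simp only [kk]
    omega
  obtain ⟨m, hm⟩ : ∃ m : ℕ, ∀ i ∈ 𝓘, kk i < m ∧ i.2.1 < 2 ^ (m - kk i - 1) ∧
      i.2.2 < 2 ^ (m - kk i - 1) := by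
    refine ⟨𝓘.sup fun i => kk i + 1 + i.2.1 + i.2.2, fun i hi => ?_⟩
    have : kk i + 1 + i.2.1 + i.2.2 ≤ 𝓘.sup fun i => kk i + 1 + i.2.1 + i.2.2 :=
      Finset.le_sup (f := fun i => kk i + 1 + i.2.1 + i.2.2) hi
    exact ⟨by omega, Nat.lt_two_pow_self.trans_le (Nat.pow_le_pow_right two_pos (by omega)),
      Nat.lt_two_pow_self.trans_le (Nat.pow_le_pow_right two_pos (by omega))⟩
  have hδ : (0 : ℝ) < 2 ^ κ := by positivity
  choose! g hg1 hg2 hg3 using fun i (hi : i ∈ 𝓘) => local_le h₀ h₁ h₂ hM κ (hm i hi).1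
    (hm i hi).2.1 (hm i hi).2.2 (Nat.xor_lt_two_pow (hm i hi).2.1 (hm i hi).2.2)
  obtain ⟨⟨a1, a2⟩, -, -⟩ := samp_int h₀ (fun z => (hM z).1) i₀ hδ m
  obtain ⟨-, ⟨b1, b2⟩, -⟩ := samp_int h₁ (fun z => (hM z).2.1) i₁ hδ m
  obtain ⟨-, -, c1, c2⟩ := samp_int h₂ (fun z => (hM z).2.2) i₂ hδ m
  calc _ ≤ ∑ i ∈ 𝓘, ∫ u, g i u ∂cube (2 ^ κ) := Finset.sum_le_sum fun i hi => by
        rw [hkk i hi]; exact hg2 i hi
    _ = ∫ u, ∑ i ∈ 𝓘, g i u ∂cube (2 ^ κ) := (integral_finsetSum _ hg1).symm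
    _ ≤ ∫ u, (2 ^ κ)⁻¹ * (8 * (N3 (samp (2 ^ κ) m F₀ u.1 u.2.1) +
          N3 (samp (2 ^ κ) m F₁ u.2.1 u.2.2) + N3 (samp (2 ^ κ) m F₂ u.2.2 u.1)))
          ∂cube (2 ^ κ) := by
        refine integral_mono_ae (integrable_finsetSum _ hg1)
          ((((a1.add b1).add c1).const_mul _).const_mul _) ?_
        filter_upwards [(Filter.eventually_all_finset 𝓘).mpr hg3] with u hu
        rw [Finset.sum_congr rfl hu, ← Finset.mul_sum]
        refine mul_le_mul_of_nonneg_left (le_trans ?_ (h m _ _ _)) (by positivity)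
        let G : (Σ _ : ℕ, ℕ × ℕ) → ℝ := fun p => 4 ^ (p.1 + 1) *
          ‖tl (samp (2 ^ κ) m F₀ u.1 u.2.1) (samp (2 ^ κ) m F₁ u.2.1 u.2.2)
            (samp (2 ^ κ) m F₂ u.2.2 u.1) (dh p.1 p.2.1) (dh p.1 p.2.2)
            (dh p.1 (p.2.1 ^^^ p.2.2))‖
        calc _ = ∑ p ∈ 𝓘.image fun i => (⟨kk i, i.2⟩ : Σ _ : ℕ, ℕ × ℕ), G p := by
              rw [Finset.sum_image fun i hi j hj hij => ?_]
              obtain ⟨e1, e2⟩ := Sigma.mk.inj_iff.mp hij
              exact Prod.ext (by rw [hkk i hi, hkk j hj, e1]) (eq_of_heq e2)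
          _ ≤ ∑ p ∈ (range m).sigma fun k =>
              range (2 ^ (m - k - 1)) ×ˢ range (2 ^ (m - k - 1)), G p := by
              refine Finset.sum_le_sum_of_subset_of_nonneg (fun p hp => ?_)
                fun _ _ _ => by positivity
              obtain ⟨i, hi, rfl⟩ := Finset.mem_image.mp hp
              simpa using hm i hi
          _ = _ := by
              rw [Finset.sum_sigma]
              simp only [Finset.sum_product, G]
    _ ≤ _ := by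
        rw [integral_const_mul, integral_const_mul, integral_add (a1.fun_add b1) c1,
          integral_add a1 b1, inv_mul_le_iff₀ hδ]
        linarith

theorem localForm_smul (k : ℤ) (n₀ n₁ n₂ : ℕ) (a b c : ℝ) :
    localForm k n₀ n₁ n₂ (fun z => a * F₀ z) (fun z => b * F₁ z) (fun z => c * F₂ z) =
      a * b * c * localForm k n₀ n₁ n₂ F₀ F₁ F₂ := by
  unfold localForm
  rw [mul_left_comm]
  simp only [← integral_const_mul]
  congr 2
  funext x₀
  congr 1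
  funext x₁
  congr 1
  funext x₂
  ring

theorem integrable_cube {F : ℝ × ℝ → ℝ} (h : Measurable F) {M : ℝ} (hM : ∀ z, |F z| ≤ M)
    (hc : HasCompactSupport F) : Integrable fun z => |F z| ^ 3 := by
  refine (integrableOn_iff_integrable_of_support_subset (s := tsupport F) fun z hz => ?_).mp ?_
  · exact subset_tsupport F fun h0 => hz (by simp [h0])
  · have : IsFiniteMeasure (volume.restrict (tsupport F)) :=
      isFiniteMeasure_restrict.mpr hc.isCompact.measure_ne_top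
    exact integrable_bdd (M := M ^ 3) _ (by fun_prop) fun z => by
      rw [abs_of_nonneg (by positivity)]
      exact pow_le_pow_left₀ (abs_nonneg _) (hM z) 3

end Dy97A

open Dy97A in
theorem dy97Stmt_of (h : DyStmt) : Dy97Stmt := by
  intro F₀ F₁ F₂ h₀ h₁ h₂ ⟨M, hM⟩ c₀ c₁ c₂ 𝓘
  have i₀ := integrable_cube h₀ (fun z => (hM z).1) c₀
  have i₁ := integrable_cube h₁ (fun z => (hM z).2.1) c₁
  have i₂ := integrable_cube h₂ (fun z => (hM z).2.2) c₂
  have hM0 : 0 ≤ M := (abs_nonneg _).trans (hM 0).1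
  have n : ∀ F : ℝ × ℝ → ℝ, 0 ≤ ∫ z in Set.Ici 0 ×ˢ Set.Ici 0, |F z| ^ 3 := fun F =>
    integral_nonneg fun z => by positivity
  refine (amgm_scale (n F₀) (n F₁) (n F₂) (C := 8) (by norm_num)
    fun a b c ha hb hc => ?_).trans ?_
  · have e : ∀ {l : ℝ}, 0 < l → ∀ F : ℝ × ℝ → ℝ,
        (fun z => |l * F z| ^ 3) = fun z => l ^ 3 * |F z| ^ 3 := fun hl F => by
      funext z
      rw [abs_mul, abs_of_pos hl, mul_pow]
    have bd : ∀ {l x : ℝ}, 0 < l → l ≤ a + b + c → |x| ≤ M → |l * x| ≤ (a + b + c) * M :=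
      fun hl hl' hx => by
        rw [abs_mul, abs_of_pos hl]
        gcongr
    have := additive h (F₀ := fun z => a * F₀ z) (F₁ := fun z => b * F₁ z)
      (F₂ := fun z => c * F₂ z) (by fun_prop) (by fun_prop) (by fun_prop) (M := (a + b + c) * M)
      (fun z => ⟨bd ha (by linarith) (hM z).1, bd hb (by linarith) (hM z).2.1,
        bd hc (by linarith) (hM z).2.2⟩)
      (by rw [e ha]; exact (i₀.const_mul _).integrableOn)
      (by rw [e hb]; exact (i₁.const_mul _).integrableOn)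
      (by rw [e hc]; exact (i₂.const_mul _).integrableOn) 𝓘
    simp only [localForm_smul, e ha, e hb, e hc, integral_const_mul] at this
    rw [Finset.mul_sum]
    refine le_trans (le_of_eq (Finset.sum_congr rfl fun i _ => ?_)) this
    rw [abs_mul, abs_of_pos (by positivity : 0 < a * b * c)]
  · have := Real.rpow_nonneg (n F₀) (1 / 3 : ℝ)
    have := Real.rpow_nonneg (n F₁) (1 / 3 : ℝ)
    have := Real.rpow_nonneg (n F₂) (1 / 3 : ℝ)
    gcongr
    norm_num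

end Crest.Agent.R72
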