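import Crest.Agent.R72.Basic

/-!
Row 72: the plane potentials (step, second differences, jumps).
-/

set_option maxHeartbeats 400000

namespace Crest.Agent.R72.Gain

open Matrix Finset
open scoped MatrixOrder ComplexOrder ENNReal

variable {L : ℕ} [NeZero L]

/-- potential of a triple -/
noncomputable def T (F₀ F₁ : Mx (ZMod L)) (k : ℕ) (p q r : ZMod L) : ℝ :=
  Phi (lft F₀ (w k p) + rgt F₁ (w k r)) (w k q)

/-- potential of a plane -/
noncomputable def ph (F₀ F₁ : Mx (ZMod L)) (k : ℕ) (u : ZMod L) : ℝ :=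
  ∑ p, ∑ q, T F₀ F₁ k p q (u - p - q)

theorem sum_shift (f : ZMod L → ZMod L → ZMod L → ℝ) (u a b c : ZMod L) :
    ∑ p, ∑ q, f (p + a) (q + c) (u - p - q + b) = ∑ p, ∑ q, f p q (u + a + b + c - p - q) := by
  refine Fintype.sum_equiv (Equiv.addRight a) _ _ fun p => ?_
  refine Fintype.sum_equiv (Equiv.addRight c) _ _ fun q => ?_
  simp only [Equiv.coe_addRight]
  congr 1
  ring

theorem Phi_conv4 (hC : ConvStmt) (F₀ F₁ : Mx (ZMod L)) {a a' b b' : ZMod L → ℝ}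
    (ha : ∀ i, 0 ≤ a i) (ha' : ∀ i, 0 ≤ a' i) (hb : ∀ i, 0 ≤ b i) (hb' : ∀ i, 0 ≤ b' i)
    (g : ZMod L → ℝ) :
    Phi (lft F₀ (av a a') + rgt F₁ (av b b')) g ≤
      (Phi (lft F₀ a + rgt F₁ b) g + Phi (lft F₀ a + rgt F₁ b') g +
        Phi (lft F₀ a' + rgt F₁ b) g + Phi (lft F₀ a' + rgt F₁ b') g) / 4 := by
  have hbb := av_nonneg hb hb'
  have e1 : lft F₀ (av a a') + rgt F₁ (av b b') = (1 / 2 : ℂ) •
      ((lft F₀ a + rgt F₁ (av b b')) + (lft F₀ a' + rgt F₁ (av b b'))) := by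
    rw [lft_av]; module
  have e2 : ∀ c : ZMod L → ℝ, lft F₀ c + rgt F₁ (av b b') = (1 / 2 : ℂ) •
      ((lft F₀ c + rgt F₁ b) + (lft F₀ c + rgt F₁ b')) := fun c => by
    rw [rgt_av]; module
  have h1 := Phi_conv hC ((lft_psd F₀ ha).add (rgt_psd F₁ hbb))
    ((lft_psd F₀ ha').add (rgt_psd F₁ hbb)) g
  have h2 := Phi_conv hC ((lft_psd F₀ ha).add (rgt_psd F₁ hb))
    ((lft_psd F₀ ha).add (rgt_psd F₁ hb')) g
  have h3 := Phi_conv hC ((lft_psd F₀ ha').add (rgt_psd F₁ hb))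
    ((lft_psd F₀ ha').add (rgt_psd F₁ hb')) g
  rw [← e1] at h1
  rw [← e2] at h2 h3
  linarith

theorem step_pt (hC : ConvStmt) (F₀ F₁ : Mx (ZMod L)) (k : ℕ) (p q r : ZMod L) :
    T F₀ F₁ (k + 1) p q r + gain F₀ F₁ k p q r ≤
      (T F₀ F₁ k (p + 0) (q + 0) (r + 0) + T F₀ F₁ k (p + 0) (q + 0) (r + 2 ^ k) +
        T F₀ F₁ k (p + 2 ^ k) (q + 0) (r + 0) + T F₀ F₁ k (p + 2 ^ k) (q + 0) (r + 2 ^ k) +
        T F₀ F₁ k (p + 0) (q + 2 ^ k) (r + 0) + T F₀ F₁ k (p + 0) (q + 2 ^ k) (r + 2 ^ k) +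
        T F₀ F₁ k (p + 2 ^ k) (q + 2 ^ k) (r + 0) +
        T F₀ F₁ k (p + 2 ^ k) (q + 2 ^ k) (r + 2 ^ k)) / 8 := by
  simp only [add_zero]
  unfold T gain gapG
  have h1 := Phi_conv4 hC F₀ F₁ (w_nonneg k p) (w_nonneg k (p + 2 ^ k)) (w_nonneg k r)
    (w_nonneg k (r + 2 ^ k)) (w k q)
  have h2 := Phi_conv4 hC F₀ F₁ (w_nonneg k p) (w_nonneg k (p + 2 ^ k)) (w_nonneg k r)
    (w_nonneg k (r + 2 ^ k)) (w k (q + 2 ^ k))
  rw [← w_succ, ← w_succ] at h1 h2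
  rw [← w_succ]
  linarith

theorem step (hC : ConvStmt) (F₀ F₁ : Mx (ZMod L)) (k : ℕ) (u : ZMod L) :
    ph F₀ F₁ (k + 1) u + ∑ p, ∑ q, gain F₀ F₁ k p q (u - p - q) ≤
      (ph F₀ F₁ k u + 3 * ph F₀ F₁ k (u + 2 ^ k) + 3 * ph F₀ F₁ k (u + 2 * 2 ^ k) +
        ph F₀ F₁ k (u + 3 * 2 ^ k)) / 8 := by
  have h := Finset.sum_le_sum fun p (_ : p ∈ univ) => Finset.sum_le_sum fun q (_ : q ∈ univ) =>
    step_pt hC F₀ F₁ k p q (u - p - q)
  simp only [Finset.sum_add_distrib, ← Finset.sum_div, sum_shift (T F₀ F₁ k)] at h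
  have e1 : u + 0 + 0 + 0 = u := by ring
  have e2 : u + 0 + 2 ^ k + 0 = u + 2 ^ k := by ring
  have e3 : u + 2 ^ k + 0 + 0 = u + 2 ^ k := by ring
  have e4 : u + 2 ^ k + 2 ^ k + 0 = u + 2 * 2 ^ k := by ring
  have e5 : u + 0 + 0 + 2 ^ k = u + 2 ^ k := by ring
  have e6 : u + 0 + 2 ^ k + 2 ^ k = u + 2 * 2 ^ k := by ring
  have e7 : u + 2 ^ k + 0 + 2 ^ k = u + 2 * 2 ^ k := by ring
  have e8 : u + 2 ^ k + 2 ^ k + 2 ^ k = u + 3 * 2 ^ k := by ring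
  rw [e1, e2, e3, e4, e5, e6, e7, e8] at h
  unfold ph
  linarith

/-- single potential -/
noncomputable def Ps (F : Mx (ZMod L)) (k : ℕ) : ℝ := ∑ r, ∑ q, Phi (rgt F (w k r)) (w k q)

/-- Jensen gap of the single potential for a shift by `s` -/
noncomputable def Js (F : Mx (ZMod L)) (k : ℕ) (s : ZMod L) : ℝ :=
  ∑ r, ∑ q, Jg (sand (w k q) (rgt F (w k r))) (sand (w k q) (rgt F (w k (r + s))))

theorem Jg_comm {ι : Type} [Fintype ι] [DecidableEq ι] (a a' : Mx ι) : Jg a a' = Jg a' a := by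
  unfold Jg
  rw [add_comm a a', add_comm (f3 a)]

theorem second_diff (hM : MixStmt) (F₀ F₁ : Mx (ZMod L)) (k : ℕ) (u s : ZMod L) :
    ph F₀ F₁ k (u + s) + ph F₀ F₁ k (u - s) ≤
      2 * ph F₀ F₁ k u + 11 * (Js F₀ᴴ k s + Js F₁ k s) := by
  have hpt : ∀ p q r : ZMod L,
      T F₀ F₁ k (p + s) (q + 0) (r + s) + T F₀ F₁ k (p + 0) (q + 0) (r + 0) -
        T F₀ F₁ k (p + 0) (q + 0) (r + s) - T F₀ F₁ k (p + s) (q + 0) (r + 0) ≤
      11 * (Jg (sand (w k q) (rgt F₀ᴴ (w k p))) (sand (w k q) (rgt F₀ᴴ (w k (p + s)))) +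
        Jg (sand (w k q) (rgt F₁ (w k r))) (sand (w k q) (rgt F₁ (w k (r + s))))) := by
    intro p q r
    simp only [add_zero]
    have := hM _ (sand (w k q) (lft F₀ (w k p))) (sand (w k q) (lft F₀ (w k (p + s))))
      (sand (w k q) (rgt F₁ (w k (r + s)))) (sand (w k q) (rgt F₁ (w k r)))
      (sand_psd _ (lft_psd _ (w_nonneg _ _))) (sand_psd _ (lft_psd _ (w_nonneg _ _)))
      (sand_psd _ (rgt_psd _ (w_nonneg _ _))) (sand_psd _ (rgt_psd _ (w_nonneg _ _)))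
    rw [Jg_comm (sand (w k q) (rgt F₁ (w k (r + s))))] at this
    simp only [← lft_eq_rgt]
    unfold T Phi
    simp only [sand_add]
    exact this
  have h := Finset.sum_le_sum fun p (_ : p ∈ univ) => Finset.sum_le_sum fun q (_ : q ∈ univ) =>
    hpt p q (u - s - p - q)
  simp only [Finset.sum_add_distrib, Finset.sum_sub_distrib, ← Finset.mul_sum,
    sum_shift (T F₀ F₁ k)] at h
  have e1 : u - s + s + s + 0 = u + s := by ring
  have e2 : u - s + 0 + 0 + 0 = u - s := by ring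
  have e3 : u - s + 0 + s + 0 = u := by ring
  have e4 : u - s + s + 0 + 0 = u := by ring
  rw [e1, e2, e3, e4, sum_plane_swap (u - s) fun r q _ => Jg (sand (w k q) (rgt F₁ (w k r)))
    (sand (w k q) (rgt F₁ (w k (r + s))))] at h
  unfold ph Js
  linarith

theorem sum_conv (hC : ConvStmt) (U : ZMod L → Mx (ZMod L)) (hU : ∀ r, (U r).PosSemidef)
    (d : ZMod L) (g : ZMod L → ℝ) :
    ∑ r, Phi ((1 / 2 : ℂ) • (U r + U (r + d))) g ≤ ∑ r, Phi (U r) g := by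
  have h := Finset.sum_le_sum fun r (_ : r ∈ univ) => Phi_conv hC (hU r) (hU (r + d)) g
  rw [← Finset.sum_div, Finset.sum_add_distrib,
    Fintype.sum_equiv (Equiv.addRight d) (fun r => Phi (U (r + d)) g) (fun r => Phi (U r) g)
      fun r => rfl] at h
  linarith

theorem sum_gapG (hG : GapGStmt) {U : Mx (ZMod L)} (hU : U.PosSemidef) (j : ℕ) :
    ∑ q, Phi U (w (j + 1) q) ≤ ∑ q, Phi U (w j q) := by
  have h := Finset.sum_nonneg fun q (_ : q ∈ univ) =>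
    hG _ U (w j q) (w j (q + 2 ^ j)) hU (w_nonneg _ _) (w_nonneg _ _)
  unfold gapG at h
  simp only [← w_succ] at h
  rw [Finset.sum_sub_distrib, ← Finset.sum_div, Finset.sum_add_distrib,
    Fintype.sum_equiv (Equiv.addRight (2 ^ j)) (fun q => Phi U (w j (q + 2 ^ j)))
      (fun q => Phi U (w j q)) fun r => rfl] at h
  linarith

theorem sum_gapG' (hG : GapGStmt) {U : Mx (ZMod L)} (hU : U.PosSemidef) (j n : ℕ) :
    ∑ q, Phi U (w (j + n) q) ≤ ∑ q, Phi U (w j q) := by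
  induction n with
  | zero => exact le_rfl
  | succ n ih => exact (sum_gapG hG hU (j + n)).trans ih

theorem sum_conv' (hC : ConvStmt) (F : Mx (ZMod L)) (s : ZMod L) (g : ZMod L → ℝ) (j n : ℕ) :
    ∑ r, Phi (rgt F (av (w (j + n) r) (w (j + n) (r + s)))) g ≤
      ∑ r, Phi (rgt F (av (w j r) (w j (r + s)))) g := by
  induction n with
  | zero => exact le_rfl
  | succ n ih =>
    refine le_trans (le_of_eq ?_) ((sum_conv hC (fun r => rgt F (av (w (j + n) r) (w (j + n) (r + s))))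
      (fun r => rgt_psd F (av_nonneg (w_nonneg _ _) (w_nonneg _ _))) (2 ^ (j + n)) g).trans ih)
    refine Finset.sum_congr rfl fun r _ => ?_
    rw [← rgt_av, ← add_assoc, w_succ, w_succ, add_right_comm r s]
    congr 2
    funext i
    unfold av
    ring

theorem Js_le (hC : ConvStmt) (hG : GapGStmt) (F : Mx (ZMod L)) (k β : ℕ) :
    Js F k (2 ^ (k + β)) ≤ Ps F k - Ps F (k + (β + 1)) := by
  have h1 : Js F k (2 ^ (k + β)) = Ps F k -
      ∑ r, ∑ q, Phi (rgt F (av (w k r) (w k (r + 2 ^ (k + β))))) (w k q) := by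
    unfold Js Jg Ps
    simp only [Finset.sum_sub_distrib, ← Finset.sum_div, Finset.sum_add_distrib]
    rw [Fintype.sum_equiv (Equiv.addRight (2 ^ (k + β)))
      (fun r => ∑ q, f3 (sand (w k q) (rgt F (w k (r + 2 ^ (k + β))))))
      (fun r => ∑ q, f3 (sand (w k q) (rgt F (w k r)))) fun r => rfl]
    unfold Phi
    simp only [rgt_av, sand_smul, sand_add]
    ring
  have h2 : Ps F (k + (β + 1)) ≤ ∑ r, ∑ q, Phi (rgt F (w (k + β + 1) r)) (w k q) :=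
    Finset.sum_le_sum fun r _ => sum_gapG' hG (rgt_psd F (w_nonneg _ _)) k (β + 1)
  have h3 : ∑ r, ∑ q, Phi (rgt F (w (k + β + 1) r)) (w k q) ≤
      ∑ r, ∑ q, Phi (rgt F (av (w k r) (w k (r + 2 ^ (k + β))))) (w k q) := by
    rw [Finset.sum_comm, Finset.sum_comm (f := fun r q =>
      Phi (rgt F (av (w k r) (w k (r + 2 ^ (k + β))))) (w k q))]
    refine Finset.sum_le_sum fun q _ => ?_
    simp only [w_succ]
    exact sum_conv' hC F _ _ k β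
  linarith

theorem Js_nonneg (hC : ConvStmt) (F : Mx (ZMod L)) (k : ℕ) (s : ZMod L) : 0 ≤ Js F k s :=
  Finset.sum_nonneg fun _ _ => Finset.sum_nonneg fun _ _ =>
    hC _ _ _ (sand_psd _ (rgt_psd _ (w_nonneg _ _))) (sand_psd _ (rgt_psd _ (w_nonneg _ _)))

theorem Ps_succ_le (hC : ConvStmt) (hG : GapGStmt) (F : Mx (ZMod L)) (k : ℕ) :
    Ps F (k + 1) ≤ Ps F k := by
  have h1 := Js_le hC hG F k 0
  have h2 := Js_nonneg hC F k (2 ^ (k + 0))
  simp only [zero_add] at h1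
  linarith

theorem Ps_le_zero (hC : ConvStmt) (hG : GapGStmt) (F : Mx (ZMod L)) (k : ℕ) :
    Ps F k ≤ Ps F 0 := by
  induction k with
  | zero => exact le_rfl
  | succ k ih => exact (Ps_succ_le hC hG F k).trans ih

theorem ph_zero_left (F : Mx (ZMod L)) (k : ℕ) (u : ZMod L) : ph 0 F k u = Ps F k := by
  unfold ph Ps T
  have : ∀ g : ZMod L → ℝ, lft (0 : Mx (ZMod L)) g = 0 := fun g => by simp [lft]
  simp only [this, zero_add]
  exact sum_plane_swap u fun r q _ => Phi (rgt F (w k r)) (w k q)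

theorem ph_nonneg (hT : TrStmt) (F₀ F₁ : Mx (ZMod L)) (k : ℕ) (u : ZMod L) : 0 ≤ ph F₀ F₁ k u :=
  Finset.sum_nonneg fun _ _ => Finset.sum_nonneg fun _ _ =>
    Phi_nonneg hT ((lft_psd _ (w_nonneg _ _)).add (rgt_psd _ (w_nonneg _ _))) _

theorem ph_level_zero (hT : TrStmt) (F₀ F₁ : Mx (ZMod L)) (u : ZMod L) :
    ph F₀ F₁ 0 u ≤ √2 * (N3 F₀ + N3 F₁) := by
  unfold ph T
  simp only [w_zero]
  refine (Finset.sum_le_sum fun p _ => Finset.sum_le_sum fun q _ =>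
    Phi_delta hT F₀ F₁ p q (u - p - q)).trans (le_of_eq ?_)
  simp only [← Finset.mul_sum, Finset.sum_add_distrib]
  rw [sum_plane_rot u fun q r _ => ‖F₁ q r‖ ^ 3]
  rfl

theorem jump_pt (hJ : JumpStmt) (F₀ F₁ F₁' : Mx (ZMod L)) (k : ℕ) (p q r : ZMod L)
    (m₀ m₁ m₂ : ZMod L → ZMod L → ℝ) (h₀ : ∀ z x, 0 ≤ m₀ z x) (h₁ : ∀ z x, 0 ≤ m₁ z x)
    (h₂ : ∀ z x, 0 ≤ m₂ z x)
    (hm : ∀ z x, w k q z ≠ 0 → w k r x ≠ 0 →
      ∑ x', ‖F₀ x' z‖ ^ 2 * w k p x' ≤ m₀ z x ^ 2 ∧ ∑ x', ‖F₁' z x'‖ ^ 2 * w k r x' ≤ m₁ z x ^ 2 ∧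
        ∑ z', ‖F₁' z' x‖ ^ 2 * w k q z' ≤ m₂ z x ^ 2) :
    T F₀ F₁' k p q r ≤ T F₀ F₁ k p q r + 3 * ∑ z, ∑ x, w k q z * w k r x *
      (‖F₁' z x - F₁ z x‖ * ((m₀ z x + m₁ z x) * m₂ z x)) := by
  have hCC : ∀ F : Mx (ZMod L), sand (w k q) (rgt F (w k r)) =
      (dg (fun i => √(w k q i)) * F * dg (fun i => √(w k r i))) *
        (dg (fun i => √(w k q i)) * F * dg (fun i => √(w k r i)))ᴴ := fun F => by
    unfold sand rgt
    rw [← dg_sqrt_mul (w_nonneg k r)]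
    simp only [conjTranspose_mul, dg_conjTranspose, Matrix.mul_assoc]
  have hCC' : ∀ F : Mx (ZMod L), sand (w k r) (lft F (w k q)) =
      (dg (fun i => √(w k q i)) * F * dg (fun i => √(w k r i)))ᴴ *
        (dg (fun i => √(w k q i)) * F * dg (fun i => √(w k r i))) := fun F => by
    unfold sand lft
    rw [← dg_sqrt_mul (w_nonneg k q)]
    simp only [conjTranspose_mul, dg_conjTranspose, Matrix.mul_assoc]
  have h := hJ _ (sand (w k q) (lft F₀ (w k p)))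
    (dg (fun i => √(w k q i)) * F₁' * dg (fun i => √(w k r i)))
    (dg (fun i => √(w k q i)) * F₁ * dg (fun i => √(w k r i)))
    (sand_psd _ (lft_psd _ (w_nonneg _ _)))
  rw [← hCC, ← hCC, ← hCC', ← sand_add, ← sand_add] at h
  unfold T Phi
  refine (sub_le_iff_le_add.1 h).trans ?_
  refine add_le_add le_rfl (mul_le_mul_of_nonneg_left (Finset.sum_le_sum fun z _ =>
    Finset.sum_le_sum fun x _ => ?_) (by norm_num))
  rw [sand_diag (w_nonneg k q), sand_diag (w_nonneg k r), Matrix.add_apply, lft_diag, lft_diag,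
    rgt_diag, ← Complex.ofReal_add, ← Complex.ofReal_mul, ← Complex.ofReal_mul, Complex.ofReal_re,
    Complex.ofReal_re]
  have e : (dg (fun i => √(w k q i)) * F₁ * dg (fun i => √(w k r i))) z x -
      (dg (fun i => √(w k q i)) * F₁' * dg (fun i => √(w k r i))) z x =
      -(((√(w k q z) * √(w k r x) : ℝ) : ℂ) * (F₁' z x - F₁ z x)) := by
    unfold dg
    simp only [mul_diagonal, diagonal_mul]
    push_cast; ring
  rw [e, norm_neg, norm_mul, Complex.norm_real, Real.norm_of_nonneg (by positivity),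
    Real.sqrt_mul (w_nonneg k q z), Real.sqrt_mul (w_nonneg k r x)]
  by_cases hq : w k q z = 0
  · simp [hq]
  by_cases hr : w k r x = 0
  · simp [hr]
  obtain ⟨a0, a1, a2⟩ := hm z x hq hr
  have b1 : √(∑ x', ‖F₀ x' z‖ ^ 2 * w k p x' + ∑ x', ‖F₁' z x'‖ ^ 2 * w k r x') ≤
      m₀ z x + m₁ z x := by
    refine Real.sqrt_le_iff.2 ⟨add_nonneg (h₀ z x) (h₁ z x), ?_⟩
    nlinarith [mul_nonneg (h₀ z x) (h₁ z x)]
  have b2 : √(∑ z', ‖F₁' z' x‖ ^ 2 * w k q z') ≤ m₂ z x := Real.sqrt_le_iff.2 ⟨h₂ z x, a2⟩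
  have s1 := Real.mul_self_sqrt (w_nonneg k q z)
  have s2 := Real.mul_self_sqrt (w_nonneg k r x)
  have := add_nonneg (h₀ z x) (h₁ z x)
  calc _ ≤ √(w k q z) * √(w k r x) * ‖F₁' z x - F₁ z x‖ * (√(w k q z) * (m₀ z x + m₁ z x)) *
        (√(w k r x) * m₂ z x) := by gcongr
    _ = (√(w k q z) * √(w k q z)) * (√(w k r x) * √(w k r x)) *
        (‖F₁' z x - F₁ z x‖ * ((m₀ z x + m₁ z x) * m₂ z x)) := by ring
    _ = _ := by rw [s1, s2]

theorem jump (hJ : JumpStmt) (F₀ F₁ F₁' : Mx (ZMod L)) (k : ℕ) (u : ZMod L)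
    (m₀ m₁ m₂ : ZMod L → ZMod L → ℝ) (h₀ : ∀ z x, 0 ≤ m₀ z x) (h₁ : ∀ z x, 0 ≤ m₁ z x)
    (h₂ : ∀ z x, 0 ≤ m₂ z x)
    (hm₀ : ∀ z x (j j' : ℕ), j < 2 ^ k → j' < 2 ^ k →
      ∑ x', ‖F₀ x' z‖ ^ 2 * w k (-z - x + (u + (j : ZMod L) + (j' : ZMod L))) x' ≤ m₀ z x ^ 2)
    (hm₁ : ∀ z x (t : ℤ), |t| ≤ 2 ^ k →
      ∑ x', ‖F₁' z x'‖ ^ 2 * w k (x + (t : ZMod L)) x' ≤ m₁ z x ^ 2)
    (hm₂ : ∀ z x (t : ℤ), |t| ≤ 2 ^ k →
      ∑ z', ‖F₁' z' x‖ ^ 2 * w k (z + (t : ZMod L)) z' ≤ m₂ z x ^ 2) :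
    ph F₀ F₁' k u ≤ ph F₀ F₁ k u +
      3 * ∑ z, ∑ x, ‖F₁' z x - F₁ z x‖ * ((m₀ z x + m₁ z x) * m₂ z x) := by
  have h := Finset.sum_le_sum fun p (_ : p ∈ univ) => Finset.sum_le_sum fun q (_ : q ∈ univ) =>
    jump_pt hJ F₀ F₁ F₁' k p q (u - p - q) m₀ m₁ m₂ h₀ h₁ h₂ (by
      intro z x hz hx
      obtain ⟨j, hj, rfl⟩ := exists_of_w_ne_zero hz
      obtain ⟨j', hj', hx'⟩ := exists_of_w_ne_zero hx
      have hjj : |(-(j : ℤ))| ≤ 2 ^ k := by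
        rw [abs_neg, abs_of_nonneg (by positivity)]; exact_mod_cast hj.le
      have hjj' : |(-(j' : ℤ))| ≤ 2 ^ k := by
        rw [abs_neg, abs_of_nonneg (by positivity)]; exact_mod_cast hj'.le
      refine ⟨?_, ?_, ?_⟩
      · have := hm₀ (q + j) x j j' hj hj'
        rwa [show -(q + j) - x + (u + j + j') = p by rw [hx']; ring] at this
      · have := hm₁ (q + j) x _ hjj'
        rwa [show x + ((-(j' : ℤ) : ℤ) : ZMod L) = u - p - q by rw [hx']; push_cast; ring] at this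
      · have := hm₂ (q + j) x _ hjj
        rwa [show q + j + ((-(j : ℤ) : ℤ) : ZMod L) = q by push_cast; ring] at this)
  simp only [Finset.sum_add_distrib, ← Finset.mul_sum] at h
  refine h.trans (le_of_eq ?_)
  congr 2
  rw [sum_plane_swap u fun r q _ => ∑ z, ∑ x, w k q z * w k r x *
      (‖F₁' z x - F₁ z x‖ * ((m₀ z x + m₁ z x) * m₂ z x))]
  have hl : ∀ g : ZMod L → ZMod L → ZMod L → ℝ,
      ∑ a, ∑ z, ∑ x, g a z x = ∑ z, ∑ x, ∑ a, g a z x := fun g => by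
    rw [Finset.sum_comm]
    exact Finset.sum_congr rfl fun z _ => Finset.sum_comm
  simp only [hl (fun q z x => w k q z * w k _ x * _)]
  rw [hl]
  refine Finset.sum_congr rfl fun z _ => Finset.sum_congr rfl fun x _ => ?_
  simp only [← Finset.sum_mul, sum_w_left, one_mul]

end Crest.Agent.R72.Gain
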