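import Crest.Agent.R72.Basic

/-!
Row 72: basic matrix inequalities for `tr Y^{3/2}`.
-/

namespace Crest.Agent.R72

open Matrix Finset
open scoped MatrixOrder ComplexOrder

namespace MatA

variable {ι : Type} [Fintype ι] [DecidableEq ι]

theorem sqrt_psd (Y : Mx ι) : (CFC.sqrt Y).PosSemidef :=
  Matrix.nonneg_iff_posSemidef.1 (CFC.sqrt_nonneg Y)

theorem sqrt_mul {Y : Mx ι} (hY : Y.PosSemidef) : CFC.sqrt Y * CFC.sqrt Y = Y :=
  CFC.sqrt_mul_sqrt_self Y (Matrix.nonneg_iff_posSemidef.2 hY)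

theorem tr_psd_mul {A B : Mx ι} (hA : A.PosSemidef) (hB : B.PosSemidef) :
    0 ≤ (trace (A * B)).re := by
  have h := (hA.mul_mul_conjTranspose_same (CFC.sqrt B)).trace_nonneg
  rw [(sqrt_psd B).1, trace_mul_cycle, trace_mul_cycle, mul_assoc, sqrt_mul hB] at h
  exact h.1

theorem tr_psd_sq {A W : Mx ι} (hA : A.PosSemidef) (hW : W.IsHermitian) :
    0 ≤ (trace (A * W * W)).re := by
  have h := tr_psd_mul hA (posSemidef_conjTranspose_mul_self W)
  rwa [hW, ← mul_assoc] at h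

omit [DecidableEq ι] in
theorem cyc (A B C : Mx ι) : trace (A * (B * C)) = trace (C * (A * B)) := by
  rw [← mul_assoc, trace_mul_comm]

theorem cube_add (P W : Mx ι) : trace ((P + W) ^ 3) =
    trace (P ^ 3) + 3 * trace (P * P * W) + 3 * trace (P * W * W) + trace (W ^ 3) := by
  simp only [pow_succ, pow_zero, one_mul, mul_add, add_mul, trace_add, mul_assoc]
  rw [cyc W P P, cyc P W P, cyc W W P, cyc W P W, cyc W W P]
  ring

theorem f3_eq_tr {Y : Mx ι} (hY : Y.PosSemidef) : f3 Y = (trace (CFC.sqrt Y * Y)).re := by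
  unfold f3
  rw [pow_succ', sq, sqrt_mul hY]

/-- Young's inequality. -/
theorem young {Y Z : Mx ι} (hY : Y.PosSemidef) (hZ : Z.PosSemidef) :
    3 / 2 * (trace (Z * Y)).re - 1 / 2 * (trace (Z ^ 3)).re ≤ f3 Y := by
  obtain ⟨W, hW⟩ : ∃ W, CFC.sqrt Y = Z + W := ⟨_, (add_sub_cancel Z _).symm⟩
  have hWh : W.IsHermitian := by
    have := (sqrt_psd Y).1.sub hZ.1
    rwa [hW, add_sub_cancel_left] at this
  have h1 := tr_psd_sq hZ hWh
  have h2 := tr_psd_sq (sqrt_psd Y) hWh
  have h3 : trace (Z * Y) = trace (Z ^ 3) + 2 * trace (Z * Z * W) + trace (Z * W * W) := by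
    rw [← sqrt_mul hY, hW]
    simp only [pow_succ, pow_zero, one_mul, mul_add, add_mul, trace_add, mul_assoc]
    rw [cyc Z W Z]
    ring
  have h4 : trace (CFC.sqrt Y * W * W) = trace (Z * W * W) + trace (W ^ 3) := by
    rw [hW]
    simp only [pow_succ, pow_zero, one_mul, add_mul, trace_add]
  unfold f3
  rw [h4] at h2
  rw [h3, hW, cube_add]
  simp only [Complex.add_re, Complex.mul_re, Complex.re_ofNat, Complex.im_ofNat] at h2 ⊢
  linarith

omit [Fintype ι] [DecidableEq ι] in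
theorem half_psd {a : Mx ι} (ha : a.PosSemidef) : ((1 / 2 : ℂ) • a).PosSemidef :=
  ha.smul (by rw [show (1 / 2 : ℂ) = ((1 / 2 : ℝ) : ℂ) by simp]; exact_mod_cast one_half_pos.le)

theorem f3_eig {Y : Mx ι} (hY : Y.PosSemidef) : f3 Y = ∑ i, √(hY.1.eigenvalues i) ^ 3 := by
  have h : CFC.sqrt Y = Unitary.conjStarAlgAut ℂ _ hY.1.eigenvectorUnitary
      (dg fun i => √(hY.1.eigenvalues i)) := by
    refine CFC.sqrt_unique ?_ (Matrix.nonneg_iff_posSemidef.2 ?_)
    · rw [← map_mul, dg_sqrt_mul hY.eigenvalues_nonneg]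
      exact hY.1.spectral_theorem.symm
    · exact (dg_psd fun i => Real.sqrt_nonneg _).mul_mul_conjTranspose_same _
  unfold f3
  rw [h, ← map_pow, Unitary.conjStarAlgAut_apply, trace_mul_cycle, Unitary.coe_star_mul_self,
    one_mul]
  unfold dg
  rw [diagonal_pow, trace_diagonal, Complex.re_sum]
  refine Finset.sum_congr rfl fun i _ => ?_
  rw [Pi.pow_apply, ← Complex.ofReal_pow, Complex.ofReal_re]

theorem f3_roots {Y : Mx ι} (hY : Y.PosSemidef) :
    f3 Y = (Y.charpoly.roots.map fun z : ℂ => √z.re ^ 3).sum := by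
  rw [f3_eig hY, hY.1.roots_charpoly_eq_eigenvalues, Multiset.map_map]
  rfl

omit [DecidableEq ι] in
theorem diag_re (A : Mx ι) (x : ι) : ((Aᴴ * A) x x).re = ∑ k, ‖A k x‖ ^ 2 := by
  rw [Matrix.mul_apply, Complex.re_sum]
  refine Finset.sum_congr rfl fun k _ => ?_
  rw [conjTranspose_apply, Complex.star_def, Complex.conj_mul', ← Complex.ofReal_pow,
    Complex.ofReal_re]

omit [DecidableEq ι] in
theorem entry_le (A B : Mx ι) (x z : ι) :
    ‖(Aᴴ * B) x z‖ ≤ √((Aᴴ * A) x x).re * √((Bᴴ * B) z z).re := by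
  rw [diag_re, diag_re, Matrix.mul_apply]
  refine (norm_sum_le _ _).trans (le_trans (le_of_eq ?_) (Real.sum_mul_le_sqrt_mul_sqrt _ _ _))
  refine Finset.sum_congr rfl fun k _ => ?_
  rw [norm_mul, conjTranspose_apply, norm_star]

omit [DecidableEq ι] in
theorem re_tr_conj (A : Mx ι) : (trace Aᴴ).re = (trace A).re := by
  rw [trace_conjTranspose, Complex.star_def, Complex.conj_re]

end MatA

open MatA

theorem convStmt : ConvStmt := by
  intro ι _ _ a a' ha ha'
  have hY := half_psd (ha.add ha')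
  have h1 := young ha (sqrt_psd ((1 / 2 : ℂ) • (a + a')))
  have h2 := young ha' (sqrt_psd ((1 / 2 : ℂ) • (a + a')))
  have h3 := f3_eq_tr hY
  rw [mul_smul_comm, trace_smul, mul_add, trace_add, smul_eq_mul] at h3
  unfold Jg
  have h4 : f3 ((1 / 2 : ℂ) • (a + a')) = (trace (CFC.sqrt ((1 / 2 : ℂ) • (a + a')) ^ 3)).re := rfl
  rw [← h4] at h1 h2
  norm_num at h1 h2 h3 ⊢
  linarith

theorem trStmt : TrStmt := by
  intro ι _ _ Y hY
  have hn := hY.eigenvalues_nonneg
  have ht : (trace Y).re = ∑ i, hY.1.eigenvalues i := by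
    rw [hY.1.trace_eq_sum_eigenvalues, Complex.re_sum]
    rfl
  rw [f3_eig hY, ht]
  refine ⟨by positivity, ?_⟩
  rw [pow_succ, Real.sq_sqrt (Finset.sum_nonneg fun i _ => hn i), Finset.sum_mul]
  refine Finset.sum_le_sum fun i _ => ?_
  rw [pow_succ, Real.sq_sqrt (hn i)]
  exact mul_le_mul_of_nonneg_left (Real.sqrt_le_sqrt
    (Finset.single_le_sum (fun j _ => hn j) (Finset.mem_univ i))) (hn i)

theorem swapStmt : SwapStmt := by
  intro ι _ _ T
  rw [f3_roots (posSemidef_conjTranspose_mul_self T), f3_roots (posSemidef_self_mul_conjTranspose T),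
    charpoly_mul_comm]

theorem jumpStmt : JumpStmt := by
  intro ι _ _ u C C' hu
  have hY := hu.add (posSemidef_self_mul_conjTranspose C)
  have hY' := hu.add (posSemidef_self_mul_conjTranspose C')
  have h1 := young hY' (sqrt_psd (u + C * Cᴴ))
  have h2 := f3_eq_tr hY
  have h4 : f3 (u + C * Cᴴ) = (trace (CFC.sqrt (u + C * Cᴴ) ^ 3)).re := rfl
  have hP := sqrt_psd (u + C * Cᴴ)
  have hPP : (CFC.sqrt (u + C * Cᴴ))ᴴ * CFC.sqrt (u + C * Cᴴ) = u + C * Cᴴ := by
    rw [hP.1, sqrt_mul hY]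
  rw [← h4] at h1
  generalize CFC.sqrt (u + C * Cᴴ) = P at *
  have e : u + C' * C'ᴴ = (u + C * Cᴴ) + (C' - C) * Cᴴ + C * (C' - C)ᴴ + (C' - C) * (C' - C)ᴴ := by
    rw [conjTranspose_sub]
    noncomm_ring
  have h5 := tr_psd_mul hP (posSemidef_self_mul_conjTranspose (C' - C))
  have h6 : (trace (P * (C * (C' - C)ᴴ))).re = (trace (P * ((C' - C) * Cᴴ))).re := by
    rw [← re_tr_conj, conjTranspose_mul, conjTranspose_mul, conjTranspose_conjTranspose, hP.1,
      trace_mul_comm]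
  have h7 : ‖trace (P * ((C' - C) * Cᴴ))‖ ≤ ∑ z, ∑ x, ‖C' z x - C z x‖ *
      √(((u + C * Cᴴ) z z).re) * √(((Cᴴ * C) x x).re) := by
    rw [cyc, ← mul_assoc, trace_mul_comm, trace]
    refine (norm_sum_le _ _).trans (Finset.sum_le_sum fun z _ => ?_)
    rw [diag_apply, Matrix.mul_apply]
    refine (norm_sum_le _ _).trans (Finset.sum_le_sum fun x _ => ?_)
    rw [norm_mul, Matrix.sub_apply, mul_assoc]
    refine mul_le_mul_of_nonneg_left ?_ (norm_nonneg _)
    have := entry_le C P x z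
    rwa [hPP, mul_comm] at this
  have h8 := (Complex.abs_re_le_norm (trace (P * ((C' - C) * Cᴴ)))).trans h7
  have h9 := neg_abs_le (trace (P * ((C' - C) * Cᴴ))).re
  have h10 : (trace (P * (u + C' * C'ᴴ))).re = (trace (P * (u + C * Cᴴ))).re +
      (trace (P * ((C' - C) * Cᴴ))).re + (trace (P * (C * (C' - C)ᴴ))).re +
      (trace (P * ((C' - C) * (C' - C)ᴴ))).re := by
    rw [e, mul_add P, mul_add P, mul_add P _ ((C' - C) * Cᴴ), trace_add, trace_add, trace_add,
      Complex.add_re, Complex.add_re, Complex.add_re]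
  linarith

end Crest.Agent.R72
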