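import Crest.Agent.R72.MatA

/-!
Row 72: the Jensen gap of `tr Y^{3/2}`.
-/

set_option linter.unusedSectionVars false

namespace Crest.Agent.R72

open Matrix Finset
open scoped MatrixOrder ComplexOrder

namespace MatB

open MatA

variable {ι : Type} [Fintype ι] [DecidableEq ι]

theorem sqrt_mono {a b : Mx ι} (h : (b - a).PosSemidef) :
    (CFC.sqrt b - CFC.sqrt a).PosSemidef := by
  open scoped Matrix.Norms.L2Operator in
  exact Matrix.le_iff.1 (CFC.sqrt_le_sqrt a b (Matrix.le_iff.2 h))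

theorem e_psd {e : ℝ} (he : 0 ≤ e) : ((e : ℂ) • (1 : Mx ι)).PosSemidef :=
  PosSemidef.one.smul (by exact_mod_cast he)

theorem eq_zero_of_tr {P X : Mx ι} {e : ℝ} (he : 0 < e) (hP : P.PosSemidef)
    (h : (trace ((P + (e : ℂ) • 1) * (Xᴴ * X))).re ≤ 0) : X = 0 := by
  have h1 := tr_psd_mul hP (posSemidef_conjTranspose_mul_self X)
  have h2 := (posSemidef_conjTranspose_mul_self X).trace_nonneg
  rw [add_mul, smul_mul_assoc, one_mul, trace_add, trace_smul, smul_eq_mul, Complex.add_re,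
    Complex.re_ofReal_mul] at h
  have h3 : (trace (Xᴴ * X)).re = 0 := by
    have h4 : 0 ≤ (trace (Xᴴ * X)).re := h2.1
    nlinarith
  rw [← trace_conjTranspose_mul_self_eq_zero_iff]
  exact Complex.ext h3 h2.2.symm

theorem syl_inj {P X : Mx ι} {e : ℝ} (he : 0 < e) (hP : P.PosSemidef)
    (h : (P + (e : ℂ) • 1) * X + X * (P + (e : ℂ) • 1) = 0) : X = 0 := by
  have hQ := hP.add (e_psd (ι := ι) he.le)
  refine eq_zero_of_tr he hP ?_
  generalize P + (e : ℂ) • 1 = Q at *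
  have h1 := tr_psd_mul hQ (posSemidef_self_mul_conjTranspose X)
  have h2 := congrArg (fun M => (trace (Xᴴ * M)).re) h
  simp only [mul_add, trace_add, Complex.add_re, mul_zero, trace_zero, Complex.zero_re] at h2
  rw [cyc Xᴴ X Q, cyc Xᴴ Q X, cyc X Xᴴ Q] at h2
  linarith

theorem syl_surj {P : Mx ι} {e : ℝ} (he : 0 < e) (hP : P.PosSemidef) {Δ : Mx ι}
    (hΔ : Δ.IsHermitian) :
    ∃ X : Mx ι, X.IsHermitian ∧ (P + (e : ℂ) • 1) * X + X * (P + (e : ℂ) • 1) = Δ := by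
  have hQ := hP.add (e_psd (ι := ι) he.le)
  let T : Mx ι →ₗ[ℂ] Mx ι :=
    LinearMap.mulLeft ℂ (P + (e : ℂ) • 1) + LinearMap.mulRight ℂ (P + (e : ℂ) • 1)
  have hT : Function.Injective T := (injective_iff_map_eq_zero T).2 fun X hX => syl_inj he hP hX
  obtain ⟨X, hX⟩ := LinearMap.injective_iff_surjective.1 hT Δ
  refine ⟨X, hT ?_, hX⟩
  rw [hX]
  have h := congrArg conjTranspose hX
  rw [hΔ] at h
  rw [← h]
  change _ = ((P + (e : ℂ) • 1) * X + X * (P + (e : ℂ) • 1))ᴴ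
  rw [conjTranspose_add, conjTranspose_mul, conjTranspose_mul, hQ.1, add_comm]
  rfl

theorem psd_of_syl {P Z : Mx ι} {e : ℝ} (he : 0 < e) (hP : P.PosSemidef) (hZ : Z.IsHermitian)
    (h : ((P + (e : ℂ) • 1) * Z + Z * (P + (e : ℂ) • 1)).PosSemidef) : Z.PosSemidef := by
  have hs : IsSelfAdjoint Z := hZ
  have hn : (Z⁻).PosSemidef := Matrix.nonneg_iff_posSemidef.1 (CFC.negPart_nonneg Z)
  have h1 : Z * Z⁻ = -(Z⁻ * Z⁻) := by
    conv_lhs => enter [1]; rw [← CFC.posPart_sub_negPart Z hs]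
    rw [sub_mul, CFC.posPart_mul_negPart, zero_sub]
  have h2 : Z⁻ * Z = -(Z⁻ * Z⁻) := by
    conv_lhs => enter [2]; rw [← CFC.posPart_sub_negPart Z hs]
    rw [mul_sub, CFC.negPart_mul_posPart, zero_sub]
  have h3 : Z⁻ = 0 := by
    refine eq_zero_of_tr he hP ?_
    have h4 := tr_psd_mul h hn
    generalize P + (e : ℂ) • 1 = Q at *
    rw [add_mul, trace_add, mul_assoc, mul_assoc, h1, cyc Z Q, cyc _ Z Q, h2, mul_neg,
      trace_neg, Complex.add_re, Complex.neg_re] at h4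
    rw [hn.1]
    linarith
  exact Matrix.nonneg_iff_posSemidef.1 ((CFC.negPart_eq_zero_iff Z hs).1 h3)

theorem qf_le {Q X X₀ : Mx ι} (hQ : Q.PosSemidef) (hX : X.IsHermitian) (hX₀ : X₀.IsHermitian) :
    qf Q (Q * X₀ + X₀ * Q) X ≤ qf Q (Q * X₀ + X₀ * Q) X₀ := by
  have h := tr_psd_sq hQ (hX₀.sub hX)
  unfold qf
  simp only [mul_add, mul_sub, sub_mul, trace_add, trace_sub, mul_assoc, Complex.add_re,
    Complex.sub_re] at h ⊢
  rw [cyc X X₀ Q, cyc X Q X₀, cyc X₀ X Q, cyc X₀ X₀ Q, cyc X₀ Q X₀, cyc X₀ X₀ Q]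
  linarith

theorem gap_e {Y Δ X : Mx ι} (h1 : (Y + Δ).PosSemidef) (h2 : (Y - Δ).PosSemidef)
    (hY : Y.PosSemidef) (hΔ : Δ.IsHermitian) (hX : X.IsHermitian) {e : ℝ} (he : 0 < e) :
    3 / 2 * (trace ((CFC.sqrt Y + (e : ℂ) • 1) * Y)).re -
      1 / 2 * (trace ((CFC.sqrt Y + (e : ℂ) • 1) ^ 3)).re +
      3 / 4 * qf (CFC.sqrt Y + (e : ℂ) • 1) Δ X ≤ (f3 (Y + Δ) + f3 (Y - Δ)) / 2 := by
  have hP := sqrt_psd Y
  obtain ⟨X₀, hX₀, hs⟩ := syl_surj he hP hΔ
  have hQ := hP.add (e_psd (ι := ι) he.le)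
  have hQ2 : ((CFC.sqrt Y + (e : ℂ) • 1) * (CFC.sqrt Y + (e : ℂ) • 1) - Y).PosSemidef := by
    have e1 : (CFC.sqrt Y + (e : ℂ) • 1) * (CFC.sqrt Y + (e : ℂ) • 1) - Y =
        (e : ℂ) • (CFC.sqrt Y + (CFC.sqrt Y + (e : ℂ) • 1)) := by
      rw [add_mul, mul_add, sqrt_mul hY, mul_smul_comm, smul_mul_assoc, mul_one, one_mul,
        smul_add (e : ℂ) (CFC.sqrt Y) (CFC.sqrt Y + _)]
      abel
    rw [e1]
    exact (hP.add hQ).smul (by exact_mod_cast he.le)
  have hZ1 : (CFC.sqrt Y + (e : ℂ) • 1 + X₀).PosSemidef := by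
    refine psd_of_syl he hP (hQ.1.add hX₀) ?_
    convert ((hQ2.add hQ2).add hY).add h1 using 1
    rw [← hs]
    generalize CFC.sqrt Y + (e : ℂ) • 1 = Q
    noncomm_ring
  have hZ2 : (CFC.sqrt Y + (e : ℂ) • 1 + -X₀).PosSemidef := by
    refine psd_of_syl he hP (hQ.1.add hX₀.neg) ?_
    convert ((hQ2.add hQ2).add hY).add h2 using 1
    rw [← hs]
    generalize CFC.sqrt Y + (e : ℂ) • 1 = Q
    noncomm_ring
  have y1 := young h1 hZ1
  have y2 := young h2 hZ2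
  have q := qf_le hQ hX hX₀
  rw [hs] at q
  generalize CFC.sqrt Y + (e : ℂ) • 1 = Q at *
  rw [cube_add] at y1 y2
  have n3 : (-X₀) ^ 3 = -(X₀ ^ 3) := Odd.neg_pow (by decide) X₀
  unfold qf at q ⊢
  simp only [n3, mul_add, add_mul, mul_sub, mul_neg, neg_mul, neg_neg, trace_add, trace_sub,
    trace_neg, Complex.add_re, Complex.sub_re, Complex.neg_re, Complex.mul_re, Complex.re_ofNat,
    Complex.im_ofNat] at y1 y2
  linarith

theorem jg_comm (a a' : Mx ι) : Jg a a' = Jg a' a := by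
  unfold Jg
  rw [add_comm a, add_comm (f3 a)]

theorem half_add_sub (Y Δ : Mx ι) : (1 / 2 : ℂ) • (Y + Δ + (Y - Δ)) = Y := by
  module

/-- exact second order remainder -/
theorem rem {Y D : Mx ι} (hY : Y.PosSemidef) (hD : (Y + D).PosSemidef) :
    ∃ X : Mx ι, X.IsHermitian ∧
      f3 (Y + D) - f3 Y - 3 / 2 * (trace (CFC.sqrt Y * D)).re = qf (CFC.sqrt Y) D X := by
  obtain ⟨W, hW⟩ : ∃ W, CFC.sqrt (Y + D) = CFC.sqrt Y + W := ⟨_, (add_sub_cancel _ _).symm⟩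
  have hWh : W.IsHermitian := by
    have := (sqrt_psd (Y + D)).1.sub (sqrt_psd Y).1
    rwa [hW, add_sub_cancel_left] at this
  have e : D = CFC.sqrt Y * W + W * CFC.sqrt Y + W * W := by
    have h := sqrt_mul hD
    rw [hW, add_mul, mul_add, mul_add, sqrt_mul hY, add_assoc, add_right_inj] at h
    rw [← h, add_assoc]
  refine ⟨(1 / 2 : ℂ) • W, ?_, ?_⟩
  · unfold IsHermitian
    rw [conjTranspose_smul, hWh]
    simp
  unfold f3 qf
  rw [hW, cube_add]
  generalize CFC.sqrt Y = P at *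
  subst e
  simp only [pow_succ, pow_zero, one_mul, mul_add, trace_add, mul_assoc, smul_mul_assoc,
    mul_smul_comm, trace_smul, smul_eq_mul]
  rw [cyc P W P, cyc W W P, cyc W P W, cyc W W P]
  norm_num
  ring

theorem half_herm {X : Mx ι} (hX : X.IsHermitian) (c : ℝ) : ((c : ℂ) • X).IsHermitian := by
  unfold IsHermitian
  rw [conjTranspose_smul, hX]
  simp

theorem qf_smul (P D X : Mx ι) (c : ℝ) : qf P D ((c : ℂ) • X) =
    2 * c * (trace (X * D)).re - 2 * c ^ 2 * (trace (P * X * X)).re := by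
  unfold qf
  simp only [smul_mul_assoc, mul_smul_comm, trace_smul, smul_eq_mul, Complex.re_ofReal_mul]
  ring

end MatB

open MatA MatB

theorem gapStmt : GapStmt := by
  intro ι _ _ Y Δ X h1 h2 hX
  have hY : Y.PosSemidef := by
    have := half_psd (h1.add h2)
    rwa [half_add_sub] at this
  have hΔ : Δ.IsHermitian := by
    have := h1.1.sub hY.1
    rwa [add_sub_cancel_left] at this
  let g : ℝ → ℝ := fun e => 3 / 2 * (trace ((CFC.sqrt Y + (e : ℂ) • 1) * Y)).re -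
      1 / 2 * (trace ((CFC.sqrt Y + (e : ℂ) • 1) ^ 3)).re +
      3 / 4 * qf (CFC.sqrt Y + (e : ℂ) • 1) Δ X
  have hg : Continuous g := by
    unfold g qf
    fun_prop
  have h3 : g 0 ≤ (f3 (Y + Δ) + f3 (Y - Δ)) / 2 :=
    le_of_tendsto ((hg.tendsto 0).mono_left (nhdsWithin_le_nhds (s := Set.Ioi 0)))
      (eventually_nhdsWithin_of_forall fun e he => gap_e h1 h2 hY hΔ hX he)
  simp only [g, Complex.ofReal_zero, zero_smul, add_zero] at h3
  have h4 : f3 Y = (trace (CFC.sqrt Y ^ 3)).re := rfl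
  rw [← h4, ← f3_eq_tr hY] at h3
  unfold Jg
  rw [half_add_sub]
  linarith

theorem mixStmt : MixStmt := by
  intro ι _ _ a a' b b' ha ha' hb hb'
  have ca := convStmt ι a a' ha ha'
  have cb := convStmt ι b b' hb hb'
  have c := convStmt ι _ _ (ha'.add hb') (ha.add hb)
  have hA := half_psd (ha.add ha')
  have hB := half_psd (hb.add hb')
  obtain ⟨A, hA'⟩ : ∃ A, A = (1 / 2 : ℂ) • (a + a') := ⟨_, rfl⟩
  obtain ⟨B, hB'⟩ : ∃ B, B = (1 / 2 : ℂ) • (b + b') := ⟨_, rfl⟩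
  obtain ⟨d, hd⟩ : ∃ d, d = (1 / 2 : ℂ) • (a' - a) := ⟨_, rfl⟩
  obtain ⟨e, he⟩ : ∃ e, e = (1 / 2 : ℂ) • (b' - b) := ⟨_, rfl⟩
  rw [← hA'] at hA
  rw [← hB'] at hB
  have e1 : a' = A + d := by rw [hA', hd]; module
  have e2 : a = A - d := by rw [hA', hd]; module
  have e3 : b' = B + e := by rw [hB', he]; module
  have e4 : b = B - e := by rw [hB', he]; module
  have hY := hA.add hB
  have key : ∀ X : Mx ι, X.IsHermitian →
      qf (CFC.sqrt (A + B)) (d - e) X ≤ 8 / 3 * (Jg a a' + Jg b b') := by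
    intro X hX
    have g1 := gapStmt ι A d _ (e1 ▸ ha') (e2 ▸ ha) (half_herm hX (1 / 2))
    have g2 := gapStmt ι B e _ (e3 ▸ hb') (e4 ▸ hb) (half_herm hX (-1 / 2))
    rw [← e1, ← e2, jg_comm, qf_smul] at g1
    rw [← e3, ← e4, jg_comm, qf_smul] at g2
    have m1 := tr_psd_sq (sqrt_mono (a := A) (b := A + B) (by rwa [add_sub_cancel_left])) hX
    have m2 := tr_psd_sq (sqrt_mono (a := B) (b := A + B) (by rwa [add_sub_cancel_right])) hX
    unfold qf
    simp only [sub_mul, mul_sub, trace_sub, Complex.sub_re] at m1 m2 ⊢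
    linarith
  have f1 : a' + b = A + B + (d - e) := by rw [e1, e4]; abel
  have f2 : a + b' = A + B + -(d - e) := by rw [e2, e3]; abel
  obtain ⟨X₁, hX₁, r1⟩ := rem hY (f1 ▸ ha'.add hb)
  obtain ⟨X₂, hX₂, r2⟩ := rem hY (f2 ▸ ha.add hb')
  have k1 := key X₁ hX₁
  have k2 := key (-X₂) hX₂.neg
  have f3' : (1 / 2 : ℂ) • (a' + b' + (a + b)) = A + B := by rw [hA', hB']; module
  unfold Jg at c
  rw [f3'] at c
  rw [← f1] at r1
  rw [← f2] at r2
  unfold qf at r1 r2 k1 k2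
  simp only [mul_neg, neg_mul, neg_neg, trace_neg, Complex.neg_re] at r2 k2
  linarith

end Crest.Agent.R72
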