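import Crest.Agent.R72.Defs

/-!
Row 72: from the count bound to the variation bound (S0095) and to S0096.
-/

set_option autoImplicit false
set_option linter.unusedVariables false

namespace Crest.Agent.R72

open MeasureTheory Filter Set Crest.AnalysisR
open scoped ENNReal

namespace VarAux

lemma rpow_sum_le {α : Type*} (s : Finset α) (f : α → ℝ≥0∞) {p : ℝ} (h0 : 0 < p) (h1 : p ≤ 1) :
    (∑ i ∈ s, f i) ^ p ≤ ∑ i ∈ s, f i ^ p := by
  classical
  induction s using Finset.induction_on with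
  | empty => simp [h0]
  | insert a s ha ih =>
    simp only [Finset.sum_insert ha]
    exact (ENNReal.rpow_add_le_add_rpow _ _ h0.le h1).trans (add_le_add le_rfl ih)

lemma comb {ι : Type*} [Fintype ι] (B : ι → ℝ≥0∞) (S : ℕ → ℝ≥0∞)
    (h : ∀ (n : ℕ) (T : Finset ι), T.card ≤ n → ∑ j ∈ T, B j ≤ S n) {r p : ℝ} (hr : 0 < r)
    (h0 : 0 < p) (h1 : p ≤ 1) :
    (∑ j, B j ^ r) ^ p ≤ ∑' k : ℕ, (2 ^ (k + 1) * ((2 ^ k)⁻¹ * S (2 ^ k)) ^ r) ^ p := by
  classical
  let N : ι → ℕ := fun j => (Finset.univ.filter fun i => B j ≤ B i).card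
  have hN : ∀ j, N j ≠ 0 := fun j => Finset.card_ne_zero.mpr ⟨j, by simp⟩
  have hB : ∀ j, B j ≤ (2 ^ Nat.log 2 (N j))⁻¹ * S (2 ^ Nat.log 2 (N j)) := fun j => by
    obtain ⟨T, hT, hc⟩ := Finset.exists_subset_card_eq (Nat.pow_log_le_self 2 (hN j))
    have h2 := (Finset.card_nsmul_le_sum T B (B j) fun i hi =>
      (Finset.mem_filter.mp (hT hi)).2).trans (h _ T hc.le)
    rw [hc, nsmul_eq_mul] at h2
    push_cast at h2
    calc B j = (2 ^ Nat.log 2 (N j))⁻¹ * (2 ^ Nat.log 2 (N j) * B j) := by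
          rw [← mul_assoc, ENNReal.inv_mul_cancel (by simp) (by simp), one_mul]
      _ ≤ _ := mul_le_mul_right h2 _
  have hc : ∀ k, (Finset.univ.filter fun j => Nat.log 2 (N j) = k).card ≤ 2 ^ (k + 1) := fun k => by
    rcases (Finset.univ.filter fun j => Nat.log 2 (N j) = k).eq_empty_or_nonempty with h | h
    · simp [h]
    · obtain ⟨j, hj, hm⟩ := Finset.exists_min_image _ B h
      have := Nat.lt_pow_succ_log_self (b := 2) (by norm_num) (N j)
      rw [(Finset.mem_filter.mp hj).2] at this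
      exact (Finset.card_le_card fun i hi => by simpa using hm i hi).trans this.le
  rw [← Finset.sum_fiberwise_of_maps_to (g := fun j => Nat.log 2 (N j))
    (t := Finset.univ.image fun j => Nat.log 2 (N j)) fun j hj => Finset.mem_image_of_mem _ hj]
  refine (rpow_sum_le _ _ h0 h1).trans ((Finset.sum_le_sum fun k _ => ?_).trans
    (ENNReal.sum_le_tsum _))
  refine ENNReal.rpow_le_rpow ((Finset.sum_le_card_nsmul _ _ (((2 ^ k)⁻¹ * S (2 ^ k)) ^ r)
    fun j hj => ?_).trans ?_) h0.le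
  · rw [← (Finset.mem_filter.mp hj).2]
    exact ENNReal.rpow_le_rpow (hB j) hr.le
  · rw [nsmul_eq_mul]
    exact mul_le_mul_left (by exact_mod_cast hc k) _

lemma chain (F G : ℝ × ℝ → ℂ) (z : ℝ × ℝ) {J : ℕ} (t : Fin (J + 2) → ℚ) (ht : StrictMono t)
    (h0 : 0 < t 0) (n : ℕ) (T : Finset (Fin (J + 1))) (hT : T.card ≤ n) :
    ∑ j ∈ T, ‖annularTriangularHT F G (t (Fin.castSucc j) : ℝ) (t (Fin.succ j) : ℝ) z‖ₑ ≤
      annulusCount n F G z := by
  rw [← Finset.sum_coe_sort, ← T.equivFin.symm.sum_comp]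
  have key : ∀ i j : Fin (J + 1), i < j → t i.succ ≤ t j.castSucc := fun i j h =>
    ht.monotone (Fin.succ_le_castSucc_iff.mpr h)
  refine le_iSup₂_of_le T.card hT (le_iSup₂_of_le
    (fun j => t (Fin.castSucc (T.equivFin.symm j : Fin (J + 1))))
    (fun j => t (Fin.succ (T.equivFin.symm j : Fin (J + 1)))) (le_iSup₂_of_le
    (fun j => ⟨h0.trans_le (ht.monotone (Fin.zero_le _)), ht Fin.castSucc_lt_succ⟩)
    (fun i j h => ?_) le_rfl))
  have : (T.equivFin.symm i : Fin (J + 1)) ≠ T.equivFin.symm j := fun e =>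
    h (T.equivFin.symm.injective (Subtype.ext e))
  exact (lt_or_gt_of_ne this).imp (key _ _) (key _ _)

lemma pointwise (F G : ℝ × ℝ → ℂ) (z : ℝ × ℝ) {r : ℝ} (hr : 2 < r) :
    annularVariation r F G z ^ (3 / 2 : ℝ) ≤ ∑' k : ℕ, (2 ^ (k + 1)) ^ (1 / r * (3 / 2)) *
      ((2 ^ k)⁻¹ ^ (3 / 2 : ℝ) * annulusCount (2 ^ k) F G z ^ (3 / 2 : ℝ)) := by
  have hr0 : 0 < r := by linarith
  have hp : 0 < 1 / r * (3 / 2) := by positivity
  rw [← ENNReal.le_rpow_inv_iff (by norm_num)]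
  refine iSup₂_le fun J t => iSup₂_le fun ht h0 => ?_
  rw [ENNReal.le_rpow_inv_iff (by norm_num), ← ENNReal.rpow_mul]
  refine (comb _ (fun n => annulusCount n F G z) (chain F G z t ht h0) hr0 hp (by
    rw [div_mul_div_comm, div_le_one (by positivity)]
    linarith)).trans (le_of_eq (tsum_congr fun k => ?_))
  rw [ENNReal.mul_rpow_of_nonneg _ _ hp.le, ← ENNReal.rpow_mul,
    show r * (1 / r * (3 / 2)) = 3 / 2 by field_simp, ENNReal.mul_rpow_of_nonneg _ _ (by norm_num)]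

lemma weight {C : ℝ} (hC : 0 ≤ C) (r : ℝ) (k : ℕ) :
    ((2 : ℝ≥0∞) ^ (k + 1)) ^ (1 / r * (3 / 2)) * ((2 ^ k)⁻¹ ^ (3 / 2 : ℝ) *
      ENNReal.ofReal (C * √((2 ^ k : ℕ) : ℝ)) ^ (3 / 2 : ℝ)) =
      ENNReal.ofReal C ^ (3 / 2 : ℝ) * 2 ^ (1 / r * (3 / 2)) *
        (2 ^ (1 / r * (3 / 2) - 3 / 4)) ^ k := by
  have e : ENNReal.ofReal √((2 ^ k : ℕ) : ℝ) = 2 ^ ((k : ℝ) * (1 / 2)) := by
    rw [Real.sqrt_eq_rpow, ← ENNReal.ofReal_rpow_of_nonneg (by positivity) (by norm_num),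
      ENNReal.ofReal_natCast, ENNReal.rpow_mul]
    simp
  rw [ENNReal.ofReal_mul hC, e, ENNReal.mul_rpow_of_nonneg _ _ (by norm_num),
    ← ENNReal.rpow_natCast, ← ENNReal.rpow_natCast, ← ENNReal.rpow_natCast, ← ENNReal.rpow_neg]
  simp only [← ENNReal.rpow_mul]
  rw [mul_left_comm _ (ENNReal.ofReal C ^ _), mul_left_comm _ (ENNReal.ofReal C ^ _),
    mul_assoc (ENNReal.ofReal C ^ _),
    ← ENNReal.rpow_add _ _ (by simp) (by simp), ← ENNReal.rpow_add _ _ (by simp) (by simp),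
    ← ENNReal.rpow_add _ _ (by simp) (by simp)]
  congr 2
  push_cast
  ring

end VarAux

open VarAux in
theorem varStmt_of (h : CountStmt) : VarStmt := by
  obtain ⟨C, hC, h⟩ := h
  intro r hr
  let W : ℝ≥0∞ := ENNReal.ofReal C ^ (3 / 2 : ℝ) * 2 ^ (1 / r * (3 / 2)) *
    ∑' k : ℕ, (2 ^ (1 / r * (3 / 2) - 3 / 4)) ^ k
  have hW : W ≠ ∞ := by
    refine ENNReal.mul_ne_top (ENNReal.mul_ne_top
      (ENNReal.rpow_ne_top_of_nonneg (by norm_num) ENNReal.ofReal_ne_top)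
      (ENNReal.rpow_ne_top_of_ne_zero (by simp) (by simp))) ?_
    rw [ENNReal.tsum_geometric, ENNReal.inv_ne_top, ne_eq, tsub_eq_zero_iff_le, not_le]
    refine ENNReal.rpow_lt_one_of_one_lt_of_neg (by simp) ?_
    have : 1 / r < 1 / 2 := one_div_lt_one_div_of_lt (by norm_num) hr
    linarith
  refine ⟨(W ^ (2 / 3 : ℝ)).toReal, fun F G hF hG => ?_⟩
  have h1 : ∫⁻ z, annularVariation r F G z ^ (3 / 2 : ℝ) ≤
      W * (eLpNorm F 3 volume * eLpNorm G 3 volume) ^ (3 / 2 : ℝ) := by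
    have m := fun k : ℕ => (h (2 ^ k) Nat.one_le_two_pow F G hF hG).1.pow_const (3 / 2 : ℝ)
    refine (lintegral_mono fun z => pointwise F G z hr).trans ?_
    unfold W
    rw [lintegral_tsum fun k => ((m k).const_mul _).const_mul _, ← ENNReal.tsum_mul_left,
      ← ENNReal.tsum_mul_right]
    refine ENNReal.tsum_le_tsum fun k => ?_
    rw [lintegral_const_mul'' _ ((m k).const_mul _), lintegral_const_mul'' _ (m k), ← weight hC,
      mul_assoc, mul_assoc, ← ENNReal.mul_rpow_of_nonneg (ENNReal.ofReal _) _ (by norm_num),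
      ← mul_assoc (ENNReal.ofReal _)]
    exact mul_le_mul_right (mul_le_mul_right (h (2 ^ k) Nat.one_le_two_pow F G hF hG).2 _) _
  refine (ENNReal.rpow_le_rpow h1 (by norm_num)).trans (le_of_eq ?_)
  rw [ENNReal.ofReal_toReal (ENNReal.rpow_ne_top_of_nonneg (by norm_num) hW),
    ENNReal.mul_rpow_of_nonneg _ _ (by norm_num), ← ENNReal.rpow_mul, mul_assoc]
  norm_num

theorem s0096_of (h : CountStmt) :
    ∃ C : ℝ, ∀ n : ℕ, 1 ≤ n → ∀ F G : ℝ × ℝ → ℂ,
      MeasureTheory.MemLp F 3 MeasureTheory.volume → MeasureTheory.MemLp G 3 MeasureTheory.volume →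
        (∫⁻ z, Crest.AnalysisR.annulusCount n F G z ^ (3 / 2 : ℝ)) ^ (2 / 3 : ℝ) ≤
          ENNReal.ofReal (C * Real.sqrt n * Real.log (2 + n)) * MeasureTheory.eLpNorm F 3 MeasureTheory.volume *
            MeasureTheory.eLpNorm G 3 MeasureTheory.volume := by
  obtain ⟨C, hC, h⟩ := h
  refine ⟨C, fun n hn F G hF hG => ?_⟩
  refine (ENNReal.rpow_le_rpow (h n hn F G hF hG).2 (by norm_num)).trans ?_
  rw [← ENNReal.rpow_mul, show (3 / 2 : ℝ) * (2 / 3) = 1 by norm_num, ENNReal.rpow_one]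
  refine mul_le_mul_left (mul_le_mul_left (ENNReal.ofReal_le_ofReal
    (le_mul_of_one_le_right (by positivity) ?_)) _) _
  have hn' : (1 : ℝ) ≤ n := by exact_mod_cast hn
  rw [Real.le_log_iff_exp_le (by positivity)]
  linarith [Real.exp_one_lt_d9]

end Crest.Agent.R72
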